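import Vale.Agent.P198.B.Stm

/-! Part II-b: points at a given distance and the final assembly. -/

open Set Metric Topology Filter MeasureTheory

namespace Vale.Agent.P198.PB

variable {G Z : Type*} [Group G] [MetricSpace Z] [MulAction G Z]

theorem mid_pf (E : Geo Z) : S_mid Z := by
  intro x y t h0 h1
  obtain ⟨γ, -⟩ := E.llc x y
  have hc : Continuous fun s => dist (γ s) x := γ.continuous.dist continuous_const
  have h := intermediate_value_univ 0 1 hc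
  obtain ⟨s, hs⟩ := h (show t ∈ Icc _ _ by simpa using ⟨h0, h1⟩)
  exact ⟨γ s, hs⟩

theorem asm [MeasurableSpace Z] (D : Dyn G Z) (hnc0 : S_nc0 Z) (hnc : S_nc D) (hnu : S_nu Z)
    (hsh : ∀ N : NC D, S_sh N) (hrep : S_rep) (hlam : ∀ S : Su D, S_lam S)
    (hblow : ∀ N : NC D, S_blow N) (hsym : ∀ S : Su D, S_sym S) (hweak : S_weak G Z) :
    PartIIb G Z := by
  intro hc
  obtain ⟨N⟩ := hnc (hnc0 hc)
  obtain ⟨ν, hν⟩ := hnu
  obtain ⟨d, hd, hdsm⟩ := (hsh N).dsm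
  let S : Su D := { N with ν := ν, d := d, d_pos := hd, nu := hν, dsm := hdsm }
  obtain ⟨K, l1, l2, l3⟩ := (hlam S).lin
  obtain ⟨κ, hκ, hlow⟩ := (hlam S).low
  obtain ⟨p0, a11, a12, a22, hp, h1, h2, e1, e2, e3⟩ :=
    hrep S.c S.ρ K κ S.L11 S.L12 S.L22 S.ρ_pos hκ l1 l2 l3 hlow
  let P : S.Pt := ⟨p0, a11, a12, a22, hp, h1, h2, e1, e2, e3⟩
  obtain ⟨W⟩ := hblow S.toNC p0 hp
  exact ⟨W.ch, a11, a12, a22, h1, h2, hweak W.ch a11 a12 a22 (hsym S P W)⟩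

end Vale.Agent.P198.PB
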