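import Vale.Agent.P198.Parts

/-! Part II-b: definitions and a small basic API (see skel/P198/B.md). -/

open Set Metric Topology Filter MeasureTheory

namespace Vale.Agent.P198.PB

/-! ### Banach limit -/

/-- The fixed free ultrafilter. -/
noncomputable abbrev UF : Filter ℕ := (hyperfilter ℕ : Filter ℕ)

theorem UF_le : UF ≤ atTop := by
  rw [← Nat.cofinite_eq_atTop]; exact hyperfilter_le_cofinite

theorem ev_UF {p : ℕ → Prop} (h : ∀ᶠ n in atTop, p n) : ∀ᶠ n in UF, p n := h.filter_mono UF_le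

/-- Limit of the Cesaro means along the ultrafilter. -/
noncomputable def BL (x : ℕ → ℝ) : ℝ :=
  limUnder UF fun N => (N : ℝ)⁻¹ * ∑ n ∈ Finset.range N, x n

def Bdd (x : ℕ → ℝ) : Prop := ∃ M, ∀ᶠ n in atTop, |x n| ≤ M

/-! ### Plane functions -/

/-- `φ` vanishes outside the closed disc. -/
def Sup (c : ℂ) (r : ℝ) (φ : ℂ → ℝ) : Prop := ∀ p, φ p ≠ 0 → ‖p - c‖ ≤ r

/-- Rescaling. -/
noncomputable def sc (p0 : ℂ) (s : ℝ) (φ : ℂ → ℝ) (p : ℂ) : ℝ := φ ((p - p0) / s)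

/-- `U` is a uniform limit of `C¹` functions of bounded energy. -/
def Apx (c : ℂ) (r : ℝ) (U : ℂ → ℝ) (M : ℝ) : Prop :=
  ∀ η > 0, ∃ b, ContDiff ℝ 1 b ∧ Sup c r b ∧ Dir b ≤ M ∧ ∀ p, |b p - U p| ≤ η

/-- Mean over a disc. -/
noncomputable def Nm (b : ℂ → ℝ) (p : ℂ) (s : ℝ) : ℝ :=
  Real.pi⁻¹ * ∫ w in ball (0 : ℂ) 1, b (p + s * w)

/-- A linear functional bounded in `L¹`. -/
structure Lin (c : ℂ) (ρ K : ℝ) (Λ : (ℂ → ℝ) → ℝ) : Prop where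
  add : ∀ a a', Continuous a → Sup c ρ a → Continuous a' → Sup c ρ a' →
    Λ (fun p => a p + a' p) = Λ a + Λ a'
  smul : ∀ (t : ℝ) a, Continuous a → Sup c ρ a → Λ (fun p => t * a p) = t * Λ a
  le : ∀ a, Continuous a → Sup c ρ a → |Λ a| ≤ K * ∫ p, |a p|

/-- Near `p0` the functional is almost `A` times the integral. -/
def Leb (p0 : ℂ) (A : ℝ) (Λ : (ℂ → ℝ) → ℝ) : Prop :=
  ∀ ε > 0, ∃ r0 > 0, ∀ r, 0 < r → r ≤ r0 → ∀ a, Continuous a → Sup p0 r a →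
    |Λ a - A * ∫ p, a p| ≤ ε * r * √(∫ p, a p ^ 2)

theorem Sup.tsupport {c : ℂ} {r : ℝ} {φ : ℂ → ℝ} (h : Sup c r φ) : tsupport φ ⊆ closedBall c r :=
  closure_minimal (fun p hp => mem_closedBall_iff_norm.2 (h p hp)) isClosed_closedBall

theorem Sup.hcs {c : ℂ} {r : ℝ} {φ : ℂ → ℝ} (h : Sup c r φ) : HasCompactSupport φ :=
  (isCompact_closedBall c r).of_isClosed_subset (isClosed_tsupport φ) h.tsupport

theorem Sup.mono {c c' : ℂ} {r r' : ℝ} {φ : ℂ → ℝ} (h : Sup c r φ) (hr : ‖c - c'‖ + r ≤ r') :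
    Sup c' r' φ := fun p hp => by
  have h1 := h p hp
  have h2 := norm_sub_le_norm_sub_add_norm_sub p c c'
  linarith

theorem Sup.of_imp {c : ℂ} {r : ℝ} {φ ψ : ℂ → ℝ} (h : Sup c r φ) (hi : ∀ p, φ p = 0 → ψ p = 0) :
    Sup c r ψ := fun p hp => h p fun h0 => hp (hi p h0)

theorem Sup.mul_left {c : ℂ} {r : ℝ} {φ : ℂ → ℝ} (h : Sup c r φ) (ψ : ℂ → ℝ) :
    Sup c r fun p => ψ p * φ p := h.of_imp fun p h0 => by rw [h0, mul_zero]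

theorem Sup.mul_right {c : ℂ} {r : ℝ} {φ : ℂ → ℝ} (h : Sup c r φ) (ψ : ℂ → ℝ) :
    Sup c r fun p => φ p * ψ p := h.of_imp fun p h0 => by rw [h0, zero_mul]

theorem Sup.add {c : ℂ} {r : ℝ} {φ ψ : ℂ → ℝ} (h : Sup c r φ) (h' : Sup c r ψ) :
    Sup c r fun p => φ p + ψ p := fun p hp => by
  by_cases h0 : φ p = 0
  · exact h' p fun h1 => hp (by simp only [h0, h1, add_zero])
  · exact h p h0

theorem Sup.sub {c : ℂ} {r : ℝ} {φ ψ : ℂ → ℝ} (h : Sup c r φ) (h' : Sup c r ψ) :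
    Sup c r fun p => φ p - ψ p := fun p hp => by
  by_cases h0 : φ p = 0
  · exact h' p fun h1 => hp (by simp only [h0, h1, sub_zero])
  · exact h p h0

theorem Sup.fderiv {c : ℂ} {r : ℝ} {φ : ℂ → ℝ} (h : Sup c r φ) (v : ℂ) :
    Sup c r fun p => fderiv ℝ φ p v := fun p hp => by
  refine mem_closedBall_iff_norm.1 (h.tsupport (support_fderiv_subset ℝ fun h0 => hp ?_))
  simp only [h0, zero_apply]

theorem Sup.dx {c : ℂ} {r : ℝ} {φ : ℂ → ℝ} (h : Sup c r φ) : Sup c r (dx φ) := h.fderiv 1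

theorem Sup.dy {c : ℂ} {r : ℝ} {φ : ℂ → ℝ} (h : Sup c r φ) : Sup c r (dy φ) := h.fderiv _

theorem Sup.integrable {c : ℂ} {r : ℝ} {φ : ℂ → ℝ} (h : Sup c r φ) (hc : Continuous φ) :
    Integrable φ := hc.integrable_of_hasCompactSupport h.hcs

theorem exists_Sup {φ : ℂ → ℝ} (h : HasCompactSupport φ) : ∃ R, 1 ≤ R ∧ Sup 0 R φ ∧
    ∀ w ∈ tsupport φ, ‖w‖ ≤ R := by
  obtain ⟨R, hR⟩ := h.isCompact.isBounded.exists_norm_le
  exact ⟨max R 1, le_max_right _ _, fun p hp => by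
    rw [sub_zero]; exact (hR p (subset_tsupport _ hp)).trans (le_max_left _ _),
    fun w hw => (hR w hw).trans (le_max_left _ _)⟩

theorem cont_dx {φ : ℂ → ℝ} (h : ContDiff ℝ 1 φ) : Continuous (dx φ) :=
  (h.continuous_fderiv one_ne_zero).clm_apply continuous_const

theorem cont_dy {φ : ℂ → ℝ} (h : ContDiff ℝ 1 φ) : Continuous (dy φ) :=
  (h.continuous_fderiv one_ne_zero).clm_apply continuous_const

theorem Dir_nonneg (φ : ℂ → ℝ) : 0 ≤ Dir φ := integral_nonneg fun _ => by positivity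

variable {G Z : Type*} [Group G] [MetricSpace Z] [MulAction G Z]

/-! ### The quasisymmetric chart -/

/-- Three point inequality on a set. -/
def QUp (f : Z → ℂ) (B : Set Z) (L K : ℝ) : Prop :=
  ∀ x ∈ B, ∀ y ∈ B, ∀ z ∈ B, dist y x ≤ L * dist z x → ‖f y - f x‖ ≤ K * ‖f z - f x‖

/-- A quasisymmetric chart on `B` with inverse `fi` on the disc of radius `4ρ` about `c`. -/
structure NC0 (Z : Type*) [MetricSpace Z] where
  f : Z → ℂ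
  fi : ℂ → Z
  B : Set Z
  c : ℂ
  ρ : ℝ
  ρ_pos : 0 < ρ
  opn : IsOpen B
  cont : ContinuousOn f B
  inj : InjOn f B
  bdd : ∃ M, ∀ x ∈ B, ‖f x‖ ≤ M
  fi_mem : ∀ p, ‖p - c‖ < 4 * ρ → fi p ∈ B ∧ f (fi p) = p
  fi_cont : ContinuousOn fi (ball c (4 * ρ))
  ins : ∃ r > 0, ∀ x ∈ B, ‖f x - c‖ ≤ 3 * ρ → ball x r ⊆ B
  up : ∀ L, ∃ K, 1 ≤ K ∧ QUp f B L K
  pw : ∃ K, 1 ≤ K ∧ ∀ j : ℕ, QUp f B (2 ^ j) (K ^ (j + 1))
  dec : ∀ ε > 0, ∃ θ > 0, QUp f B θ ε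

/-- `sz x n` is the size of the image of the ball of radius `q ^ n` about `x`. -/
structure NC (D : Dyn G Z) extends NC0 Z where
  sz : Z → ℕ → ℝ
  dn : ∃ L > 0, ∀ x ∈ B, ∀ y ∈ B, ∀ z ∈ B, ‖f y - f x‖ ≤ ‖f z - f x‖ → dist y x ≤ L * dist z x
  pos : ∀ᶠ n in atTop, ∀ x ∈ B, ‖f x - c‖ ≤ 3 * ρ → 0 < sz x n
  tiny : ∀ ε > 0, ∀ᶠ n in atTop, ∀ x ∈ B, ‖f x - c‖ ≤ 3 * ρ → sz x n ≤ ε
  out : ∀ L, ∃ K, 1 ≤ K ∧ ∀ᶠ n in atTop, ∀ x ∈ B, ‖f x - c‖ ≤ 3 * ρ → ∀ y,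
    dist y x ≤ L * D.q ^ n → y ∈ B ∧ ‖f y - f x‖ ≤ K * sz x n
  inn : ∀ L, ∃ K, 1 ≤ K ∧ ∀ᶠ n in atTop, ∀ x ∈ B, ‖f x - c‖ ≤ 3 * ρ → ∀ y ∈ B,
    ‖f y - f x‖ ≤ L * sz x n → dist y x ≤ K * D.q ^ n
  small : ∀ L, ∀ ε > 0, ∃ θ > 0, ∀ᶠ n in atTop, ∀ x ∈ B, ‖f x - c‖ ≤ 3 * ρ → ∀ y y',
    dist y x ≤ L * D.q ^ n → dist y' x ≤ L * D.q ^ n → dist y y' ≤ θ * D.q ^ n →
    ‖f y - f y'‖ ≤ ε * sz x n
  sep : ∀ L, ∃ K, 2 ≤ K ∧ ∀ᶠ n in atTop, ∀ x ∈ B, ‖f x - c‖ ≤ 3 * ρ → ∀ y y' (j : ℕ),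
    dist y x ≤ L * D.q ^ n → dist y' x ≤ L * D.q ^ n → ‖f y - f y'‖ ≤ sz x n / K ^ (j + 1) →
    dist y y' ≤ D.q ^ n / 2 ^ j

namespace NC

variable {D : Dyn G Z} (N : NC D)

/-- Pull back by the chart, extended by zero. -/
noncomputable def ext (φ : ℂ → ℝ) : Z → ℝ := N.B.indicator fun x => φ (N.f x)

/-- The chart extended by zero. -/
noncomputable def fm : Z → ℂ := N.B.indicator N.f

noncomputable def X : Z → ℝ := N.ext Complex.re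
noncomputable def Y : Z → ℝ := N.ext Complex.im

open Classical in
/-- The relevant nodes of level `n`. -/
noncomputable def Rel (n : ℕ) : Finset G :=
  (D.lev n).filter fun g => D.pt g ∈ N.B ∧ ‖N.f (D.pt g) - N.c‖ ≤ 2 * N.ρ

/-- Centre of the image of the tile. -/
def pg (g : G) : ℂ := N.f (D.pt g)

/-- Size of the image of the tile. -/
def sg (g : G) : ℝ := N.sz (D.pt g) (D.len g)

theorem ext_of_mem (φ : ℂ → ℝ) {x : Z} (h : x ∈ N.B) : N.ext φ x = φ (N.f x) := indicator_of_mem h _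

theorem ext_of_notMem (φ : ℂ → ℝ) {x : Z} (h : x ∉ N.B) : N.ext φ x = 0 :=
  indicator_of_notMem h _

theorem fm_of_mem {x : Z} (h : x ∈ N.B) : N.fm x = N.f x := indicator_of_mem h _

theorem ext_ne {φ : ℂ → ℝ} {x : Z} (h : N.ext φ x ≠ 0) : x ∈ N.B ∧ φ (N.f x) ≠ 0 := by
  by_cases hx : x ∈ N.B
  · exact ⟨hx, by rwa [N.ext_of_mem φ hx] at h⟩
  · exact absurd (N.ext_of_notMem φ hx) h

theorem ext_add (φ ψ : ℂ → ℝ) : N.ext (fun p => φ p + ψ p) = fun x => N.ext φ x + N.ext ψ x := by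
  funext x
  by_cases hx : x ∈ N.B <;> simp [ext, hx]

theorem ext_sub (φ ψ : ℂ → ℝ) : N.ext (fun p => φ p - ψ p) = fun x => N.ext φ x - N.ext ψ x := by
  funext x
  by_cases hx : x ∈ N.B <;> simp [ext, hx]

theorem ext_smul (t : ℝ) (φ : ℂ → ℝ) : N.ext (fun p => t * φ p) = fun x => t * N.ext φ x := by
  funext x
  by_cases hx : x ∈ N.B <;> simp [ext, hx]

theorem abs_ext_le {φ : ℂ → ℝ} {M : ℝ} (h : ∀ p, |φ p| ≤ M) (x : Z) : |N.ext φ x| ≤ M := by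
  by_cases hx : x ∈ N.B
  · rw [N.ext_of_mem φ hx]; exact h _
  · rw [N.ext_of_notMem φ hx, abs_zero]; exact (abs_nonneg _).trans (h 0)

theorem fi_f {x : Z} (hx : x ∈ N.B) (h : ‖N.f x - N.c‖ < 4 * N.ρ) : N.fi (N.f x) = x :=
  N.inj (N.fi_mem _ h).1 hx (N.fi_mem _ h).2

theorem ext_fi (φ : ℂ → ℝ) {p : ℂ} (h : ‖p - N.c‖ < 4 * N.ρ) : N.ext φ (N.fi p) = φ p := by
  rw [N.ext_of_mem φ (N.fi_mem p h).1, (N.fi_mem p h).2]

theorem mem_Rel {n : ℕ} {g : G} :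
    g ∈ N.Rel n ↔ D.len g = n ∧ D.pt g ∈ N.B ∧ ‖N.pg g - N.c‖ ≤ 2 * N.ρ := by
  classical
  simp [Rel, pg, D.mem_lev]

theorem Rel_subset (n : ℕ) : N.Rel n ⊆ D.lev n := fun _ h => D.mem_lev.2 (N.mem_Rel.1 h).1

theorem Rel_in {n : ℕ} {g : G} (h : g ∈ N.Rel n) : ‖N.f (D.pt g) - N.c‖ ≤ 3 * N.ρ := by
  have h1 : ‖N.f (D.pt g) - N.c‖ ≤ 2 * N.ρ := (N.mem_Rel.1 h).2.2
  linarith [N.ρ_pos]

theorem sg_eq {n : ℕ} {g : G} (h : g ∈ N.Rel n) : N.sg g = N.sz (D.pt g) n := by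
  rw [sg, (N.mem_Rel.1 h).1]

theorem sg_pos : ∀ᶠ n in atTop, ∀ g ∈ N.Rel n, 0 < N.sg g :=
  N.pos.mono fun _ h g hg => by rw [N.sg_eq hg]; exact h _ (N.mem_Rel.1 hg).2.1 (N.Rel_in hg)

theorem sg_tiny {ε : ℝ} (hε : 0 < ε) : ∀ᶠ n in atTop, ∀ g ∈ N.Rel n, N.sg g ≤ ε :=
  (N.tiny ε hε).mono fun _ h g hg => by
    rw [N.sg_eq hg]; exact h _ (N.mem_Rel.1 hg).2.1 (N.Rel_in hg)

/-- a weight supported in the disc of radius `ρ` vanishes at the irrelevant nodes -/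
theorem ext_pt_zero {a : ℂ → ℝ} (ha : Sup N.c N.ρ a) {n : ℕ} {g : G} (hg : g ∈ D.lev n)
    (hn : g ∉ N.Rel n) : N.ext a (D.pt g) = 0 := by
  by_contra h
  obtain ⟨h1, h2⟩ := N.ext_ne h
  have h3 := ha _ h2
  exact hn (N.mem_Rel.2 ⟨D.mem_lev.1 hg, h1, by unfold pg; linarith [N.ρ_pos]⟩)

theorem cpt_in {t : ℝ} (ht : t < 4 * N.ρ) : IsCompact {x | x ∈ N.B ∧ ‖N.f x - N.c‖ ≤ t} := by
  have h : {x | x ∈ N.B ∧ ‖N.f x - N.c‖ ≤ t} = N.fi '' closedBall N.c t := by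
    ext x
    constructor
    · rintro ⟨h1, h2⟩
      exact ⟨N.f x, mem_closedBall_iff_norm.2 h2, N.fi_f h1 (h2.trans_lt ht)⟩
    · rintro ⟨p, hp, rfl⟩
      have h1 := mem_closedBall_iff_norm.1 hp
      have h2 := N.fi_mem p (h1.trans_lt ht)
      exact ⟨h2.1, by rw [h2.2]; exact h1⟩
  rw [h]
  exact (isCompact_closedBall _ _).image_of_continuousOn
    (N.fi_cont.mono (closedBall_subset_ball ht))

theorem ext_cont {φ : ℂ → ℝ} (hc : Continuous φ) (hs : Sup N.c N.ρ φ) : Continuous (N.ext φ) := by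
  have hK := (N.cpt_in (t := N.ρ) (by linarith [N.ρ_pos])).isClosed
  rw [continuous_iff_continuousAt]
  intro x
  by_cases hx : x ∈ N.B
  · have h1 : ContinuousAt (fun y => φ (N.f y)) x :=
      hc.continuousAt.comp (N.cont.continuousAt (N.opn.mem_nhds hx))
    refine h1.congr ?_
    filter_upwards [N.opn.mem_nhds hx] with y hy using (N.ext_of_mem φ hy).symm
  · refine (continuousAt_const (y := (0 : ℝ))).congr ?_
    filter_upwards [hK.isOpen_compl.mem_nhds (fun h => hx h.1)] with y hy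
    by_contra h
    obtain ⟨h1, h2⟩ := N.ext_ne (Ne.symm h)
    exact hy ⟨h1, hs _ h2⟩

end NC

/-! ### The energy form -/

variable [MeasurableSpace Z]

/-- Measurable and bounded. -/
def MB (u : Z → ℝ) : Prop := Measurable u ∧ ∃ M, ∀ x, |u x| ≤ M

/-- A Frostman measure of full support. -/
structure Nu (ν : Measure Z) : Prop where
  fin : IsFiniteMeasure ν
  fro : ∀ x r, 0 ≤ r → ν.real (closedBall x r) ≤ 4 * r
  full : ∀ r > 0, ∃ c > 0, ∀ x, c ≤ ν.real (ball x r)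

/-- The data of the energy form. -/
structure Su (D : Dyn G Z) extends NC D where
  ν : Measure Z
  d : ℝ
  d_pos : 0 < d
  nu : Nu ν
  dsm : ∀ᶠ n in atTop, ∀ g ∈ toNC.Rel n, ∀ x ∈ B, ‖f x - toNC.pg g‖ ≤ toNC.sg g →
    4 * d ≤ dist (g⁻¹ • x) (D.pt g⁻¹)

/-- Oscillation of `u` on the shadow of `g`. -/
def Osc (D : Dyn G Z) (d : ℝ) (g : G) (u : Z → ℝ) (o : ℝ) : Prop :=
  ∀ x y, d ≤ dist x (D.pt g⁻¹) → d ≤ dist y (D.pt g⁻¹) → |u (g • x) - u (g • y)| ≤ o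

/-- Finite discrete energy. -/
def EB (D : Dyn G Z) (u : Z → ℝ) : Prop :=
  MB u ∧ ∀ d > 0, ∃ (o : G → ℝ) (M : ℝ), (∀ g, 0 ≤ o g) ∧ ∀ᶠ n in atTop,
    (∀ g ∈ D.lev n, Osc D d g u (o g)) ∧ ∑ g ∈ D.lev n, o g ^ 2 ≤ M

namespace Su

variable {D : Dyn G Z} (S : Su D)

/-- The cutoff near the repelling point. -/
noncomputable def wt (g : G) (x : Z) : ℝ := max (dist x (D.pt g⁻¹) - S.d) 0

/-- The energy carried by one node. -/
noncomputable def el (g : G) (u v : Z → ℝ) : ℝ :=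
  ∫ z : Z × Z, S.wt g z.1 * S.wt g z.2 *
    ((u (g • z.1) - u (g • z.2)) * (v (g • z.1) - v (g • z.2))) ∂(S.ν.prod S.ν)

/-- The weighted energy of level `n`. -/
noncomputable def En (a u v : Z → ℝ) (n : ℕ) : ℝ := ∑ g ∈ D.lev n, a (D.pt g) * S.el g u v

/-- The energy of level `n`. -/
noncomputable def E1 (u v : Z → ℝ) (n : ℕ) : ℝ := ∑ g ∈ D.lev n, S.el g u v

/-- The limit form. -/
noncomputable def B1 (u v : Z → ℝ) : ℝ := BL (S.E1 u v)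

noncomputable def L11 (a : ℂ → ℝ) : ℝ := BL (S.En (S.ext a) S.X S.X)
noncomputable def L12 (a : ℂ → ℝ) : ℝ := BL (S.En (S.ext a) S.X S.Y)
noncomputable def L22 (a : ℂ → ℝ) : ℝ := BL (S.En (S.ext a) S.Y S.Y)

/-- The constant in the oscillation bound. -/
noncomputable def K0 : ℝ := (D.C * S.ν.real univ) ^ 2

/-- A Lebesgue point of the coefficients. -/
structure Pt where
  p0 : ℂ
  a11 : ℝ
  a12 : ℝ
  a22 : ℝ
  hp : ‖p0 - S.c‖ < S.ρ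
  pos : 0 < a11
  det : a12 ^ 2 < a11 * a22
  l11 : Leb p0 a11 S.L11
  l12 : Leb p0 a12 S.L12
  l22 : Leb p0 a22 S.L22

end Su

/-- The blow-up of the chart at `p0`. -/
structure Blow {D : Dyn G Z} (N : NC D) (p0 : ℂ) where
  ch : GCh Z
  g : ℕ → G
  s : ℕ → ℝ
  s_pos : ∀ᶠ k in atTop, 0 < s k
  s_zero : Tendsto s atTop (𝓝 0)
  fw : ∀ d > 0, ∀ ε > 0, ∀ᶠ k in UF, ∀ y, d ≤ dist y ch.b →
    g k • y ∈ N.B ∧ ‖(N.f (g k • y) - p0) / s k - ch.h y‖ ≤ ε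
  bw : ∀ R, ∀ ε > 0, ∀ᶠ k in UF, ∀ w : ℂ, ‖w‖ ≤ R →
    dist ((g k)⁻¹ • N.fi (p0 + s k * w)) (ch.k w) ≤ ε

/-- The conjugated group element. -/
def Blow.cj {D : Dyn G Z} {N : NC D} {p0 : ℂ} (W : Blow N p0) (γ : G) (k : ℕ) : G :=
  W.g k * γ * (W.g k)⁻¹

end Vale.Agent.P198.PB
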