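import Vale.Agent.P198.B.Stm

open Set Metric Topology Filter MeasureTheory

namespace Vale.Agent.P198.PB

variable {G Z : Type*} [Group G] [MetricSpace Z] [MulAction G Z]

namespace BlAux

theorem all_bd {x : ℕ → ℝ} (h : Bdd x) : ∃ M, ∀ n, |x n| ≤ M := by
  obtain ⟨M, hM⟩ := h
  obtain ⟨n0, h0⟩ := eventually_atTop.1 hM
  refine ⟨max M (∑ n ∈ Finset.range n0, |x n|), fun n => ?_⟩
  rcases lt_or_ge n n0 with h1 | h1
  · exact le_max_of_le_right
      (Finset.single_le_sum (f := fun n => |x n|) (fun _ _ => abs_nonneg _) (Finset.mem_range.2 h1))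
  · exact le_max_of_le_left (h0 n h1)

theorem tend {x : ℕ → ℝ} (h : Bdd x) :
    Tendsto (fun N : ℕ => (N : ℝ)⁻¹ * ∑ n ∈ Finset.range N, x n) UF (𝓝 (BL x)) := by
  obtain ⟨M, hM⟩ := all_bd h
  have hM0 : 0 ≤ M := (abs_nonneg _).trans (hM 0)
  have h1 : ∀ N : ℕ, (N : ℝ)⁻¹ * ∑ n ∈ Finset.range N, x n ∈ Icc (-M) M := fun N => by
    refine abs_le.1 ?_
    have h2 : |∑ n ∈ Finset.range N, x n| ≤ N * M := by
      refine (Finset.abs_sum_le_sum_abs _ _).trans ?_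
      simpa using Finset.sum_le_sum fun n (_ : n ∈ Finset.range N) => hM n
    rw [abs_mul, abs_of_nonneg (by positivity : (0 : ℝ) ≤ (N : ℝ)⁻¹)]
    refine (mul_le_mul_of_nonneg_left h2 (by positivity)).trans ?_
    rw [← mul_assoc]
    exact mul_le_of_le_one_left hM0 inv_mul_le_one
  obtain ⟨a, -, ha⟩ := isCompact_Icc.ultrafilter_le_nhds
    ((hyperfilter ℕ).map fun N : ℕ => (N : ℝ)⁻¹ * ∑ n ∈ Finset.range N, x n)
    (le_principal_iff.2 (mem_map.2 (univ_mem' h1)))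
  exact tendsto_nhds_limUnder ⟨a, ha⟩

theorem badd (x y : ℕ → ℝ) (hx : Bdd x) (hy : Bdd y) : Bdd fun n => x n + y n := by
  obtain ⟨M, hM⟩ := hx
  obtain ⟨M', hM'⟩ := hy
  exact ⟨M + M', (hM.and hM').mono fun n h => (abs_add_le _ _).trans (add_le_add h.1 h.2)⟩

theorem bsmul (t : ℝ) (x : ℕ → ℝ) (hx : Bdd x) : Bdd fun n => t * x n := by
  obtain ⟨M, hM⟩ := hx
  refine ⟨|t| * M, hM.mono fun n h => ?_⟩
  rw [abs_mul]
  exact mul_le_mul_of_nonneg_left h (abs_nonneg t)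

theorem bconst (t : ℝ) : Bdd fun _ => t := ⟨|t|, Eventually.of_forall fun _ => le_rfl⟩

theorem add (x y : ℕ → ℝ) (hx : Bdd x) (hy : Bdd y) : BL (fun n => x n + y n) = BL x + BL y := by
  refine tendsto_nhds_unique (tend (badd x y hx hy)) (((tend hx).add (tend hy)).congr fun N => ?_)
  rw [Finset.sum_add_distrib, mul_add]

theorem smul (t : ℝ) (x : ℕ → ℝ) (hx : Bdd x) : BL (fun n => t * x n) = t * BL x := by
  refine tendsto_nhds_unique (tend (bsmul t x hx)) (((tend hx).const_mul t).congr fun N => ?_)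
  rw [← Finset.mul_sum, mul_left_comm]

theorem const (t : ℝ) : BL (fun _ => t) = t := by
  refine tendsto_nhds_unique (tend (bconst t)) (tendsto_const_nhds.congr' (ev_UF ?_))
  filter_upwards [eventually_gt_atTop 0] with N hN
  have h : (N : ℝ) ≠ 0 := by exact_mod_cast hN.ne'
  rw [Finset.sum_const, Finset.card_range, nsmul_eq_mul, inv_mul_cancel_left₀ h]

theorem key {x y : ℕ → ℝ} (hx : Bdd x) (hy : Bdd y) {C ε : ℝ} (h : ∀ᶠ N : ℕ in atTop,
    ∑ n ∈ Finset.range N, x n ≤ ∑ n ∈ Finset.range N, y n + (C + N * ε)) : BL x ≤ BL y + ε := by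
  have h1 : Tendsto (fun N : ℕ => (N : ℝ)⁻¹ * C) UF (𝓝 (0 * C)) :=
    ((tendsto_inv_atTop_nhds_zero_nat (𝕜 := ℝ)).mul_const C).mono_left UF_le
  have h2 := ((tend hy).add h1).add_const ε
  rw [zero_mul, add_zero] at h2
  refine le_of_tendsto_of_tendsto (tend hx) h2 (ev_UF ?_)
  filter_upwards [h, eventually_gt_atTop 0] with N h3 hN
  have h4 : (N : ℝ) ≠ 0 := by exact_mod_cast hN.ne'
  have h5 := mul_le_mul_of_nonneg_left h3 (by positivity : (0 : ℝ) ≤ (N : ℝ)⁻¹)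
  rw [mul_add, mul_add, inv_mul_cancel_left₀ h4] at h5
  linarith

theorem le (x y : ℕ → ℝ) (hx : Bdd x) (hy : Bdd y)
    (h : ∀ ε > 0, ∀ᶠ n in atTop, x n ≤ y n + ε) : BL x ≤ BL y := by
  refine le_of_forall_pos_le_add fun ε hε => ?_
  obtain ⟨n0, h0⟩ := eventually_atTop.1 (h ε hε)
  refine key hx hy (C := ∑ n ∈ Finset.range n0, x n - ∑ n ∈ Finset.range n0, y n)
    (eventually_atTop.2 ⟨n0, fun N hN => ?_⟩)
  induction N, hN using Nat.le_induction with
  | base =>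
    have : (0 : ℝ) ≤ n0 * ε := by positivity
    linarith
  | succ N hN ih =>
    rw [Finset.sum_range_succ, Finset.sum_range_succ]
    push_cast
    linarith [h0 N hN]

theorem near (x y : ℕ → ℝ) (t : ℝ) (hy : Bdd y)
    (h : ∀ ε > 0, ∀ᶠ n in atTop, |x n - y n| ≤ t + ε) : Bdd x ∧ |BL x - BL y| ≤ t := by
  have hx : Bdd x := by
    obtain ⟨M, hM⟩ := hy
    refine ⟨M + (t + 1), (hM.and (h 1 one_pos)).mono fun n h => ?_⟩
    have h1 := abs_le.1 h.1
    have h2 := abs_le.1 h.2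
    rw [abs_le]
    constructor <;> linarith [h1.1, h1.2, h2.1, h2.2]
  have h1 := le x _ hx (badd y _ hy (bconst t)) fun ε hε => (h ε hε).mono fun n h => by
    linarith [(abs_le.1 h).2]
  have h2 := le y _ hy (badd x _ hx (bconst t)) fun ε hε => (h ε hε).mono fun n h => by
    linarith [(abs_le.1 h).1]
  rw [add _ _ hy (bconst t), const] at h1
  rw [add _ _ hx (bconst t), const] at h2
  exact ⟨hx, abs_le.2 ⟨by linarith, by linarith⟩⟩

theorem abs_le' (x : ℕ → ℝ) (t : ℝ) (h : ∀ ε > 0, ∀ᶠ n in atTop, |x n| ≤ t + ε) :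
    Bdd x ∧ |BL x| ≤ t := by
  have h1 := near x (fun _ => 0) t (bconst 0) fun ε hε => by simpa using h ε hε
  rwa [const, sub_zero] at h1

theorem ces (x y : ℕ → ℝ) (hx : Bdd x) (hy : Bdd y) (h : ∃ M, ∀ᶠ N in atTop,
    |∑ n ∈ Finset.range N, x n - ∑ n ∈ Finset.range N, y n| ≤ M) : BL x = BL y := by
  obtain ⟨M, hM⟩ := h
  have h1 := key hx hy (C := M) (ε := 0) (hM.mono fun N h => by linarith [(abs_le.1 h).2])
  have h2 := key hy hx (C := M) (ε := 0) (hM.mono fun N h => by linarith [(abs_le.1 h).1])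
  linarith

end BlAux

theorem bl_pf : S_bl := by
  exact ⟨BlAux.add, BlAux.smul, BlAux.const, BlAux.le, BlAux.abs_le', BlAux.near, BlAux.ces,
    BlAux.badd, BlAux.bsmul⟩

end Vale.Agent.P198.PB
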