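import Vale.Agent.P198.B.Stm

open Set Metric Topology Filter MeasureTheory

namespace Vale.Agent.P198.PB

variable {G Z : Type*} [Group G] [MetricSpace Z] [MulAction G Z]

theorem blow_pf [CompactSpace Z] {D : Dyn G Z} (N : NC D) (hdyn : S_dyn D) (hlim : S_lim Z) : S_blow N := by
  intro p0 hp
  have hρ := N.ρ_pos
  have hC := D.C_pos
  obtain ⟨hxB, hfx⟩ := N.fi_mem p0 (by linarith)
  set x0 := N.fi p0 with hx0
  have h3 : ‖N.f x0 - N.c‖ ≤ 3 * N.ρ := by rw [hfx]; linarith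
  choose g hg1 hg2 using D.surj x0
  have hpos : ∀ᶠ k in atTop, 0 < N.sz x0 k := N.pos.mono fun k h => h x0 hxB h3
  have htiny : ∀ ε > 0, ∀ᶠ k in atTop, N.sz x0 k ≤ ε := fun ε hε =>
    (N.tiny ε hε).mono fun k h => h x0 hxB h3
  have near : ∀ d > 0, ∀ k y, d ≤ dist y (D.pt (g k)⁻¹) →
      dist (g k • y) x0 ≤ (D.C / d + D.C) * D.q ^ k := fun d hd k y hy => by
    have h1 := hdyn.sh (g k) y d hd hy
    rw [hg1] at h1
    have h2 := dist_triangle (g k • y) (D.pt (g k)) x0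
    have := hg2 k
    linarith
  have fwd : ∀ d > 0, ∃ K, 1 ≤ K ∧ ∀ᶠ k in atTop, ∀ y, d ≤ dist y (D.pt (g k)⁻¹) →
      g k • y ∈ N.B ∧ ‖N.f (g k • y) - p0‖ ≤ K * N.sz x0 k := fun d hd => by
    obtain ⟨K, hK, h⟩ := N.out (D.C / d + D.C)
    refine ⟨K, hK, h.mono fun k hk y hy => ?_⟩
    have := hk x0 hxB h3 _ (near d hd k y hy)
    rwa [hfx] at this
  have back : ∀ R : ℝ, ∃ K, 1 ≤ K ∧ ∀ᶠ k in atTop, ∀ w : ℂ, ‖w‖ ≤ R →
      N.f (N.fi (p0 + N.sz x0 k * w)) = p0 + N.sz x0 k * w ∧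
      dist (N.fi (p0 + N.sz x0 k * w)) x0 ≤ K * D.q ^ k := fun R => by
    obtain ⟨K, hK, h⟩ := N.inn R
    refine ⟨K, hK, ?_⟩
    filter_upwards [h, hpos, htiny (N.ρ / (|R| + 1)) (by positivity)] with k hk h1 h2 w hw
    have h4 : ‖(N.sz x0 k : ℂ) * w‖ ≤ R * N.sz x0 k := by
      rw [norm_mul, Complex.norm_real, Real.norm_of_nonneg h1.le, mul_comm]
      exact mul_le_mul_of_nonneg_right hw h1.le
    have h5 : R * N.sz x0 k ≤ N.ρ := by
      rw [le_div_iff₀ (by positivity)] at h2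
      nlinarith [le_abs_self R]
    have h6 : ‖p0 + N.sz x0 k * w - N.c‖ < 4 * N.ρ := by
      have e : p0 + N.sz x0 k * w - N.c = (p0 - N.c) + N.sz x0 k * w := by ring
      rw [e]
      have := norm_add_le (p0 - N.c) ((N.sz x0 k : ℂ) * w)
      linarith
    obtain ⟨h7, h8⟩ := N.fi_mem _ h6
    refine ⟨h8, hk x0 hxB h3 _ h7 ?_⟩
    rw [h8, hfx, add_sub_cancel_left]
    exact h4
  obtain ⟨ch, ha, hf, hb⟩ := hlim (fun k y => (N.f (g k • y) - p0) / N.sz x0 k)
    (fun k w => (g k)⁻¹ • N.fi (p0 + N.sz x0 k * w)) (fun k => D.pt (g k)⁻¹)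
    (fun d hd => by
      obtain ⟨K, hK, h⟩ := fwd d hd
      refine ⟨K, ?_⟩
      filter_upwards [h, hpos, htiny (N.ρ / K) (by positivity)] with k hk h1 h2 y hy
      obtain ⟨h4, h5⟩ := hk y hy
      have hs : (N.sz x0 k : ℂ) ≠ 0 := by exact_mod_cast h1.ne'
      refine ⟨?_, ?_⟩
      · rw [norm_div, Complex.norm_real, Real.norm_of_nonneg h1.le, div_le_iff₀ h1]
        exact h5
      · rw [mul_div_cancel₀ _ hs, add_sub_cancel, N.fi_f h4, inv_smul_smul]
        rw [le_div_iff₀ (by positivity)] at h2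
        have := norm_sub_le_norm_sub_add_norm_sub (N.f (g k • y)) p0 N.c
        nlinarith)
    (fun d hd ε hε => by
      obtain ⟨θ, hθ, h⟩ := N.small (D.C / d + D.C) ε hε
      refine ⟨θ * d ^ 2 / D.C ^ 3, by positivity, ?_⟩
      filter_upwards [h, hpos] with k hk h1 y y' hy hy' hd'
      have h2 := hdyn.con (g k) y y' d hd hy hy'
      rw [hg1] at h2
      have h4 : D.C ^ 3 / d ^ 2 * dist y y' ≤ θ := by
        calc D.C ^ 3 / d ^ 2 * dist y y' ≤ D.C ^ 3 / d ^ 2 * (θ * d ^ 2 / D.C ^ 3) := by gcongr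
          _ = θ := by field_simp
      have h5 := hk x0 hxB h3 _ _ (near d hd k y hy) (near d hd k y' hy')
        (h2.trans (mul_le_mul_of_nonneg_right h4 (D.qpow_pos k).le))
      rw [← sub_div, sub_sub_sub_cancel_right, norm_div, Complex.norm_real,
        Real.norm_of_nonneg h1.le, div_le_iff₀ h1]
      exact h5)
    (fun R => by
      obtain ⟨K, hK, h⟩ := back R
      refine ⟨1 / (D.C * (K + D.C)), by positivity, ?_⟩
      filter_upwards [h, hpos, hdyn.far (K + D.C) (by linarith)] with k hk h1 h2 w hw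
      obtain ⟨h4, h5⟩ := hk w hw
      have hs : (N.sz x0 k : ℂ) ≠ 0 := by exact_mod_cast h1.ne'
      refine ⟨h2 (g k) (hg1 k) _ ?_, ?_⟩
      · have := dist_triangle_right (N.fi (p0 + N.sz x0 k * w)) (D.pt (g k)) x0
        have := hg2 k
        linarith
      · rw [smul_inv_smul, h4, add_sub_cancel_left, mul_div_cancel_left₀ _ hs])
    (fun R ε hε => by
      obtain ⟨K, hK, h⟩ := back R
      obtain ⟨K2, hK2, h'⟩ := N.sep K
      obtain ⟨j, hj⟩ := pow_unbounded_of_one_lt (D.C / ε) (one_lt_two (α := ℝ))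
      refine ⟨1 / K2 ^ (j + 1), by positivity, ?_⟩
      filter_upwards [h, h', hpos] with k hk hk' h1 w w' hw hw' hd
      obtain ⟨h4, h5⟩ := hk w hw
      obtain ⟨h6, h7⟩ := hk w' hw'
      have h8 := hk' x0 hxB h3 _ _ j h5 h7 (by
        rw [h4, h6, add_sub_add_left_eq_sub, ← mul_sub, norm_mul, Complex.norm_real,
          Real.norm_of_nonneg h1.le, div_eq_mul_one_div]
        exact mul_le_mul_of_nonneg_left hd h1.le)
      have h9 := hdyn.exp (g k) (N.fi (p0 + N.sz x0 k * w)) (N.fi (p0 + N.sz x0 k * w'))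
      rw [hg1] at h9
      have hq := D.qpow_pos k
      have h10 : D.C * (D.q ^ k / 2 ^ j) ≤ ε * D.q ^ k := by
        rw [div_lt_iff₀ hε] at hj
        rw [← mul_div_assoc, div_le_iff₀ (by positivity)]
        nlinarith
      exact le_of_mul_le_mul_right (h9.trans ((mul_le_mul_of_nonneg_left h8 hC.le).trans h10)) hq)
  refine ⟨⟨ch, g, N.sz x0, hpos, ?_, fun d hd ε hε => ?_, hb⟩⟩
  · rw [Metric.tendsto_nhds]
    intro ε hε
    filter_upwards [hpos, htiny (ε / 2) (by positivity)] with k h1 h2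
    rw [Real.dist_eq, sub_zero, abs_of_pos h1]
    linarith
  · obtain ⟨K, -, h⟩ := fwd (d / 2) (by positivity)
    filter_upwards [ev_UF h, hf d hd ε hε, (Metric.tendsto_nhds.1 ha) (d / 2) (by positivity)]
      with k h1 h2 h4 y hy
    refine ⟨(h1 y ?_).1, h2 y hy⟩
    have := dist_triangle y (D.pt (g k)⁻¹) ch.b
    linarith

end Vale.Agent.P198.PB
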