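import Vale.Agent.P198.B.Stm

open Set Metric Topology Filter MeasureTheory

namespace Vale.Agent.P198.PB

variable {G Z : Type*} [Group G] [MetricSpace Z] [MulAction G Z]

namespace CesAux

open Classical in
/-- The union of consecutive levels. -/
noncomputable def shell (D : Dyn G Z) (I : Finset ℕ) : Finset G := I.biUnion D.lev

theorem mem_shell (D : Dyn G Z) (I : Finset ℕ) (g : G) : g ∈ shell D I ↔ D.len g ∈ I := by
  classical
  simp [shell, D.mem_lev]

theorem sum_shell (D : Dyn G Z) (I : Finset ℕ) (f : G → ℝ) :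
    ∑ g ∈ shell D I, f g = ∑ n ∈ I, ∑ g ∈ D.lev n, f g := by
  classical
  unfold shell
  refine Finset.sum_biUnion ?_
  intro a _ b _ hab
  refine Finset.disjoint_left.2 fun g h1 h2 => hab ?_
  rw [← D.mem_lev.1 h1, ← D.mem_lev.1 h2]

theorem shell_le (D : Dyn G Z) (t : G → ℝ) (M : ℝ) (n0 a k : ℕ)
    (hM : ∀ n, n0 ≤ n → ∑ g ∈ D.lev n, |t g| ≤ M) (ha : n0 ≤ a) (s : Finset G)
    (hs : ∀ g ∈ s, a ≤ D.len g ∧ D.len g < a + k) : ∑ g ∈ s, |t g| ≤ k * M := by
  have h1 : s ⊆ shell D (Finset.Ico a (a + k)) := fun g hg =>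
    (mem_shell D _ g).2 (Finset.mem_Ico.2 (hs g hg))
  calc ∑ g ∈ s, |t g| ≤ ∑ g ∈ shell D (Finset.Ico a (a + k)), |t g| :=
        Finset.sum_le_sum_of_subset_of_nonneg h1 fun g _ _ => abs_nonneg _
    _ = ∑ n ∈ Finset.Ico a (a + k), ∑ g ∈ D.lev n, |t g| := sum_shell D _ _
    _ ≤ ∑ _n ∈ Finset.Ico a (a + k), M :=
        Finset.sum_le_sum fun n hn => hM n (ha.trans (Finset.mem_Ico.1 hn).1)
    _ = k * M := by simp

end CesAux

open CesAux in
theorem ces_pf (D : Dyn G Z) (hbl : S_bl) (hdyn : S_dyn D) : S_ces D := by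
  classical
  rintro t h ⟨M, hM⟩
  obtain ⟨n0, hM⟩ := eventually_atTop.1 hM
  have hinj : ∀ s : Finset G, Set.InjOn (fun g => h * g) (s : Set G) :=
    fun s a _ b _ hab => mul_left_cancel hab
  have h1 : ∀ᶠ n in atTop, ∑ g ∈ D.lev n, |t (h * g)| ≤ ((2 * D.len h + 1 : ℕ) : ℝ) * M := by
    filter_upwards [eventually_ge_atTop (n0 + D.len h)] with n hn
    rw [← Finset.sum_image (f := fun g => |t g|) (hinj _)]
    refine shell_le D t M n0 (n - D.len h) _ hM (by omega) _ fun g hg => ?_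
    obtain ⟨g', hg', rfl⟩ := Finset.mem_image.1 hg
    have e1 := D.mem_lev.1 hg'
    have e2 := D.len_mul h g'
    have e3 := hdyn.len_le h g'
    constructor <;> omega
  refine ⟨⟨_, h1⟩, hbl.ces _ _ ⟨_, h1.mono fun n hn => (Finset.abs_sum_le_sum_abs _ _).trans hn⟩
    ⟨M, eventually_atTop.2 ⟨n0, fun n hn => (Finset.abs_sum_le_sum_abs _ _).trans (hM n hn)⟩⟩
    ⟨(D.len h : ℝ) * M + (D.len h : ℝ) * M, ?_⟩⟩
  filter_upwards [eventually_ge_atTop (n0 + D.len h)] with N hN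
  rw [← sum_shell D _ fun g => t (h * g), ← sum_shell D _ t,
    ← Finset.sum_image (f := t) (hinj _), ← Finset.sum_sdiff_sub_sum_sdiff]
  refine (abs_sub _ _).trans (add_le_add ?_ ?_)
  · refine (Finset.abs_sum_le_sum_abs _ _).trans
      (shell_le D t M n0 N _ hM (by omega) _ fun g hg => ?_)
    obtain ⟨hg1, hg2⟩ := Finset.mem_sdiff.1 hg
    obtain ⟨g', hg', rfl⟩ := Finset.mem_image.1 hg1
    rw [mem_shell, Finset.mem_range] at hg' hg2
    have e2 := D.len_mul h g'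
    constructor <;> omega
  · refine (Finset.abs_sum_le_sum_abs _ _).trans
      (shell_le D t M n0 (N - D.len h) _ hM (by omega) _ fun g hg => ?_)
    obtain ⟨hg1, hg2⟩ := Finset.mem_sdiff.1 hg
    rw [mem_shell, Finset.mem_range] at hg1
    have e1 : ¬ D.len (h⁻¹ * g) < N := fun hh => hg2 (Finset.mem_image.2
      ⟨h⁻¹ * g, (mem_shell D _ _).2 (Finset.mem_range.2 hh), mul_inv_cancel_left h g⟩)
    have e3 := hdyn.len_le h (h⁻¹ * g)
    rw [mul_inv_cancel_left] at e3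
    constructor <;> omega

end Vale.Agent.P198.PB
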