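import Vale.Agent.P198.B.Stm

open Set Metric Topology Filter MeasureTheory

namespace Vale.Agent.P198.PB

variable {G Z : Type*} [Group G] [MetricSpace Z] [MulAction G Z]

namespace ChainAux

variable [MeasurableSpace Z] {D : Dyn G Z} {S : Su D}

omit [MeasurableSpace Z] in
theorem osc_of {N : NC D} {d r c : ℝ} {g : G} {p : ℂ} (hc : 0 ≤ c)
    (hs : ∀ y, d ≤ dist y (D.pt g⁻¹) → g • y ∈ N.B ∧ ‖N.f (g • y) - p‖ ≤ r)
    {φ : ℂ → ℝ} (hφ : ∀ u v, ‖u - p‖ ≤ r → ‖v - p‖ ≤ r → |φ u - φ v| ≤ c * ‖u - v‖)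
    {w : Z → ℝ} (hw : ∀ x ∈ N.B, w x = φ (N.f x)) : Osc D d g w (c * (2 * r)) := by
  intro x y hx hy
  obtain ⟨a1, a2⟩ := hs x hx
  obtain ⟨b1, b2⟩ := hs y hy
  rw [hw _ a1, hw _ b1]
  refine (hφ _ _ a2 b2).trans (mul_le_mul_of_nonneg_left ?_ hc)
  have h1 := norm_sub_le_norm_sub_add_norm_sub (N.f (g • x)) p (N.f (g • y))
  rw [norm_sub_rev p] at h1
  linarith

theorem mbX (hmbl : S_mbl S.toNC) : MB S.X := hmbl.ext _ Complex.continuous_re

theorem mbY (hmbl : S_mbl S.toNC) : MB S.Y := hmbl.ext _ Complex.continuous_im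

/-- The linear part. -/
noncomputable def lin (S : Su D) (s t : ℝ) (x : Z) : ℝ := s * S.X x + t * S.Y x

theorem mb_lin (hmbl : S_mbl S.toNC) (s t : ℝ) : MB (lin S s t) :=
  hmbl.add _ _ (hmbl.smul s _ (mbX hmbl)) (hmbl.smul t _ (mbY hmbl))

theorem el_lin (hmbl : S_mbl S.toNC) (hel : S_el S) (g : G) (s t : ℝ) {w : Z → ℝ} (hw : MB w) :
    S.el g (lin S s t) w = s * S.el g S.X w + t * S.el g S.Y w := by
  have h1 := hel.add g _ _ w (hmbl.smul s _ (mbX hmbl)) (hmbl.smul t _ (mbY hmbl)) hw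
  rw [hel.smul, hel.smul] at h1
  exact h1

theorem el_lin_lin (hmbl : S_mbl S.toNC) (hel : S_el S) (g : G) (s t s' t' : ℝ) :
    S.el g (lin S s t) (lin S s' t') = s * s' * S.el g S.X S.X +
      (s * t' + t * s') * S.el g S.X S.Y + t * t' * S.el g S.Y S.Y := by
  rw [el_lin hmbl hel g s t (mb_lin hmbl s' t'), hel.symm g S.X, hel.symm g S.Y,
    el_lin hmbl hel g s' t' (mbX hmbl), el_lin hmbl hel g s' t' (mbY hmbl), hel.symm g S.Y S.X]
  ring

theorem lin_mem (s t : ℝ) {x : Z} (hx : x ∈ S.B) :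
    lin S s t x = s * (S.f x).re + t * (S.f x).im := by
  unfold lin NC.X NC.Y
  rw [S.ext_of_mem _ hx, S.ext_of_mem _ hx]

theorem lin_lip {s t M : ℝ} (hs : |s| ≤ M) (ht : |t| ≤ M) (u v : ℂ) :
    |(s * u.re + t * u.im) - (s * v.re + t * v.im)| ≤ 2 * M * ‖u - v‖ := by
  have h1 : |(u - v).re| ≤ ‖u - v‖ := Complex.abs_re_le_norm _
  have h2 : |(u - v).im| ≤ ‖u - v‖ := Complex.abs_im_le_norm _
  have e : (s * u.re + t * u.im) - (s * v.re + t * v.im) = s * (u - v).re + t * (u - v).im := by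
    simp only [Complex.sub_re, Complex.sub_im]
    ring
  rw [e]
  have hM : 0 ≤ M := (abs_nonneg _).trans hs
  have h3 : |s * (u - v).re| ≤ M * ‖u - v‖ := by
    rw [abs_mul]
    exact mul_le_mul hs h1 (abs_nonneg _) hM
  have h4 : |t * (u - v).im| ≤ M * ‖u - v‖ := by
    rw [abs_mul]
    exact mul_le_mul ht h2 (abs_nonneg _) hM
  have h5 := abs_add_le (s * (u - v).re) (t * (u - v).im)
  linarith

theorem rel_term (hmbl : S_mbl S.toNC) (hel : S_el S) {g : G} {b ψ : ℂ → ℝ} (hb : Continuous b)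
    (hψ : Continuous ψ) {p : ℂ} {r η M1 M2 s t s' t' : ℝ} (hr : 0 ≤ r) (hη : 0 ≤ η)
    (hM2 : 0 ≤ M2) (hs : |s| ≤ M1) (ht : |t| ≤ M1)
    (hsh : ∀ y, S.d ≤ dist y (D.pt g⁻¹) → g • y ∈ S.B ∧ ‖S.f (g • y) - p‖ ≤ r)
    (l2 : ∀ u v, |ψ u - ψ v| ≤ M2 * ‖u - v‖)
    (t1 : ∀ u v : ℂ, ‖u - p‖ ≤ r → ‖v - p‖ ≤ r →
      |b u - b v - (s * (u.re - v.re) + t * (u.im - v.im))| ≤ η * ‖u - v‖)
    (t2 : ∀ u v : ℂ, ‖u - p‖ ≤ r → ‖v - p‖ ≤ r →
      |ψ u - ψ v - (s' * (u.re - v.re) + t' * (u.im - v.im))| ≤ η * ‖u - v‖) :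
    |S.el g (S.ext b) (S.ext ψ) - (s * s' * S.el g S.X S.X +
      (s * t' + t * s') * S.el g S.X S.Y + t * t' * S.el g S.Y S.Y)| ≤
      η * (S.K0 * (4 * (M2 + 2 * M1))) * r ^ 2 := by
  have hM1 : 0 ≤ M1 := (abs_nonneg _).trans hs
  have m1 := hmbl.ext b hb
  have m2 := hmbl.ext ψ hψ
  have m3 := mb_lin hmbl s t
  have m4 := mb_lin hmbl s' t'
  have e1 := hel.sub g _ _ _ m1 m3 m2
  have e2 := hel.sub g _ _ _ m2 m4 m3
  have o1 : Osc D S.d g (fun x => S.ext b x - lin S s t x) (η * (2 * r)) := by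
    refine osc_of hη hsh (φ := fun u => b u - (s * u.re + t * u.im)) ?_ ?_
    · intro u v hu hv
      have h1 := t1 u v hu hv
      convert h1 using 2
      ring
    · intro x hx
      rw [S.ext_of_mem _ hx, lin_mem s t hx]
  have o2 : Osc D S.d g (fun x => S.ext ψ x - lin S s' t' x) (η * (2 * r)) := by
    refine osc_of hη hsh (φ := fun u => ψ u - (s' * u.re + t' * u.im)) ?_ ?_
    · intro u v hu hv
      have h1 := t2 u v hu hv
      convert h1 using 2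
      ring
    · intro x hx
      rw [S.ext_of_mem _ hx, lin_mem s' t' hx]
  have o3 : Osc D S.d g (S.ext ψ) (M2 * (2 * r)) :=
    osc_of hM2 hsh (fun u v _ _ => l2 u v) fun x hx => S.ext_of_mem _ hx
  have o4 : Osc D S.d g (lin S s t) (2 * M1 * (2 * r)) :=
    osc_of (by positivity) hsh (φ := fun u => s * u.re + t * u.im)
      (fun u v _ _ => lin_lip hs ht u v) fun x hx => lin_mem s t hx
  have b1 := hel.osc g _ _ _ _ (by positivity) (by positivity) o1 o3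
  have b2 := hel.osc g _ _ _ _ (by positivity) (by positivity) o2 o4
  rw [e1] at b1
  rw [e2, hel.symm g (S.ext ψ), hel.symm g (lin S s' t'), el_lin_lin hmbl hel] at b2
  refine (abs_sub_le _ (S.el g (lin S s t) (S.ext ψ)) _).trans ?_
  refine (add_le_add b1 b2).trans (le_of_eq ?_)
  ring

end ChainAux

open ChainAux

theorem chain_pf [MeasurableSpace Z] [BorelSpace Z] [CompactSpace Z] {D : Dyn G Z} (S : Su D) (hll : S_ll) (hsh : S_sh S.toNC) (hsum : S_sum S.toNC) (hmbl : S_mbl S.toNC) (hel : S_el S) : S_chain S := by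
  intro b ψ hb sb hψ sψ ε hε
  obtain ⟨M1, hM1, -, g1, -⟩ := hll.lip b hb sb.hcs
  obtain ⟨M2, hM2, v2, -, l2⟩ := hll.lip ψ hψ sψ.hcs
  obtain ⟨K, hK, hrel⟩ := hsh.rel S.d S.d_pos
  obtain ⟨Mt, hMt⟩ := hsum.tot
  have hK0 : 0 ≤ S.K0 := sq_nonneg _
  set c : ℝ := S.K0 * (4 * (M2 + 2 * M1)) * K ^ 2 with hc
  have hc0 : 0 ≤ c := by positivity
  have hden : 0 < c * |Mt| + 1 := by positivity
  set η : ℝ := ε / (c * |Mt| + 1) with hη
  have hη0 : 0 < η := div_pos hε hden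
  obtain ⟨δ1, hδ1, t1⟩ := hll.taylor b hb sb.hcs η hη0
  obtain ⟨δ2, hδ2, t2⟩ := hll.taylor ψ hψ sψ.hcs η hη0
  have hKpos : 0 < K := by linarith
  have s1 : Sup S.c S.ρ fun p => dx b p * dx ψ p := sb.dx.mul_right _
  have s2 : Sup S.c S.ρ fun p => dx b p * dy ψ p + dy b p * dx ψ p :=
    (sb.dx.mul_right _).add (sb.dy.mul_right _)
  have s3 : Sup S.c S.ρ fun p => dy b p * dy ψ p := sb.dy.mul_right _
  filter_upwards [hrel, hMt, hsh.irr S.d S.d_pos, S.sg_pos,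
    S.sg_tiny (div_pos (lt_min hδ1 hδ2) hKpos)] with n h1 h2 h3 h4 h5
  unfold Su.E1 Su.En
  rw [← Finset.sum_add_distrib, ← Finset.sum_add_distrib, ← Finset.sum_sub_distrib]
  refine (Finset.abs_sum_le_sum_abs _ _).trans ?_
  rw [← Finset.sum_subset (S.Rel_subset n)]
  · refine (Finset.sum_le_sum (g := fun g => η * c * S.sg g ^ 2) fun g hg => ?_).trans ?_
    · have hB : D.pt g ∈ S.B := (S.mem_Rel.1 hg).2.1
      have hr : K * S.sg g ≤ min δ1 δ2 := by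
        have := h5 g hg
        rwa [le_div_iff₀ hKpos, mul_comm] at this
      have hr1 := hr.trans (min_le_left _ _)
      have hr2 := hr.trans (min_le_right _ _)
      rw [S.ext_of_mem _ hB, S.ext_of_mem _ hB, S.ext_of_mem _ hB]
      refine (rel_term hmbl hel hb.continuous hψ.continuous (p := S.pg g) (r := K * S.sg g)
        (mul_pos hKpos (h4 g hg)).le hη0.le hM2 (g1 _).1 (g1 _).2 (h1 g hg) l2
        (fun u v hu hv => t1 _ u v (hu.trans hr1) (hv.trans hr1))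
        (fun u v hu hv => t2 _ u v (hu.trans hr2) (hv.trans hr2))).trans (le_of_eq ?_)
      rw [hc]
      ring
    · rw [← Finset.mul_sum]
      have a1 : η * c * ∑ g ∈ S.Rel n, S.sg g ^ 2 ≤ η * c * |Mt| :=
        mul_le_mul_of_nonneg_left (h2.trans (le_abs_self _)) (by positivity)
      have a2 : η * (c * |Mt| + 1) = ε := div_mul_cancel₀ _ hden.ne'
      nlinarith
  · intro g hg hn
    rw [S.ext_pt_zero s1 hg hn, S.ext_pt_zero s2 hg hn, S.ext_pt_zero s3 hg hn]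
    have o1 : Osc D S.d g (S.ext b) 0 := by
      intro x y hx hy
      rw [h3 g hg hn x hx b sb, h3 g hg hn y hy b sb, sub_zero, abs_zero]
    have o2 : Osc D S.d g (S.ext ψ) 0 := by
      intro x y hx hy
      rw [h3 g hg hn x hx ψ sψ, h3 g hg hn y hy ψ sψ, sub_zero, abs_zero]
    have b1 := hel.osc g _ _ _ _ le_rfl le_rfl o1 o2
    simp only [mul_zero, zero_mul, add_zero, sub_zero] at b1 ⊢
    exact le_antisymm b1 (abs_nonneg _)

end Vale.Agent.P198.PB
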