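import Vale.Agent.P198.B.Stm

open Set Metric Topology Filter MeasureTheory

namespace Vale.Agent.P198.PB

variable {G Z : Type*} [Group G] [MetricSpace Z] [MulAction G Z]

namespace DlAux

theorem fd_lin {b b' : ℂ → ℝ} (h : ContDiff ℝ 1 b) (h' : ContDiff ℝ 1 b') (s t : ℝ) (p v : ℂ) :
    fderiv ℝ (fun p => s * b' p + t * b p) p v = s * fderiv ℝ b' p v + t * fderiv ℝ b p v := by
  have d := (h.differentiable one_ne_zero p).hasFDerivAt
  have d' := (h'.differentiable one_ne_zero p).hasFDerivAt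
  rw [((d'.const_mul s).fun_add (d.const_mul t)).fderiv]
  simp

theorem int_sq {c : ℂ} {r : ℝ} {b : ℂ → ℝ} (h : ContDiff ℝ 1 b) (hs : Sup c r b) :
    Integrable fun p => dx b p ^ 2 + dy b p ^ 2 := by
  refine Sup.integrable (c := c) (r := r) (Sup.add ?_ ?_)
    (((cont_dx h).pow 2).add ((cont_dy h).pow 2))
  · exact hs.dx.of_imp fun p h0 => by rw [h0]; norm_num
  · exact hs.dy.of_imp fun p h0 => by rw [h0]; norm_num

theorem sup_lin {c : ℂ} {r : ℝ} {b b' : ℂ → ℝ} (hs : Sup c r b) (hs' : Sup c r b') (s t : ℝ) :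
    Sup c r fun p => s * b' p + t * b p :=
  (hs'.mul_left fun _ => s).add (hs.mul_left fun _ => t)

theorem cd_lin {b b' : ℂ → ℝ} (h : ContDiff ℝ 1 b) (h' : ContDiff ℝ 1 b') (s t : ℝ) :
    ContDiff ℝ 1 fun p => s * b' p + t * b p :=
  (contDiff_const.mul h').add (contDiff_const.mul h)

theorem para {c : ℂ} {r : ℝ} {b b' : ℂ → ℝ} (h : ContDiff ℝ 1 b) (h' : ContDiff ℝ 1 b')
    (hs : Sup c r b) (hs' : Sup c r b') :
    Dir (fun p => b' p - b p) + 4 * Dir (fun p => 2⁻¹ * b' p + 2⁻¹ * b p) =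
      2 * Dir b + 2 * Dir b' := by
  have e : (fun p => b' p - b p) = fun p => 1 * b' p + (-1) * b p := by funext p; ring
  rw [e]
  unfold Dir
  rw [← integral_const_mul, ← integral_const_mul, ← integral_const_mul,
    ← integral_add (int_sq (cd_lin h h' _ _) (sup_lin hs hs' _ _))
      ((int_sq (cd_lin h h' _ _) (sup_lin hs hs' _ _)).const_mul _),
    ← integral_add ((int_sq h hs).const_mul _) ((int_sq h' hs').const_mul _)]
  refine integral_congr_ae (Eventually.of_forall fun p => ?_)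
  simp only [dx, dy, fd_lin h h']
  ring

end DlAux

open DlAux in
theorem dl_pf : S_dl := by
  intro U c r M hA ε hε
  set C : ℝ → Set (ℂ → ℝ) := fun t =>
    {b | ContDiff ℝ 1 b ∧ Sup c r b ∧ Dir b ≤ M ∧ ∀ p, |b p - U p| ≤ t} with hC
  set d : ℝ → ℝ := fun t => sInf (Dir '' C t) with hd
  have ne : ∀ t > 0, (Dir '' C t).Nonempty := fun t ht =>
    let ⟨b, hb⟩ := hA t ht
    ⟨_, b, hb, rfl⟩
  have bb : ∀ t, BddBelow (Dir '' C t) := fun t => ⟨0, by rintro _ ⟨b, -, rfl⟩; exact Dir_nonneg b⟩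
  have mono : ∀ t t', t ≤ t' → C t ⊆ C t' := fun t t' h b hb =>
    ⟨hb.1, hb.2.1, hb.2.2.1, fun p => (hb.2.2.2 p).trans h⟩
  have dle : ∀ t, ∀ b ∈ C t, d t ≤ Dir b := fun t b hb => csInf_le (bb t) ⟨b, hb, rfl⟩
  have ba : BddAbove (d '' Ioi 0) := ⟨M, by
    rintro _ ⟨t, ht, rfl⟩
    obtain ⟨b, hb⟩ := hA t ht
    exact (dle t b hb).trans hb.2.2.1⟩
  set dd := sSup (d '' Ioi 0) with hdd
  have pick : ∀ t > 0, ∃ b ∈ C t, Dir b < dd + ε / 16 := fun t ht => by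
    obtain ⟨_, ⟨b, hb, rfl⟩, h⟩ := exists_lt_of_csInf_lt (ne t ht) (lt_add_of_pos_right _
      (show 0 < ε / 16 by positivity))
    have h1 : d t ≤ dd := le_csSup ba ⟨t, ht, rfl⟩
    exact ⟨b, hb, by simp only [hd] at h1; linarith⟩
  obtain ⟨_, ⟨t0, ht0, rfl⟩, h0⟩ := exists_lt_of_lt_csSup (s := d '' Ioi 0)
    ⟨_, 1, mem_Ioi.2 one_pos, rfl⟩ (show dd - ε / 16 < dd by linarith)
  obtain ⟨b, hb, h1⟩ := pick (min t0 ε) (lt_min ht0 hε)
  refine ⟨b, hb.1, hb.2.1, hb.2.2.1, fun p => (hb.2.2.2 p).trans (min_le_right _ _), fun η hη => ?_⟩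
  obtain ⟨b', hb', h2⟩ := pick (min t0 η) (lt_min ht0 hη)
  refine ⟨b', hb'.1, hb'.2.1, fun p => (hb'.2.2.2 p).trans (min_le_right _ _), ?_⟩
  have h3 := para hb.1 hb'.1 hb.2.1 hb'.2.1
  have h4 := dle t0 (fun p => 2⁻¹ * b' p + 2⁻¹ * b p) ⟨cd_lin hb.1 hb'.1 _ _,
    sup_lin hb.2.1 hb'.2.1 _ _,
    by linarith [Dir_nonneg fun p => b' p - b p, hb.2.2.1, hb'.2.2.1], fun p => by
      have a1 := abs_le.1 ((hb.2.2.2 p).trans (min_le_left _ _))
      have a2 := abs_le.1 ((hb'.2.2.2 p).trans (min_le_left _ _))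
      rw [abs_le]
      constructor <;> linarith⟩
  linarith

end Vale.Agent.P198.PB
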