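import Vale.Agent.P198.B.Stm

open Set Metric Topology Filter MeasureTheory

namespace Vale.Agent.P198.PB

variable {G Z : Type*} [Group G] [MetricSpace Z] [MulAction G Z]

namespace DynAux

theorem shM (D : Dyn G Z) (g : G) (y : Z) {d : ℝ} (h0 : 0 < d) (h : d ≤ dist y (D.pt g⁻¹)) :
    max (dist (g • y) (D.pt g)) (D.q ^ D.len g) ≤ D.C / d * D.q ^ D.len g := by
  rw [div_mul_eq_mul_div, le_div_iff₀ h0]
  exact (mul_le_mul_of_nonneg_left (h.trans (le_max_left _ _))
    (le_max_of_le_left dist_nonneg)).trans (D.inv_le g y)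

theorem tri {a b u v C Q L x y z : ℝ} (hC : 0 < C) (hQ : 0 < Q) (ha : 0 ≤ a) (hL : 0 ≤ L)
    (hx : 0 < x) (hz : 0 < z) (h1 : a * (y * x) ≤ C * (u * Q)) (h2 : v * Q ≤ C * (b * (z * x)))
    (h3 : x ≤ 2 * y) (h4 : u * z ≤ (L + 1) * v * x) : a ≤ 2 * C ^ 2 * (L + 1) * b := by
  have e1 := mul_le_mul_of_nonneg_left h3 (mul_nonneg ha hx.le)
  have e2 := mul_le_mul_of_nonneg_right (by linarith : a * x * x ≤ 2 * (C * (u * Q))) hz.le
  have e3 := mul_le_mul_of_nonneg_left h4 (by positivity : 0 ≤ 2 * C * Q)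
  have e4 := mul_le_mul_of_nonneg_left h2 (by positivity : 0 ≤ 2 * C * (L + 1) * x)
  exact le_of_mul_le_mul_right (by linarith) (by positivity : 0 < x * x * z)

end DynAux

open DynAux in
theorem dyn_pf (D : Dyn G Z) : S_dyn D := by
  have hC := D.C_pos
  refine ⟨fun g y d h0 h => (le_max_left _ _).trans (shM D g y h0 h), fun g x x' => ?_,
    fun g y y' d h0 h h' => ?_, fun L hL => ?_, fun h ε hε => ?_, fun L => ?_, fun h g => ?_⟩
  · have hq := D.qpow_pos (D.len g)
    have h1 := (mul_le_mul_of_nonneg_left (mul_le_mul (le_max_right _ _) (le_max_right _ _) hq.le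
      (le_max_of_le_left dist_nonneg)) dist_nonneg).trans (D.mob_le g x x')
    exact le_of_mul_le_mul_right (by linarith) hq
  · have hq := D.qpow_pos (D.len g)
    have h1 := D.mob_ge g (g • y) (g • y')
    rw [inv_smul_smul, inv_smul_smul] at h1
    have h2 := h1.trans (mul_le_mul_of_nonneg_left (mul_le_mul_of_nonneg_left
      (mul_le_mul (shM D g y h0 h) (shM D g y' h0 h') (le_max_of_le_left dist_nonneg)
        (by positivity)) dist_nonneg) hC.le)
    refine le_of_mul_le_mul_right (h2.trans_eq ?_) hq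
    ring
  · filter_upwards [D.ev_small (D.C * L) 1 one_pos] with n hn g hg x hx
    have hq := D.qpow_pos n
    have h1 := D.inv_ge g (g⁻¹ • x)
    rw [smul_inv_smul, hg] at h1
    have h2 := h1.trans (mul_le_mul_of_nonneg_left (mul_le_mul_of_nonneg_right
      (max_le hx (le_mul_of_one_le_left hq.le hL)) (le_max_of_le_left dist_nonneg)) hC.le)
    have h3 : 1 ≤ D.C * L * max (dist (g⁻¹ • x) (D.pt g⁻¹)) (D.q ^ n) :=
      le_of_mul_le_mul_right (by linarith) hq
    rw [div_le_iff₀' (by positivity)]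
    rcases le_total (dist (g⁻¹ • x) (D.pt g⁻¹)) (D.q ^ n) with k | k
    · rw [max_eq_right k] at h3
      linarith
    · rwa [max_eq_left k] at h3
  · have hq := D.qpow_pos (D.len h)
    filter_upwards [D.ev_small D.C (ε ^ 2 * D.q ^ D.len h) (by positivity)] with n hn g hg
    have h1 := D.pair (h * g)⁻¹ g⁻¹
    rw [inv_inv, mul_inv_cancel_right, D.len_inv g, hg] at h1
    have h2 := mul_le_mul_of_nonneg_left (mul_le_of_le_one_left (D.qpow_pos n).le
      (D.qpow_le_one (D.len (h * g)⁻¹))) hC.le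
    exact (abs_le_of_sq_le_sq' (le_of_mul_le_mul_right (by linarith) hq) hε.le).2
  · have hL := le_max_right L 0
    refine ⟨2 * D.C ^ 2 * (max L 0 + 1), by positivity, fun γ => ?_⟩
    have hq := D.qpow_pos (D.len γ⁻¹)
    refine ⟨D.q ^ D.len γ⁻¹ / 2, by positivity, fun x y z h1 h2 => ?_⟩
    have a1 := D.mob_le γ⁻¹ y x
    have a2 := D.mob_ge γ⁻¹ z x
    rw [inv_inv] at a1 a2
    have b1 := le_max_left (dist x (D.pt γ⁻¹)) (D.q ^ D.len γ⁻¹)
    have b2 := le_max_right (dist x (D.pt γ⁻¹)) (D.q ^ D.len γ⁻¹)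
    have b3 := le_max_left (dist y (D.pt γ⁻¹)) (D.q ^ D.len γ⁻¹)
    have b4 := le_max_right (dist y (D.pt γ⁻¹)) (D.q ^ D.len γ⁻¹)
    have b5 := dist_triangle_left x (D.pt γ⁻¹) y
    have b6 := dist_triangle z x (D.pt γ⁻¹)
    have b7 := dist_nonneg (x := z) (y := x)
    refine tri hC hq dist_nonneg hL (by linarith) (hq.trans_le (le_max_right _ _)) a1 a2
      (max_le (by linarith) (by linarith)) ?_
    have c1 := mul_le_mul_of_nonneg_left (max_le (by linarith) (by linarith) :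
      max (dist z (D.pt γ⁻¹)) (D.q ^ D.len γ⁻¹) ≤
        max (dist x (D.pt γ⁻¹)) (D.q ^ D.len γ⁻¹) + dist z x) (dist_nonneg (x := y) (y := x))
    have c2 := mul_le_mul_of_nonneg_right
      (h2.trans (mul_le_mul_of_nonneg_right (le_max_left L 0) b7)) (hq.le.trans b2)
    have c3 := mul_le_mul_of_nonneg_right
      (by linarith : dist y x ≤ max (dist x (D.pt γ⁻¹)) (D.q ^ D.len γ⁻¹)) b7
    linarith
  · have := D.len_mul h⁻¹ (h * g)
    rw [inv_mul_cancel_left, D.len_inv] at this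
    omega

end Vale.Agent.P198.PB
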