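import Vale.Agent.P198.B.Stm

open Set Metric Topology Filter MeasureTheory

namespace Vale.Agent.P198.PB

variable {G Z : Type*} [Group G] [MetricSpace Z] [MulAction G Z]

namespace EbAux

theorem ext [MeasurableSpace Z] {D : Dyn G Z} (N : NC D) (hll : S_ll) (hsh : S_sh N)
    (hsum : S_sum N) (hmbl : S_mbl N) (φ : ℂ → ℝ) (hφ : ContDiff ℝ 1 φ) (hs : Sup N.c N.ρ φ) :
    EB D (N.ext φ) := by
  classical
  refine ⟨hmbl.ext φ hφ.continuous, fun d hd => ?_⟩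
  obtain ⟨M, hM, -, -, hL⟩ := hll.lip φ hφ hs.hcs
  obtain ⟨K, hK, hrel⟩ := hsh.rel d hd
  obtain ⟨T, hT⟩ := hsum.tot
  have hK0 : 0 ≤ K := zero_le_one.trans hK
  refine ⟨fun g => if g ∈ N.Rel (D.len g) then 2 * M * K * |N.sg g| else 0,
    (2 * M * K) ^ 2 * T, fun g => ?_, ?_⟩
  · dsimp only
    split_ifs
    · positivity
    · exact le_rfl
  filter_upwards [hrel, hT, hsh.irr d hd] with n h1 h2 h3
  refine ⟨fun g hg x y hx hy => ?_, ?_⟩
  · rw [D.mem_lev.1 hg]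
    split_ifs with h
    · obtain ⟨a1, a2⟩ := h1 g h x hx
      obtain ⟨b1, b2⟩ := h1 g h y hy
      rw [N.ext_of_mem φ a1, N.ext_of_mem φ b1]
      refine (hL _ _).trans ?_
      have h4 := norm_sub_le_norm_sub_add_norm_sub (N.f (g • x)) (N.pg g) (N.f (g • y))
      rw [norm_sub_rev (N.pg g)] at h4
      have h5 := mul_le_mul_of_nonneg_left (le_abs_self (N.sg g)) hK0
      have h6 : ‖N.f (g • x) - N.f (g • y)‖ ≤ 2 * K * |N.sg g| := by linarith
      have h7 := mul_le_mul_of_nonneg_left h6 hM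
      linarith
    · rw [h3 g hg h x hx φ hs, h3 g hg h y hy φ hs, sub_self, abs_zero]
  · have e : ∑ g ∈ D.lev n, (if g ∈ N.Rel (D.len g) then 2 * M * K * |N.sg g| else 0) ^ 2
        = ∑ g ∈ N.Rel n, (2 * M * K) ^ 2 * N.sg g ^ 2 := by
      symm
      refine (Finset.sum_congr rfl fun g hg => ?_).trans
        (Finset.sum_subset (N.Rel_subset n) fun g hg h => ?_)
      · rw [(N.mem_Rel.1 hg).1, if_pos hg, mul_pow _ |N.sg g|, sq_abs]
      · rw [D.mem_lev.1 hg, if_neg h]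
        norm_num
    rw [e, ← Finset.mul_sum]
    exact mul_le_mul_of_nonneg_left h2 (sq_nonneg _)

theorem comp [MeasurableSpace Z] {D : Dyn G Z} (N : NC D) (hdyn : S_dyn D) (hces : S_ces D)
    (hmbl : S_mbl N) (h : G) (u : Z → ℝ) (hu : EB D u) : EB D fun x => u (h • x) := by
  refine ⟨hmbl.comp h u hu.1, fun d hd => ?_⟩
  obtain ⟨o, M, ho, hM⟩ := hu.2 (d / 2) (half_pos hd)
  obtain ⟨⟨M', hM'⟩, -⟩ := hces (fun g => o g ^ 2) h ⟨M, hM.mono fun n hn => by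
    simpa only [abs_pow, sq_abs] using hn.2⟩
  obtain ⟨n0, hn0⟩ := eventually_atTop.1 hM
  refine ⟨fun g => o (h * g), M', fun g => ho _, ?_⟩
  filter_upwards [hM', hdyn.close h (d / 2) (half_pos hd), eventually_ge_atTop (n0 + D.len h)]
    with n h1 h2 h3
  refine ⟨fun g hg x y hx hy => ?_, by simpa only [abs_pow, sq_abs] using h1⟩
  have hl := D.mem_lev.1 hg
  have h4 := hdyn.len_le h g
  have h5 := (hn0 (D.len (h * g)) (by omega)).1 (h * g) (D.mem_lev.2 rfl)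
  have h6 := h2 g hl
  have h7 : ∀ z, d ≤ dist z (D.pt g⁻¹) → d / 2 ≤ dist z (D.pt (h * g)⁻¹) := fun z hz => by
    linarith [dist_triangle z (D.pt (h * g)⁻¹) (D.pt g⁻¹)]
  have h8 := h5 x y (h7 x hx) (h7 y hy)
  rwa [mul_smul, mul_smul] at h8

end EbAux

theorem eb_pf [MeasurableSpace Z] {D : Dyn G Z} (N : NC D) (hll : S_ll) (hdyn : S_dyn D) (hces : S_ces D) (hsh : S_sh N) (hsum : S_sum N) (hmbl : S_mbl N) : S_eb N :=
  ⟨EbAux.ext N hll hsh hsum hmbl, EbAux.comp N hdyn hces hmbl⟩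

end Vale.Agent.P198.PB
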