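import Vale.Agent.P198.B.Stm

open Set Metric Topology Filter MeasureTheory

namespace Vale.Agent.P198.PB

variable {G Z : Type*} [Group G] [MetricSpace Z] [MulAction G Z]

namespace ElAux

variable [MeasurableSpace Z]

theorem mb_add {u v : Z → ℝ} (hu : MB u) (hv : MB v) : MB fun x => u x + v x := by
  obtain ⟨h1, M, h2⟩ := hu
  obtain ⟨h3, M', h4⟩ := hv
  exact ⟨h1.add h3, M + M', fun x => (abs_add_le _ _).trans (add_le_add (h2 x) (h4 x))⟩

theorem mb_sub {u v : Z → ℝ} (hu : MB u) (hv : MB v) : MB fun x => u x - v x := by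
  obtain ⟨h1, M, h2⟩ := hu
  obtain ⟨h3, M', h4⟩ := hv
  exact ⟨h1.sub h3, M + M', fun x => (abs_sub _ _).trans (add_le_add (h2 x) (h4 x))⟩

theorem mb_smul (t : ℝ) {u : Z → ℝ} (hu : MB u) : MB fun x => t * u x := by
  obtain ⟨h1, M, h2⟩ := hu
  exact ⟨h1.const_mul t, |t| * M, fun x => by
    rw [abs_mul]
    exact mul_le_mul_of_nonneg_left (h2 x) (abs_nonneg _)⟩

variable {D : Dyn G Z} (S : Su D)

theorem wt_cont (g : G) : Continuous (S.wt g) := by
  unfold Su.wt
  fun_prop

theorem wt_nn (g : G) (x : Z) : 0 ≤ S.wt g x := le_max_right _ _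

theorem wt_le (g : G) (x : Z) : S.wt g x ≤ D.C :=
  max_le (by linarith [D.diam x (D.pt g⁻¹), S.d_pos]) D.C_pos.le

theorem wt_zero (g : G) (x : Z) (h : dist x (D.pt g⁻¹) ≤ S.d) : S.wt g x = 0 :=
  max_eq_right (by linarith)

theorem bound (g : G) (x y : Z) {a b A B : ℝ} (ha : |a| ≤ A) (hb : |b| ≤ B) :
    ‖S.wt g x * S.wt g y * (a * b)‖ ≤ D.C * D.C * (A * B) := by
  rw [Real.norm_eq_abs, abs_mul, abs_mul, abs_mul, abs_of_nonneg (wt_nn S g x),
    abs_of_nonneg (wt_nn S g y)]
  have h1 := wt_le S g x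
  have h2 := wt_le S g y
  have h3 := wt_nn S g y
  have h4 := D.C_pos.le
  have h5 := (abs_nonneg a).trans ha
  gcongr

theorem int [BorelSpace Z] (g g' : G) (u v : Z → ℝ) (hu : MB u) (hv : MB v) :
    Integrable (fun z : Z × Z => S.wt g z.1 * S.wt g z.2 *
      ((u (g' • z.1) - u (g' • z.2)) * (v (g' • z.1) - v (g' • z.2)))) (S.ν.prod S.ν) := by
  have := S.nu.fin
  obtain ⟨h1, M, h2⟩ := hu
  obtain ⟨h3, M', h4⟩ := hv
  have hw := (wt_cont S g).measurable
  have hg := (D.cont_smul g').measurable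
  have hu' := h1.comp hg
  have hv' := h3.comp hg
  refine Integrable.of_bound (Measurable.aestronglyMeasurable ?_) (D.C * D.C * ((M + M) * (M' + M')))
    (Eventually.of_forall fun z => bound S g _ _ ((abs_sub _ _).trans (add_le_add (h2 _) (h2 _)))
      ((abs_sub _ _).trans (add_le_add (h4 _) (h4 _))))
  exact ((hw.comp measurable_fst).mul (hw.comp measurable_snd)).mul
    (((hu'.comp measurable_fst).sub (hu'.comp measurable_snd)).mul
      ((hv'.comp measurable_fst).sub (hv'.comp measurable_snd)))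

theorem symm (g : G) (u v : Z → ℝ) : S.el g u v = S.el g v u := by
  unfold Su.el
  exact integral_congr_ae (Eventually.of_forall fun z => by ring)

theorem add [BorelSpace Z] (g : G) (u u' v : Z → ℝ) (hu : MB u) (hu' : MB u') (hv : MB v) :
    S.el g (fun x => u x + u' x) v = S.el g u v + S.el g u' v := by
  unfold Su.el
  rw [← integral_add (int S g g u v hu hv) (int S g g u' v hu' hv)]
  exact integral_congr_ae (Eventually.of_forall fun z => by ring)

theorem sub [BorelSpace Z] (g : G) (u u' v : Z → ℝ) (hu : MB u) (hu' : MB u') (hv : MB v) :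
    S.el g (fun x => u x - u' x) v = S.el g u v - S.el g u' v := by
  unfold Su.el
  rw [← integral_sub (int S g g u v hu hv) (int S g g u' v hu' hv)]
  exact integral_congr_ae (Eventually.of_forall fun z => by ring)

theorem smul (g : G) (t : ℝ) (u v : Z → ℝ) : S.el g (fun x => t * u x) v = t * S.el g u v := by
  unfold Su.el
  rw [← integral_const_mul]
  exact integral_congr_ae (Eventually.of_forall fun z => by ring)

theorem nonneg (g : G) (u : Z → ℝ) : 0 ≤ S.el g u u :=
  integral_nonneg fun _ => mul_nonneg (mul_nonneg (wt_nn S g _) (wt_nn S g _)) (mul_self_nonneg _)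

theorem osc (g : G) (u v : Z → ℝ) (o o' : ℝ) (h0 : 0 ≤ o) (h0' : 0 ≤ o') (hu : Osc D S.d g u o)
    (hv : Osc D S.d g v o') : |S.el g u v| ≤ S.K0 * (o * o') := by
  have := S.nu.fin
  have hC := D.C_pos
  have h : ∀ z : Z × Z, ‖S.wt g z.1 * S.wt g z.2 *
      ((u (g • z.1) - u (g • z.2)) * (v (g • z.1) - v (g • z.2)))‖ ≤ D.C * D.C * (o * o') := by
    intro z
    rcases le_total (dist z.1 (D.pt g⁻¹)) S.d with h1 | h1
    · rw [wt_zero S g _ h1, zero_mul, zero_mul, norm_zero]
      positivity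
    rcases le_total (dist z.2 (D.pt g⁻¹)) S.d with h2 | h2
    · rw [wt_zero S g _ h2, mul_zero, zero_mul, norm_zero]
      positivity
    exact bound S g _ _ (hu _ _ h1 h2) (hv _ _ h1 h2)
  have h2 := norm_integral_le_of_norm_le_const (μ := S.ν.prod S.ν) (Eventually.of_forall h)
  rw [← univ_prod_univ, measureReal_prod_prod] at h2
  refine le_trans h2 (le_of_eq ?_)
  unfold Su.K0
  ring

theorem cs [BorelSpace Z] (u v : Z → ℝ) (n : ℕ) (hu : MB u) (hv : MB v) :
    |S.E1 u v n| ≤ √(S.E1 u u n) * √(S.E1 v v n) := by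
  have h1 : ∀ (g : G) (t : ℝ), S.el g (fun x => t * u x + v x) (fun x => t * u x + v x)
      = S.el g u u * (t * t) + 2 * S.el g u v * t + S.el g v v := fun g t => by
    have hw := mb_add (mb_smul t hu) hv
    rw [add S g _ _ _ (mb_smul t hu) hv hw, smul, symm S g u (fun x => t * u x + v x),
      symm S g v (fun x => t * u x + v x), add S g _ _ _ (mb_smul t hu) hv hu,
      add S g _ _ _ (mb_smul t hu) hv hv, smul, smul, symm S g v u]
    ring
  have h2 : ∀ t : ℝ, 0 ≤ S.E1 u u n * (t * t) + 2 * S.E1 u v n * t + S.E1 v v n := fun t => by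
    have h3 : 0 ≤ ∑ g ∈ D.lev n, S.el g (fun x => t * u x + v x) (fun x => t * u x + v x) :=
      Finset.sum_nonneg fun g _ => nonneg S g _
    simp only [h1, Finset.sum_add_distrib, ← Finset.sum_mul, ← Finset.mul_sum] at h3
    exact h3
  have h4 := discrim_le_zero h2
  have h5 : 0 ≤ S.E1 u u n := Finset.sum_nonneg fun g _ => nonneg S g _
  rw [← Real.sqrt_mul h5]
  refine Real.abs_le_sqrt ?_
  rw [discrim] at h4
  linarith

end ElAux

theorem el_pf [MeasurableSpace Z] [BorelSpace Z] [CompactSpace Z] {D : Dyn G Z} (S : Su D) : S_el S :=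
  ⟨fun g => ⟨ElAux.wt_cont S g, fun x => ⟨ElAux.wt_nn S g x, ElAux.wt_le S g x, ElAux.wt_zero S g x⟩⟩,
    ElAux.int S, ElAux.symm S, ElAux.add S, ElAux.sub S, ElAux.smul S, ElAux.nonneg S, ElAux.osc S,
    ElAux.cs S⟩

theorem mbl_pf [MeasurableSpace Z] [BorelSpace Z] {D : Dyn G Z} (N : NC D) : S_mbl N := by
  classical
  refine ⟨?_, fun φ hφ => ⟨?_, ?_⟩, fun _ _ => ElAux.mb_add, fun _ _ => ElAux.mb_sub,
    fun t _ => ElAux.mb_smul t, fun g u hu => ⟨hu.1.comp (D.cont_smul g).measurable, ?_⟩⟩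
  · unfold NC.fm
    rw [← piecewise_eq_indicator]
    exact N.cont.measurable_piecewise continuousOn_const N.opn.measurableSet
  · unfold NC.ext
    rw [← piecewise_eq_indicator]
    exact (hφ.comp_continuousOn N.cont).measurable_piecewise continuousOn_const N.opn.measurableSet
  · obtain ⟨M, hM⟩ := N.bdd
    obtain ⟨K, hK⟩ := (isCompact_closedBall (0 : ℂ) M).exists_bound_of_continuousOn hφ.continuousOn
    refine ⟨max K 0, fun x => ?_⟩
    by_cases hx : x ∈ N.B
    · rw [N.ext_of_mem φ hx]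
      exact le_max_of_le_left (hK _ (mem_closedBall_zero_iff.2 (hM x hx)))
    · rw [N.ext_of_notMem φ hx, abs_zero]
      exact le_max_right _ _
  · obtain ⟨M, hM⟩ := hu.2
    exact ⟨M, fun x => hM _⟩

end Vale.Agent.P198.PB
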