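import Vale.Agent.P198.B.Stm

open Set Metric Topology Filter MeasureTheory

namespace Vale.Agent.P198.PB

variable {G Z : Type*} [Group G] [MetricSpace Z] [MulAction G Z]

namespace EstAux

variable [MeasurableSpace Z] {D : Dyn G Z}

theorem osc_of (d : ℝ) (g : G) (u : Z → ℝ) (M : ℝ) (h : ∀ x, |u x| ≤ M) : Osc D d g u (2 * M) := by
  intro x y _ _
  have h1 := abs_sub (u (g • x)) (u (g • y))
  linarith [h (g • x), h (g • y)]

theorem e1_sub (S : Su D) (hel : S_el S) (u u' v : Z → ℝ) (hu : MB u) (hu' : MB u') (hv : MB v)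
    (n : ℕ) : S.E1 (fun x => u x - u' x) v n = S.E1 u v n - S.E1 u' v n := by
  unfold Su.E1
  rw [← Finset.sum_sub_distrib]
  exact Finset.sum_congr rfl fun g _ => hel.sub g u u' v hu hu' hv

theorem e1_small (S : Su D) (hel : S_el S) (u v : Z → ℝ) (η M : ℝ) (hη : 0 ≤ η) (hM : 0 ≤ M)
    (hu : ∀ x, |u x| ≤ η) (hv : ∀ x, |v x| ≤ M) (n : ℕ) :
    |S.E1 u v n| ≤ ((D.lev n).card * (S.K0 * (4 * M))) * η := by
  unfold Su.E1
  refine (Finset.abs_sum_le_sum_abs _ _).trans ?_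
  have h := Finset.sum_le_card_nsmul (D.lev n) (fun g => |S.el g u v|)
    (S.K0 * (2 * η * (2 * M))) fun g _ => hel.osc g u v _ _ (by positivity) (by positivity)
      (osc_of S.d g u η hu) (osc_of S.d g v M hv)
  rw [nsmul_eq_mul] at h
  refine h.trans (le_of_eq ?_)
  ring

theorem step (S : Su D) (hmbl : S_mbl S.toNC) (hel : S_el S) (K : ℝ) (hK : 0 ≤ K) (n : ℕ)
    (hn : ∀ b, ContDiff ℝ 1 b → Sup S.c S.ρ b → S.E1 (S.ext b) (S.ext b) n ≤ K * Dir b)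
    (U b ψ : ℂ → ℝ) (η M : ℝ) (hU : Continuous U) (hb : ContDiff ℝ 1 b) (sb : Sup S.c S.ρ b)
    (hψ : ContDiff ℝ 1 ψ) (sψ : Sup S.c S.ρ ψ) (hM : 0 ≤ M) (bψ : ∀ p, |ψ p| ≤ M)
    (h : ∀ η' > 0, ∃ b', ContDiff ℝ 1 b' ∧ Sup S.c S.ρ b' ∧ (∀ p, |b' p - U p| ≤ η') ∧
      Dir (fun p => b' p - b p) ≤ η) :
    |S.E1 (S.ext U) (S.ext ψ) n - S.E1 (S.ext b) (S.ext ψ) n| ≤ √(K * η) * √(K * Dir ψ) := by
  have k0 : 0 ≤ S.K0 := sq_nonneg _
  set C : ℝ := (D.lev n).card * (S.K0 * (4 * M)) with hC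
  have C0 : 0 ≤ C := by positivity
  refine le_of_forall_pos_le_add fun δ hδ => ?_
  obtain ⟨b', c1, c2, c3, c4⟩ := h (δ / (C + 1)) (by positivity)
  have mU := hmbl.ext U hU
  have mb := hmbl.ext b hb.continuous
  have mb' := hmbl.ext b' c1.continuous
  have mψ := hmbl.ext ψ hψ.continuous
  have e1 : S.E1 (S.ext U) (S.ext ψ) n - S.E1 (S.ext b) (S.ext ψ) n =
      S.E1 (S.ext fun p => U p - b' p) (S.ext ψ) n + S.E1 (S.ext fun p => b' p - b p) (S.ext ψ) n := by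
    rw [S.toNC.ext_sub, S.toNC.ext_sub, e1_sub S hel _ _ _ mU mb' mψ, e1_sub S hel _ _ _ mb' mb mψ]
    ring
  have e2 := e1_small S hel (S.ext fun p => U p - b' p) (S.ext ψ) (δ / (C + 1)) M (by positivity) hM
    (S.toNC.abs_ext_le fun p => by rw [abs_sub_comm]; exact c3 p) (S.toNC.abs_ext_le bψ) n
  have e3 : C * (δ / (C + 1)) ≤ δ := by
    rw [mul_div_assoc', div_le_iff₀ (by positivity)]
    nlinarith
  have cb : ContDiff ℝ 1 fun p => b' p - b p := c1.sub hb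
  have e4 := hel.cs _ _ n (hmbl.ext _ cb.continuous) mψ
  have e5 : √(S.E1 (S.ext fun p => b' p - b p) (S.ext fun p => b' p - b p) n) ≤ √(K * η) :=
    Real.sqrt_le_sqrt ((hn _ cb (c2.sub sb)).trans (mul_le_mul_of_nonneg_left c4 hK))
  have e6 : √(S.E1 (S.ext ψ) (S.ext ψ) n) ≤ √(K * Dir ψ) := Real.sqrt_le_sqrt (hn ψ hψ sψ)
  have e7 := mul_le_mul e5 e6 (Real.sqrt_nonneg _) (Real.sqrt_nonneg _)
  rw [e1]
  have e8 := abs_add_le (S.E1 (S.ext fun p => U p - b' p) (S.ext ψ) n)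
    (S.E1 (S.ext fun p => b' p - b p) (S.ext ψ) n)
  linarith

theorem int_close (U b L : ℂ → ℝ) (η : ℝ) (hU : Integrable fun p => U p * L p)
    (hb : Integrable fun p => b p * L p) (hL : Integrable L) (h : ∀ p, |b p - U p| ≤ η) :
    |(∫ p, U p * L p) - ∫ p, b p * L p| ≤ η * ∫ p, |L p| := by
  rw [← integral_sub hU hb, ← integral_const_mul]
  refine (abs_integral_le_integral_abs).trans (integral_mono (hU.sub hb).abs
    (hL.abs.const_mul η) fun p => ?_)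
  show |U p * L p - b p * L p| ≤ η * |L p|
  rw [← sub_mul, abs_mul, abs_sub_comm]
  exact mul_le_mul_of_nonneg_right (h p) (abs_nonneg _)

theorem lim (x t K c I : ℝ) (h : ∀ η > 0, x ≤ t + (√(K * η) * c + η * I)) : x ≤ t := by
  have h1 : Tendsto (fun η : ℝ => t + (√(K * η) * c + η * I)) (𝓝[>] 0)
      (𝓝 (t + (√(K * 0) * c + 0 * I))) := by
    refine Tendsto.mono_left (Continuous.tendsto ?_ 0) nhdsWithin_le_nhds
    fun_prop
  simp only [mul_zero, Real.sqrt_zero, zero_mul, add_zero] at h1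
  exact ge_of_tendsto h1 (eventually_nhdsWithin_of_forall fun η hη => h η hη)

end EstAux

open EstAux in
theorem est_pf [MeasurableSpace Z] [BorelSpace Z] [CompactSpace Z] {D : Dyn G Z} (S : Su D) (hbl : S_bl) (hll : S_ll) (hdl : S_dl) (hmbl : S_mbl S.toNC) (hel : S_el S) (hup : S_upper S) (he1 : S_est1 S) : S_est S := by
  intro P ε hε
  obtain ⟨r0, hr0, hρ, h⟩ := he1 P ε hε
  refine ⟨r0, hr0, hρ, fun r hr hrr U ψ E M hU hA hψ sψ hM => ?_⟩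
  obtain ⟨K, hK, hu⟩ := hup
  have hψ1 : ContDiff ℝ 1 ψ := hψ.of_le (by norm_num)
  obtain ⟨Mψ, m0, m1, _⟩ := hll.lip ψ hψ1 sψ.hcs
  have hin : ‖P.p0 - S.c‖ + r ≤ S.ρ := by linarith
  have M0 : 0 ≤ M := (abs_nonneg _).trans (hM 0).1
  refine lim _ _ K (√(K * Dir ψ)) (∫ p, |LL P.a11 P.a12 P.a22 ψ p|) fun η hη => ?_
  obtain ⟨b, b1, b2, b3, b4, b5⟩ := hdl U P.p0 r E hA η hη
  obtain ⟨e1, e2⟩ := h r hr hrr b ψ M b1 b2 hψ sψ hM
  have e3 := (hbl.near (S.E1 (S.ext U) (S.ext ψ)) _ (√(K * η) * √(K * Dir ψ)) e1 fun δ hδ =>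
    hu.mono fun n hn => (step S hmbl hel K hK n hn U b ψ η Mψ hU b1 (b2.mono hin) hψ1 (sψ.mono hin)
      m0 m1 fun η' hη' => by
        obtain ⟨b', c1, c2, c3, c4⟩ := b5 η' hη'
        exact ⟨b', c1, c2.mono hin, c3, c4⟩).trans (le_add_of_nonneg_right hδ.le)).2
  have iL : Integrable (LL P.a11 P.a12 P.a22 ψ) := by
    have := hll.int P.a11 P.a12 P.a22 ψ (fun _ => 1) hψ sψ.hcs continuousOn_const
    simpa using this
  have e4 := int_close U b _ η (hll.int P.a11 P.a12 P.a22 ψ U hψ sψ.hcs hU.continuousOn)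
    (hll.int P.a11 P.a12 P.a22 ψ b hψ sψ.hcs b1.continuous.continuousOn) iL b4
  have e5 : ε * r * M * √(Dir b) ≤ ε * r * M * √E :=
    mul_le_mul_of_nonneg_left (Real.sqrt_le_sqrt b3) (by positivity)
  have e6 : S.B1 (S.ext U) (S.ext ψ) + ∫ p, U p * LL P.a11 P.a12 P.a22 ψ p =
      (S.B1 (S.ext b) (S.ext ψ) + ∫ p, b p * LL P.a11 P.a12 P.a22 ψ p) +
        ((BL (S.E1 (S.ext U) (S.ext ψ)) - BL (S.E1 (S.ext b) (S.ext ψ))) +
          ((∫ p, U p * LL P.a11 P.a12 P.a22 ψ p) - ∫ p, b p * LL P.a11 P.a12 P.a22 ψ p)) := by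
    unfold Su.B1
    ring
  rw [e6]
  exact (abs_add_le _ _).trans (add_le_add (e2.trans e5) ((abs_add_le _ _).trans (add_le_add e3 e4)))

end Vale.Agent.P198.PB
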