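import Vale.Agent.P198.B.Stm

open Set Metric Topology Filter MeasureTheory

namespace Vale.Agent.P198.PB

variable {G Z : Type*} [Group G] [MetricSpace Z] [MulAction G Z]

namespace Est1Aux

theorem sqrt_le {b a : ℂ → ℝ} {c : ℂ} {r t : ℝ} (hb : ContDiff ℝ 1 b) (hs : Sup c r b)
    (ht : 0 ≤ t) (h : ∀ p, a p ^ 2 ≤ t ^ 2 * (dx b p ^ 2 + dy b p ^ 2)) :
    √(∫ p, a p ^ 2) ≤ t * √(Dir b) := by
  have s1 : Sup c r fun p => dx b p ^ 2 := hs.dx.of_imp fun p h0 => by rw [h0]; norm_num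
  have s2 : Sup c r fun p => dy b p ^ 2 := hs.dy.of_imp fun p h0 => by rw [h0]; norm_num
  have i : Integrable fun p => dx b p ^ 2 + dy b p ^ 2 :=
    (s1.add s2).integrable (((cont_dx hb).pow 2).add ((cont_dy hb).pow 2))
  have h1 : ∫ p, a p ^ 2 ≤ t ^ 2 * Dir b := by
    rw [Dir, ← integral_const_mul]
    exact integral_mono_of_nonneg (Eventually.of_forall fun p => sq_nonneg _) (i.const_mul _)
      (Eventually.of_forall h)
  refine (Real.sqrt_le_sqrt h1).trans (le_of_eq ?_)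
  rw [Real.sqrt_mul (sq_nonneg t), Real.sqrt_sq ht]

end Est1Aux

open Est1Aux in
theorem est1_pf [MeasurableSpace Z] [BorelSpace Z] [CompactSpace Z] {D : Dyn G Z} (S : Su D) (hbl : S_bl) (hibp : S_ibp) (hch : S_chain S) (hlam : S_lam S) : S_est1 S := by
  intro P ε hε
  have hε4 : 0 < ε / 4 := by positivity
  obtain ⟨r1, hr1, l1⟩ := P.l11 _ hε4
  obtain ⟨r2, hr2, l2⟩ := P.l12 _ hε4
  obtain ⟨r3, hr3, l3⟩ := P.l22 _ hε4
  have hp := P.hp
  refine ⟨min (min r1 r2) (min r3 (S.ρ - ‖P.p0 - S.c‖)),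
    lt_min (lt_min hr1 hr2) (lt_min hr3 (by linarith)), by
      linarith [min_le_right (min r1 r2) (min r3 (S.ρ - ‖P.p0 - S.c‖)),
        min_le_right r3 (S.ρ - ‖P.p0 - S.c‖)], ?_⟩
  intro r hr hr0 b ψ M hb sb hψ sψ hM
  simp only [le_min_iff] at hr0
  obtain ⟨⟨e1, e2⟩, e3, e4⟩ := hr0
  have e5 : ‖P.p0 - S.c‖ + r ≤ S.ρ := by linarith
  have hψ1 : ContDiff ℝ 1 ψ := hψ.of_le (by norm_num)
  have hM0 : 0 ≤ M := (abs_nonneg _).trans (hM 0).1
  have c1 : Continuous fun p => dx b p * dx ψ p := (cont_dx hb).mul (cont_dx hψ1)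
  have c2 : Continuous fun p => dx b p * dy ψ p + dy b p * dx ψ p :=
    ((cont_dx hb).mul (cont_dy hψ1)).add ((cont_dy hb).mul (cont_dx hψ1))
  have c3 : Continuous fun p => dy b p * dy ψ p := (cont_dy hb).mul (cont_dy hψ1)
  have s1 : Sup P.p0 r fun p => dx b p * dx ψ p := sb.dx.mul_right _
  have s2 : Sup P.p0 r fun p => dx b p * dy ψ p + dy b p * dx ψ p :=
    (sb.dx.mul_right _).add (sb.dy.mul_right _)
  have s3 : Sup P.p0 r fun p => dy b p * dy ψ p := sb.dy.mul_right _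
  have b1 := (hlam.bdd _ c1 (s1.mono e5)).1
  have b2 := (hlam.bdd _ c2 (s2.mono e5)).2.1
  have b3 := (hlam.bdd _ c3 (s3.mono e5)).2.2
  have b12 := hbl.badd _ _ b1 b2
  obtain ⟨n1, n2⟩ := hbl.near (S.E1 (S.ext b) (S.ext ψ)) _ 0 (hbl.badd _ _ b12 b3) fun η hη => by
    simpa only [zero_add] using hch b ψ hb (sb.mono e5) hψ1 (sψ.mono e5) η hη
  refine ⟨n1, ?_⟩
  rw [hbl.add _ _ b12 b3, hbl.add _ _ b1 b2, abs_nonpos_iff, sub_eq_zero] at n2
  have q1 : ∀ p, dx ψ p ^ 2 ≤ M ^ 2 := fun p => sq_le_sq' (abs_le.1 (hM p).1).1 (abs_le.1 (hM p).1).2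
  have q2 : ∀ p, dy ψ p ^ 2 ≤ M ^ 2 := fun p => sq_le_sq' (abs_le.1 (hM p).2).1 (abs_le.1 (hM p).2).2
  have t1 := sqrt_le (a := fun p => dx b p * dx ψ p) hb sb hM0 fun p => by
    nlinarith [mul_le_mul_of_nonneg_left (q1 p) (sq_nonneg (dx b p)),
      mul_nonneg (sq_nonneg M) (sq_nonneg (dy b p))]
  have t2 := sqrt_le (a := fun p => dx b p * dy ψ p + dy b p * dx ψ p) (t := 2 * M) hb sb
    (by positivity) fun p => by
    nlinarith [mul_le_mul_of_nonneg_left (q1 p) (sq_nonneg (dy b p)),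
      mul_le_mul_of_nonneg_left (q2 p) (sq_nonneg (dx b p)),
      mul_nonneg (sq_nonneg M) (sq_nonneg (dy b p)), mul_nonneg (sq_nonneg M) (sq_nonneg (dx b p)),
      sq_nonneg (dx b p * dy ψ p - dy b p * dx ψ p)]
  have t3 := sqrt_le (a := fun p => dy b p * dy ψ p) hb sb hM0 fun p => by
    nlinarith [mul_le_mul_of_nonneg_left (q2 p) (sq_nonneg (dy b p)),
      mul_nonneg (sq_nonneg M) (sq_nonneg (dx b p))]
  have hw : 0 ≤ ε / 4 * r := by positivity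
  have u1 := abs_le.1 ((l1 r hr e1 _ c1 s1).trans (mul_le_mul_of_nonneg_left t1 hw))
  have u2 := abs_le.1 ((l2 r hr e2 _ c2 s2).trans (mul_le_mul_of_nonneg_left t2 hw))
  have u3 := abs_le.1 ((l3 r hr e3 _ c3 s3).trans (mul_le_mul_of_nonneg_left t3 hw))
  rw [hibp _ _ _ b ψ hb hψ sψ.hcs, Su.B1, n2]
  unfold Su.L11 at u1
  unfold Su.L12 at u2
  unfold Su.L22 at u3
  rw [abs_le]
  constructor <;> linarith [u1.1, u1.2, u2.1, u2.2, u3.1, u3.2]

end Vale.Agent.P198.PB
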