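import Vale.Agent.P198.B.Stm

open Set Metric Topology Filter MeasureTheory

namespace Vale.Agent.P198.PB

variable {G Z : Type*} [Group G] [MetricSpace Z] [MulAction G Z]

namespace InvAux

theorem sum_mul_le {ι : Type*} (s : Finset ι) (o o' : ι → ℝ) {M M' : ℝ}
    (h : ∑ g ∈ s, o g ^ 2 ≤ M) (h' : ∑ g ∈ s, o' g ^ 2 ≤ M') :
    ∑ g ∈ s, o g * o' g ≤ (M + M') / 2 := by
  have h1 : ∑ g ∈ s, o g * o' g ≤ ∑ g ∈ s, (o g ^ 2 + o' g ^ 2) / 2 :=
    Finset.sum_le_sum fun g _ => by nlinarith [sq_nonneg (o g - o' g)]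
  rw [← Finset.sum_div, Finset.sum_add_distrib] at h1
  linarith

variable [MeasurableSpace Z] {D : Dyn G Z}

theorem wt_sub (S : Su D) (g g' : G) {ε : ℝ} (h : dist (D.pt g'⁻¹) (D.pt g⁻¹) ≤ ε) (x : Z) :
    |S.wt g x - S.wt g' x| ≤ ε := by
  unfold Su.wt
  refine (abs_max_sub_max_le_abs _ _ _).trans ?_
  have h1 := abs_dist_sub_le (D.pt g⁻¹) (D.pt g'⁻¹) x
  rw [dist_comm (D.pt g⁻¹) x, dist_comm (D.pt g'⁻¹) x, dist_comm (D.pt g⁻¹)] at h1
  calc |dist x (D.pt g⁻¹) - S.d - (dist x (D.pt g'⁻¹) - S.d)|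
      = |dist x (D.pt g⁻¹) - dist x (D.pt g'⁻¹)| := by congr 1; ring
    _ ≤ ε := h1.trans h

theorem wt_zero (S : Su D) (hel : S_el S) (g g' : G) {ε : ℝ} (hε : ε ≤ S.d / 2)
    (h : dist (D.pt g'⁻¹) (D.pt g⁻¹) ≤ ε) {x : Z} (hx : dist x (D.pt g⁻¹) < S.d / 2) :
    S.wt g x = 0 ∧ S.wt g' x = 0 := by
  refine ⟨((hel.wt g).2 x).2.2 (by linarith [S.d_pos]), ((hel.wt g').2 x).2.2 ?_⟩
  have h1 := dist_triangle x (D.pt g⁻¹) (D.pt g'⁻¹)
  rw [dist_comm (D.pt g⁻¹)] at h1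
  linarith

theorem wt_prod (S : Su D) (hel : S_el S) (g g' : G) {ε : ℝ}
    (h : dist (D.pt g'⁻¹) (D.pt g⁻¹) ≤ ε) (x y : Z) :
    |S.wt g x * S.wt g y - S.wt g' x * S.wt g' y| ≤ 2 * D.C * ε := by
  have h1 := wt_sub S g g' h x
  have h2 := wt_sub S g g' h y
  obtain ⟨a1, a2, -⟩ := (hel.wt g).2 y
  obtain ⟨b1, b2, -⟩ := (hel.wt g').2 x
  have hε : 0 ≤ ε := (abs_nonneg _).trans h1
  have e : S.wt g x * S.wt g y - S.wt g' x * S.wt g' y =
      (S.wt g x - S.wt g' x) * S.wt g y + S.wt g' x * (S.wt g y - S.wt g' y) := by ring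
  rw [e]
  refine (abs_add_le _ _).trans ?_
  rw [abs_mul, abs_mul, abs_of_nonneg a1, abs_of_nonneg b1]
  have h3 : |S.wt g x - S.wt g' x| * S.wt g y ≤ ε * D.C := mul_le_mul h1 a2 a1 hε
  have h4 : S.wt g' x * |S.wt g y - S.wt g' y| ≤ D.C * ε :=
    mul_le_mul b2 h2 (abs_nonneg _) (b1.trans b2)
  linarith

theorem el_cmp (S : Su D) (hel : S_el S) (h g : G) (u v : Z → ℝ) (hu : MB u) (hv : MB v)
    {ε o o' : ℝ} (hε : ε ≤ S.d / 2) (ho : 0 ≤ o) (ho' : 0 ≤ o')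
    (hd : dist (D.pt (h * g)⁻¹) (D.pt g⁻¹) ≤ ε)
    (h1 : Osc D (S.d / 2) g (fun x => u (h • x)) o)
    (h2 : Osc D (S.d / 2) g (fun x => v (h • x)) o') :
    |S.el g (fun x => u (h • x)) (fun x => v (h • x)) - S.el (h * g) u v| ≤
      2 * D.C * ε * (S.ν.prod S.ν).real univ * (o * o') := by
  haveI := S.nu.fin
  have hε0 : 0 ≤ ε := dist_nonneg.trans hd
  have hC : 0 ≤ D.C := by linarith [D.one_le_C]
  have i1 := hel.int g (h * g) u v hu hv
  have i2 := hel.int (h * g) (h * g) u v hu hv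
  have e1 : S.el g (fun x => u (h • x)) (fun x => v (h • x)) =
      ∫ z : Z × Z, S.wt g z.1 * S.wt g z.2 * ((u ((h * g) • z.1) - u ((h * g) • z.2)) *
        (v ((h * g) • z.1) - v ((h * g) • z.2))) ∂(S.ν.prod S.ν) := by
    simp only [Su.el, mul_smul]
  rw [e1, Su.el, ← integral_sub i1 i2, ← Real.norm_eq_abs]
  refine (norm_integral_le_of_norm_le_const (C := 2 * D.C * ε * (o * o'))
    (Eventually.of_forall fun z => ?_)).trans (le_of_eq (by ring))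
  rw [Real.norm_eq_abs, ← sub_mul, abs_mul]
  by_cases hx : dist z.1 (D.pt g⁻¹) < S.d / 2
  · obtain ⟨a, b⟩ := wt_zero S hel g (h * g) hε hd hx
    rw [a, b]
    simp only [zero_mul, sub_self, abs_zero]
    positivity
  by_cases hy : dist z.2 (D.pt g⁻¹) < S.d / 2
  · obtain ⟨a, b⟩ := wt_zero S hel g (h * g) hε hd hy
    rw [a, b]
    simp only [mul_zero, zero_mul, sub_self, abs_zero]
    positivity
  have k1 := h1 z.1 z.2 (not_lt.1 hx) (not_lt.1 hy)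
  have k2 := h2 z.1 z.2 (not_lt.1 hx) (not_lt.1 hy)
  simp only [← mul_smul] at k1 k2
  refine mul_le_mul (wt_prod S hel g (h * g) hd _ _) ?_ (abs_nonneg _) (by positivity)
  rw [abs_mul]
  exact mul_le_mul k1 k2 (abs_nonneg _) ho

end InvAux

open InvAux

theorem inv_pf [MeasurableSpace Z] [BorelSpace Z] [CompactSpace Z] {D : Dyn G Z} (S : Su D) (hbl : S_bl) (hdyn : S_dyn D) (hces : S_ces D) (hmbl : S_mbl S.toNC) (hel : S_el S) (heb : S_eb S.toNC) : S_inv S := by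
  intro h u v hu hv
  have hK : 0 ≤ S.K0 := sq_nonneg _
  have hC : 0 ≤ D.C := by linarith [D.one_le_C]
  -- bounded absolute sums
  have hb : ∃ M, ∀ᶠ n in atTop, ∑ g ∈ D.lev n, |S.el g u v| ≤ M := by
    obtain ⟨o, M, ho, h1⟩ := hu.2 S.d S.d_pos
    obtain ⟨o', M', ho', h2⟩ := hv.2 S.d S.d_pos
    refine ⟨S.K0 * ((M + M') / 2), ?_⟩
    filter_upwards [h1, h2] with n a b
    calc ∑ g ∈ D.lev n, |S.el g u v| ≤ ∑ g ∈ D.lev n, S.K0 * (o g * o' g) :=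
          Finset.sum_le_sum fun g hg => hel.osc g u v _ _ (ho g) (ho' g) (a.1 g hg) (b.1 g hg)
      _ = S.K0 * ∑ g ∈ D.lev n, o g * o' g := (Finset.mul_sum _ _ _).symm
      _ ≤ _ := mul_le_mul_of_nonneg_left (sum_mul_le _ _ _ a.2 b.2) hK
  obtain ⟨⟨M0, hM0⟩, hc⟩ := hces (fun g => S.el g u v) h hb
  have hbd : Bdd fun n => ∑ g ∈ D.lev n, S.el (h * g) u v :=
    ⟨M0, hM0.mono fun n hn => (Finset.abs_sum_le_sum_abs _ _).trans hn⟩
  have hd2 : 0 < S.d / 2 := half_pos S.d_pos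
  obtain ⟨o, M, ho, h1⟩ := (heb.comp h u hu).2 _ hd2
  obtain ⟨o', M', ho', h2⟩ := (heb.comp h v hv).2 _ hd2
  set V : ℝ := (S.ν.prod S.ν).real univ with hV
  have hV0 : 0 ≤ V := measureReal_nonneg
  set T : ℝ := 2 * D.C * V * (|(M + M') / 2| + 1) with hT
  have hT0 : 0 ≤ T := by positivity
  have key := hbl.near (S.E1 (fun x => u (h • x)) (fun x => v (h • x)))
    (fun n => ∑ g ∈ D.lev n, S.el (h * g) u v) 0 hbd (fun ε hε => by
      have hη : 0 < min (S.d / 2) (ε / (T + 1)) := lt_min hd2 (by positivity)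
      filter_upwards [h1, h2, hdyn.close h _ hη] with n a b c
      set η := min (S.d / 2) (ε / (T + 1)) with hηd
      rw [Su.E1, ← Finset.sum_sub_distrib, zero_add]
      refine (Finset.abs_sum_le_sum_abs _ _).trans ?_
      have s1 : ∑ g ∈ D.lev n, |S.el g (fun x => u (h • x)) (fun x => v (h • x)) -
          S.el (h * g) u v| ≤ ∑ g ∈ D.lev n, 2 * D.C * η * V * (o g * o' g) :=
        Finset.sum_le_sum fun g hg => el_cmp S hel h g u v hu.1 hv.1 (min_le_left _ _) (ho g)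
          (ho' g) (c g (D.mem_lev.1 hg)) (a.1 g hg) (b.1 g hg)
      rw [← Finset.mul_sum] at s1
      have s2 : ∑ g ∈ D.lev n, o g * o' g ≤ |(M + M') / 2| + 1 :=
        (sum_mul_le _ _ _ a.2 b.2).trans ((le_abs_self _).trans (by linarith))
      have s3 : 2 * D.C * η * V * ∑ g ∈ D.lev n, o g * o' g ≤
          2 * D.C * η * V * (|(M + M') / 2| + 1) :=
        mul_le_mul_of_nonneg_left s2 (by have := hη.le; positivity)
      have s4 : η * (T + 1) ≤ ε := (le_div_iff₀ (by positivity)).1 (min_le_right _ _)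
      have s5 : 2 * D.C * η * V * (|(M + M') / 2| + 1) = η * T := by rw [hT]; ring
      nlinarith [hη.le])
  have e : BL (S.E1 (fun x => u (h • x)) (fun x => v (h • x))) =
      BL (fun n => ∑ g ∈ D.lev n, S.el (h * g) u v) :=
    sub_eq_zero.1 (abs_nonpos_iff.1 key.2)
  unfold Su.B1
  rw [e, hc]
  rfl

end Vale.Agent.P198.PB
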