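import Vale.Agent.P198.B.Stm

open Set Metric Topology Filter MeasureTheory

namespace Vale.Agent.P198.PB

variable {G Z : Type*} [Group G] [MetricSpace Z] [MulAction G Z]

namespace KeyAux

theorem contOn (D : Dyn G Z) (c : GCh Z) (γ : G) {T : Set ℂ} (h : ∀ w ∈ T, γ • c.k w ≠ c.b) :
    ContinuousOn (fun w => c.h (γ • c.k w)) T :=
  c.h_cont.comp ((D.cont_smul γ).comp c.k_cont).continuousOn h

theorem cj_inv {D : Dyn G Z} {N : NC D} {p0 : ℂ} (W : Blow N p0) (γ : G) (k : ℕ) (x : Z) :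
    W.cj γ⁻¹ k • (W.cj γ k • x) = x := by
  rw [← mul_smul]
  have h : W.cj γ⁻¹ k * W.cj γ k = 1 := by unfold Blow.cj; group
  rw [h, one_smul]

theorem add_div (p0 p : ℂ) {s : ℝ} (hs : 0 < s) : p0 + s * ((p - p0) / s) = p := by
  have h : (s : ℂ) ≠ 0 := Complex.ofReal_ne_zero.2 hs.ne'
  field_simp
  ring

theorem norm_le {p0 p : ℂ} {s R : ℝ} (hs : 0 < s) (h : ‖(p - p0) / s‖ ≤ R) : ‖p - p0‖ ≤ R * s := by
  rwa [norm_div, Complex.norm_real, Real.norm_eq_abs, abs_of_pos hs, div_le_iff₀ hs] at h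

theorem in_disc {p0 c w : ℂ} {s R ρ : ℝ} (hs : 0 < s) (hw : ‖w‖ ≤ R) (hρ : 0 < ρ)
    (h : ‖p0 - c‖ + 2 * (R * s) ≤ ρ) : ‖p0 + s * w - c‖ < 4 * ρ := by
  have h1 : ‖p0 + s * w - c‖ ≤ ‖p0 - c‖ + ‖(s : ℂ) * w‖ := by
    have e : p0 + s * w - c = (p0 - c) + s * w := by ring
    rw [e]; exact norm_add_le _ _
  rw [norm_mul, Complex.norm_real, Real.norm_eq_abs, abs_of_pos hs] at h1
  have h2 := mul_le_mul_of_nonneg_left hw hs.le
  have h3 := mul_nonneg hs.le (norm_nonneg w)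
  nlinarith

/-- the support of the composed function -/
theorem sup_cj {D : Dyn G Z} {N : NC D} {p0 : ℂ} (W : Blow N p0) (γ : G) (k : ℕ) {φ : ℂ → ℝ}
    {R : ℝ} {H : ℂ → ℂ} (hs : 0 < W.s k) (hρ : ‖p0 - N.c‖ + 2 * (R * W.s k) ≤ N.ρ)
    (hb : ∀ w ∈ tsupport φ, ‖w‖ ≤ R) (hH : ∀ w ∈ tsupport φ, ‖H w‖ + 1 ≤ R)
    (hc : ∀ w ∈ tsupport φ, W.cj γ⁻¹ k • N.fi (p0 + W.s k * w) ∈ N.B ∧
      ‖(N.f (W.cj γ⁻¹ k • N.fi (p0 + W.s k * w)) - p0) / W.s k - H w‖ ≤ 1)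
    (x : Z) (hx : N.ext (sc p0 (W.s k) φ) (W.cj γ k • x) ≠ 0) :
    x ∈ N.B ∧ ‖N.f x - p0‖ ≤ R * W.s k := by
  obtain ⟨h1, h2⟩ := N.ext_ne hx
  have hw : (N.f (W.cj γ k • x) - p0) / W.s k ∈ tsupport φ := subset_tsupport _ h2
  have h3 := hc _ hw
  have h4 := in_disc hs (hb _ hw) N.ρ_pos hρ
  rw [add_div _ _ hs] at h3 h4
  rw [N.fi_f h1 h4, cj_inv] at h3
  refine ⟨h3.1, norm_le hs ?_⟩
  have h5 := norm_le_norm_sub_add ((N.f x - p0) / W.s k) (H ((N.f (W.cj γ k • x) - p0) / W.s k))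
  linarith [hH _ hw, h3.2]

theorem int_near (hll : S_ll) (a11 a12 a22 : ℝ) {ψ U V : ℂ → ℝ} (hψ : ContDiff ℝ 2 ψ)
    (hc : HasCompactSupport ψ) (hU : ContinuousOn U (tsupport ψ))
    (hV : ContinuousOn V (tsupport ψ)) {e : ℝ} (h : ∀ w ∈ tsupport ψ, |U w - V w| ≤ e) :
    |(∫ w, U w * LL a11 a12 a22 ψ w) - ∫ w, V w * LL a11 a12 a22 ψ w| ≤
      e * ∫ w, |LL a11 a12 a22 ψ w| := by
  have i1 := hll.int a11 a12 a22 ψ U hψ hc hU
  have i2 := hll.int a11 a12 a22 ψ V hψ hc hV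
  have i3 := hll.int a11 a12 a22 ψ (fun _ => 1) hψ hc continuousOn_const
  simp only [one_mul] at i3
  rw [← integral_sub i1 i2, ← integral_const_mul]
  refine (abs_integral_le_integral_abs).trans (integral_mono (i1.sub i2).abs
    (i3.abs.const_mul e) fun w => ?_)
  by_cases hw : w ∈ tsupport ψ
  · simp only
    rw [← sub_mul, abs_mul]
    exact mul_le_mul_of_nonneg_right (h w hw) (abs_nonneg _)
  · simp only [hll.zero a11 a12 a22 ψ w hw, mul_zero, sub_zero, abs_zero, le_refl]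

theorem small {A ε : ℝ} (hA : 0 ≤ A) (hε : 0 < ε) : ∃ e > 0, e * A ≤ ε / 4 := by
  refine ⟨ε / 4 / (A + 1), by positivity, ?_⟩
  rw [div_mul_eq_mul_div, div_le_iff₀ (by positivity)]
  nlinarith

end KeyAux

open KeyAux in
theorem key_pf [MeasurableSpace Z] [BorelSpace Z] [CompactSpace Z] {D : Dyn G Z} (S : Su D) (hll : S_ll) (hest : S_est S) (hmb : S_mb S.toNC) (hcvg : S_cvg S.toNC) : S_key S := by
  intro P W γ φ ψ hφ hφc hψ hψc hT hT'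
  obtain ⟨K, hK0, hK⟩ := hmb
  have h12 : (1 : WithTop ℕ∞) ≤ 2 := by norm_num
  obtain ⟨Mφ, hMφ0, -, -, hφl⟩ := hll.lip φ (hφ.of_le h12) hφc
  obtain ⟨Mψ, hMψ0, -, hψg, -⟩ := hll.lip ψ (hψ.of_le h12) hψc
  obtain ⟨R1, hR1, hS1, hB1⟩ := exists_Sup hφc
  obtain ⟨R2, -, hS2, hB2⟩ := exists_Sup hψc
  obtain ⟨R3, hR3⟩ := hφc.isCompact.exists_bound_of_continuousOn (contOn D W.ch γ⁻¹ hT')
  obtain ⟨R, e1, e2, e3⟩ : ∃ R, R1 ≤ R ∧ R2 ≤ R ∧ R3 + 1 ≤ R :=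
    ⟨max (max R1 R2) (R3 + 1), (le_max_left _ _).trans (le_max_left _ _),
      (le_max_right _ _).trans (le_max_left _ _), le_max_right _ _⟩
  have hR : 0 < R := by linarith
  have hSφ : Sup 0 R φ := hS1.mono (by simpa using e1)
  have hSψ : Sup 0 R ψ := hS2.mono (by simpa using e2)
  rw [Metric.tendsto_nhds]
  intro ε hε
  obtain ⟨a, ha, ha'⟩ := small (A := 2 * R * Mψ * √(K * (Mφ * R) ^ 2)) (by positivity) hε
  obtain ⟨b, hb, hb'⟩ := small (A := Mφ * ∫ w, |LL P.a11 P.a12 P.a22 ψ w|)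
    (mul_nonneg hMφ0 (integral_nonneg fun _ => abs_nonneg _)) hε
  obtain ⟨r0, hr0, hr1, hE⟩ := hest P a ha
  have hz : ∀ᶠ k in atTop, 2 * (R * W.s k) < r0 := by
    have h := (W.s_zero.const_mul R).const_mul 2
    rw [mul_zero, mul_zero] at h
    exact h.eventually (gt_mem_nhds hr0)
  filter_upwards [ev_UF W.s_pos, ev_UF hz, hcvg P.p0 W γ⁻¹ _ hφc.isCompact hT' 1 one_pos,
    hcvg P.p0 W γ _ hψc.isCompact hT b hb] with k hs hk c1 c2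
  have hρ : ‖P.p0 - S.c‖ + 2 * (R * W.s k) ≤ S.ρ := by linarith
  have hRs : 0 < R * W.s k := mul_pos hR hs
  obtain ⟨U, hUc, -, hUe, hUa⟩ := hK (W.cj γ k) (sc P.p0 (W.s k) φ) P.p0 (R * W.s k) (Mφ / W.s k)
    hRs hρ (hll.sc_sup _ _ _ _ hs hSφ) (hll.sc_lip _ _ _ _ hs hφl)
    (sup_cj W γ k hs hρ (fun w hw => (hB1 w hw).trans e1)
      (fun w hw => by linarith [hR3 w hw]) c1)
  have q1 : Mφ / W.s k * (R * W.s k) = Mφ * R := by field_simp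
  rw [q1] at hUa
  have h1 := hE (2 * (R * W.s k)) (by positivity) hk.le U (sc P.p0 (W.s k) ψ) _ (Mψ / W.s k) hUc hUa
    (hll.sc_smooth 2 _ _ _ hψ) ((hll.sc_sup _ _ _ _ hs hSψ).mono (by simp; linarith))
    (hll.sc_grad _ _ _ _ hs (hψ.of_le h12) hψg)
  have q2 : a * (2 * (R * W.s k)) * (Mψ / W.s k) * √(K * (Mφ * R) ^ 2) =
      a * (2 * R * Mψ * √(K * (Mφ * R) ^ 2)) := by field_simp
  rw [q2, hll.sc_int _ _ _ _ _ _ _ hs hψ, funext hUe] at h1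
  have h2 := int_near hll P.a11 P.a12 P.a22 hψ hψc
    (U := fun w => U (P.p0 + W.s k * w)) (V := fun w => φ (W.ch.h (γ • W.ch.k w)))
    (hUc.comp (by fun_prop)).continuousOn
    (hφ.continuous.comp_continuousOn (contOn D W.ch γ hT)) (e := Mφ * b) (fun w hw => by
      have h3 := in_disc hs ((hB2 w hw).trans e2) S.ρ_pos hρ
      rw [← S.ext_fi U h3, hUe, S.ext_of_mem _ (c2 w hw).1]
      exact (hφl _ _).trans (mul_le_mul_of_nonneg_left (c2 w hw).2 hMφ0))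
  rw [Real.dist_eq]
  have h4 := abs_le.1 h1
  have h5 := abs_le.1 h2
  rw [abs_lt]
  constructor <;> nlinarith

end Vale.Agent.P198.PB
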