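import Vale.Agent.P198.B.Stm

open Set Metric Topology Filter MeasureTheory

namespace Vale.Agent.P198.PB

variable {G Z : Type*} [Group G] [MetricSpace Z] [MulAction G Z]

namespace LamAux

variable [MeasurableSpace Z] {D : Dyn G Z}

/-- Oscillation comparable with the size of the tile. -/
def OP (S : Su D) (u : Z → ℝ) : Prop :=
  ∃ K, 0 ≤ K ∧ ∀ᶠ n in atTop, ∀ g ∈ S.Rel n, Osc D S.d g u (K * S.sg g)

theorem op_ext (S : Su D) (hsh : S_sh S.toNC) (φ : ℂ → ℝ)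
    (hφ : ∀ p p', |φ p - φ p'| ≤ ‖p - p'‖) : OP S (S.ext φ) := by
  obtain ⟨K, hK, h⟩ := hsh.rel S.d S.d_pos
  refine ⟨2 * K, by linarith, h.mono fun n hn g hg x y hx hy => ?_⟩
  obtain ⟨x1, x2⟩ := hn g hg x hx
  obtain ⟨y1, y2⟩ := hn g hg y hy
  rw [S.toNC.ext_of_mem φ x1, S.toNC.ext_of_mem φ y1]
  have h1 := hφ (S.f (g • x)) (S.f (g • y))
  have h2 := norm_sub_le_norm_sub_add_norm_sub (S.f (g • x)) (S.pg g) (S.f (g • y))
  rw [norm_sub_rev (S.pg g)] at h2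
  linarith

theorem op_X (S : Su D) (hsh : S_sh S.toNC) : OP S S.X :=
  op_ext S hsh _ fun p p' => by
    rw [← Complex.sub_re]; exact Complex.abs_re_le_norm _

theorem op_Y (S : Su D) (hsh : S_sh S.toNC) : OP S S.Y :=
  op_ext S hsh _ fun p p' => by
    rw [← Complex.sub_im]; exact Complex.abs_im_le_norm _

theorem en_eq (S : Su D) {a : ℂ → ℝ} (ha : Sup S.c S.ρ a) (u v : Z → ℝ) (n : ℕ) :
    S.En (S.ext a) u v n = ∑ g ∈ S.Rel n, a (S.pg g) * S.el g u v := by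
  unfold Su.En
  rw [← Finset.sum_subset (S.toNC.Rel_subset n)]
  · refine Finset.sum_congr rfl fun g hg => ?_
    rw [S.toNC.ext_of_mem a (S.toNC.mem_Rel.1 hg).2.1]
    rfl
  · intro g hg hn
    rw [S.toNC.ext_pt_zero ha hg hn, zero_mul]

theorem bound (S : Su D) (hsum : S_sum S.toNC) (hel : S_el S) {u v : Z → ℝ} (hu : OP S u)
    (hv : OP S v) : ∃ K, 0 ≤ K ∧ ∀ a, Continuous a → Sup S.c S.ρ a → ∀ ε > 0, ∀ᶠ n in atTop,
      |S.En (S.ext a) u v n| ≤ K * (∫ p, |a p|) + ε := by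
  obtain ⟨K1, k1, h1⟩ := hu
  obtain ⟨K2, k2, h2⟩ := hv
  obtain ⟨K3, k3, h3⟩ := hsum.up
  have k0 : 0 ≤ S.K0 := sq_nonneg _
  have hC : 0 ≤ S.K0 * K1 * K2 := by positivity
  refine ⟨S.K0 * K1 * K2 * K3, by positivity, fun a hc ha ε hε => ?_⟩
  filter_upwards [h1, h2, h3 a hc ha (ε / (S.K0 * K1 * K2 + 1)) (by positivity), S.toNC.sg_pos]
    with n e1 e2 e3 e4
  rw [en_eq S ha]
  have e5 : |∑ g ∈ S.Rel n, a (S.pg g) * S.el g u v| ≤
      S.K0 * K1 * K2 * ∑ g ∈ S.Rel n, |a (S.pg g)| * S.sg g ^ 2 := by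
    rw [Finset.mul_sum]
    refine (Finset.abs_sum_le_sum_abs _ _).trans (Finset.sum_le_sum fun g hg => ?_)
    have s0 := (e4 g hg).le
    have e6 := hel.osc g u v _ _ (by positivity) (by positivity) (e1 g hg) (e2 g hg)
    rw [abs_mul]
    calc |a (S.pg g)| * |S.el g u v| ≤ |a (S.pg g)| * (S.K0 * (K1 * S.sg g * (K2 * S.sg g))) :=
          mul_le_mul_of_nonneg_left e6 (abs_nonneg _)
      _ = _ := by ring
  have e7 := mul_le_mul_of_nonneg_left e3 hC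
  have e8 : S.K0 * K1 * K2 * (ε / (S.K0 * K1 * K2 + 1)) ≤ ε := by
    rw [mul_div_assoc', div_le_iff₀ (by positivity)]
    nlinarith
  calc _ ≤ _ := e5
    _ ≤ _ := e7
    _ = S.K0 * K1 * K2 * K3 * (∫ p, |a p|) + S.K0 * K1 * K2 * (ε / (S.K0 * K1 * K2 + 1)) := by ring
    _ ≤ _ := by linarith

theorem bdd (S : Su D) (hbl : S_bl) (hsum : S_sum S.toNC) (hel : S_el S) {u v : Z → ℝ}
    (hu : OP S u) (hv : OP S v) (a : ℂ → ℝ) (hc : Continuous a) (ha : Sup S.c S.ρ a) :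
    Bdd (S.En (S.ext a) u v) := by
  obtain ⟨K, _, h⟩ := bound S hsum hel hu hv
  exact (hbl.abs_le _ _ (h a hc ha)).1

theorem lin (S : Su D) (hbl : S_bl) (hsum : S_sum S.toNC) (hel : S_el S) {u v : Z → ℝ}
    (hu : OP S u) (hv : OP S v) : ∃ K, ∀ K', K ≤ K' →
      Lin S.c S.ρ K' fun a => BL (S.En (S.ext a) u v) := by
  obtain ⟨K, _, h⟩ := bound S hsum hel hu hv
  refine ⟨K, fun K' hK => ⟨fun a a' hc ha hc' ha' => ?_, fun t a hc ha => ?_, fun a hc ha => ?_⟩⟩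
  · rw [← hbl.add _ _ (bdd S hbl hsum hel hu hv a hc ha) (bdd S hbl hsum hel hu hv a' hc' ha')]
    congr 1
    funext n
    rw [S.toNC.ext_add]
    unfold Su.En
    rw [← Finset.sum_add_distrib]
    exact Finset.sum_congr rfl fun g _ => add_mul _ _ _
  · rw [← hbl.smul _ _ (bdd S hbl hsum hel hu hv a hc ha)]
    congr 1
    funext n
    rw [S.toNC.ext_smul]
    unfold Su.En
    rw [Finset.mul_sum]
    exact Finset.sum_congr rfl fun g _ => mul_assoc _ _ _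
  · exact (hbl.abs_le _ _ (h a hc ha)).2.trans
      (mul_le_mul_of_nonneg_right hK (integral_nonneg fun p => abs_nonneg _))

end LamAux

open LamAux in
theorem lam_pf [MeasurableSpace Z] [BorelSpace Z] [CompactSpace Z] {D : Dyn G Z} (S : Su D) (hbl : S_bl) (hsh : S_sh S.toNC) (hsum : S_sum S.toNC) (hel : S_el S) (hlow : S_low S) : S_lam S := by
  have hX := op_X S hsh
  have hY := op_Y S hsh
  refine ⟨fun a hc ha => ⟨bdd S hbl hsum hel hX hX a hc ha, bdd S hbl hsum hel hX hY a hc ha,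
    bdd S hbl hsum hel hY hY a hc ha⟩, ?_, ?_⟩
  · obtain ⟨K1, h1⟩ := lin S hbl hsum hel hX hX
    obtain ⟨K2, h2⟩ := lin S hbl hsum hel hX hY
    obtain ⟨K3, h3⟩ := lin S hbl hsum hel hY hY
    exact ⟨max K1 (max K2 K3), h1 _ (le_max_left _ _),
      h2 _ ((le_max_left _ _).trans (le_max_right _ _)),
      h3 _ ((le_max_right _ _).trans (le_max_right _ _))⟩
  · obtain ⟨κ1, k1, h1⟩ := hlow
    obtain ⟨κ2, k2, h2⟩ := hsum.low
    refine ⟨κ1 * κ2, by positivity, fun a hc ha h0 s t => ?_⟩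
    have b1 := bdd S hbl hsum hel hX hX a hc ha
    have b2 := bdd S hbl hsum hel hX hY a hc ha
    have b3 := bdd S hbl hsum hel hY hY a hc ha
    have c1 := hbl.bsmul (s ^ 2) _ b1
    have c2 := hbl.bsmul (2 * s * t) _ b2
    have c3 := hbl.bsmul (t ^ 2) _ b3
    have e : s ^ 2 * S.L11 a + 2 * s * t * S.L12 a + t ^ 2 * S.L22 a =
        BL (fun n => (s ^ 2 * S.En (S.ext a) S.X S.X n + 2 * s * t * S.En (S.ext a) S.X S.Y n) +
          t ^ 2 * S.En (S.ext a) S.Y S.Y n) := by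
      rw [hbl.add _ _ (hbl.badd _ _ c1 c2) c3, hbl.add _ _ c1 c2, hbl.smul _ _ b1,
        hbl.smul _ _ b2, hbl.smul _ _ b3]
      rfl
    rw [e, ← hbl.const (κ1 * κ2 * (s ^ 2 + t ^ 2) * ∫ p, a p)]
    refine hbl.le _ _ ⟨_, Eventually.of_forall fun _ => le_rfl⟩
      (hbl.badd _ _ (hbl.badd _ _ c1 c2) c3) fun ε hε => ?_
    have hq : 0 ≤ κ1 * (s ^ 2 + t ^ 2) := by positivity
    filter_upwards [h1, h2 a hc ha h0 (ε / (κ1 * (s ^ 2 + t ^ 2) + 1)) (by positivity)]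
      with n e1 e2
    rw [en_eq S ha, en_eq S ha, en_eq S ha, Finset.mul_sum, Finset.mul_sum, Finset.mul_sum,
      ← Finset.sum_add_distrib, ← Finset.sum_add_distrib]
    have e3 : κ1 * (s ^ 2 + t ^ 2) * ∑ g ∈ S.Rel n, a (S.pg g) * S.sg g ^ 2 ≤
        ∑ g ∈ S.Rel n, (s ^ 2 * (a (S.pg g) * S.el g S.X S.X) +
          2 * s * t * (a (S.pg g) * S.el g S.X S.Y) + t ^ 2 * (a (S.pg g) * S.el g S.Y S.Y)) := by
      rw [Finset.mul_sum]
      refine Finset.sum_le_sum fun g hg => ?_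
      have e4 := mul_le_mul_of_nonneg_left (e1 g hg s t) (h0 (S.pg g))
      calc _ = a (S.pg g) * (κ1 * (s ^ 2 + t ^ 2) * S.sg g ^ 2) := by ring
        _ ≤ _ := e4
        _ = _ := by ring
    have e5 := mul_le_mul_of_nonneg_left e2 hq
    have e6 : κ1 * (s ^ 2 + t ^ 2) * (ε / (κ1 * (s ^ 2 + t ^ 2) + 1)) ≤ ε := by
      rw [mul_div_assoc', div_le_iff₀ (by positivity)]
      nlinarith
    calc κ1 * κ2 * (s ^ 2 + t ^ 2) * ∫ p, a p = κ1 * (s ^ 2 + t ^ 2) * (κ2 * ∫ p, a p) := by ring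
      _ ≤ _ := e5
      _ = κ1 * (s ^ 2 + t ^ 2) * (∑ g ∈ S.Rel n, a (S.pg g) * S.sg g ^ 2) +
          κ1 * (s ^ 2 + t ^ 2) * (ε / (κ1 * (s ^ 2 + t ^ 2) + 1)) := by ring
      _ ≤ _ := add_le_add e3 e6

end Vale.Agent.P198.PB
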