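import Vale.Agent.P198.B.Stm

open Set Metric Topology Filter MeasureTheory

namespace Vale.Agent.P198.PB

variable {G Z : Type*} [Group G] [MetricSpace Z] [MulAction G Z]

namespace LebAux

theorem cs {α : Type*} [MeasurableSpace α] {μ : Measure α} {f g : α → ℝ} (hf : MemLp f 2 μ)
    (hg : MemLp g 2 μ) : |∫ x, f x * g x ∂μ| ≤ √(∫ x, f x ^ 2 ∂μ) * √(∫ x, g x ^ 2 ∂μ) := by
  have i1 := hf.integrable_sq
  have i2 := hg.integrable_sq
  have i3 : Integrable (fun x => f x * g x) μ := hf.integrable_mul hg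
  have h : ∀ t : ℝ, 0 ≤ (∫ x, f x ^ 2 ∂μ) * (t * t) + (2 * ∫ x, f x * g x ∂μ) * t +
      ∫ x, g x ^ 2 ∂μ := fun t => by
    have h0 : 0 ≤ ∫ x, (t * f x + g x) ^ 2 ∂μ := integral_nonneg fun _ => sq_nonneg _
    have e : (fun x => (t * f x + g x) ^ 2) =
        fun x => (t * t * f x ^ 2 + 2 * t * (f x * g x)) + g x ^ 2 := by
      funext x; ring
    have i4 : Integrable (fun x => t * t * f x ^ 2 + 2 * t * (f x * g x)) μ :=
      (i1.const_mul _).add (i3.const_mul _)
    rw [e, integral_add i4 i2,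
      integral_add (i1.const_mul _) (i3.const_mul _), integral_const_mul, integral_const_mul] at h0
    linarith
  have hd := discrim_le_zero h
  unfold discrim at hd
  have p1 : 0 ≤ ∫ x, f x ^ 2 ∂μ := integral_nonneg fun _ => sq_nonneg _
  rw [← Real.sqrt_mul p1]
  exact Real.abs_le_sqrt (by nlinarith)

theorem vol_cb (p : ℂ) {r : ℝ} (hr : 0 ≤ r) :
    (volume : Measure ℂ).real (closedBall p r) = Real.pi * r ^ 2 := by
  rw [measureReal_def, Complex.volume_closedBall]
  simp [ENNReal.toReal_ofReal hr, mul_comm]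

theorem small {A : ℂ → ℝ} (hA : MemLp A 2 volume) : ∀ᵐ p : ℂ, ∀ ε > 0, ∃ r0 > 0, ∀ r, 0 < r →
    r ≤ r0 → ∫ w in closedBall p r, (A w - A p) ^ 2 ≤ (ε * r) ^ 2 := by
  have l1 : LocallyIntegrable A volume := hA.locallyIntegrable (by norm_num)
  have l2 : LocallyIntegrable (fun w => A w ^ 2) volume := hA.integrable_sq.locallyIntegrable
  filter_upwards [(Besicovitch.vitaliFamily volume).ae_tendsto_average l1,
    (Besicovitch.vitaliFamily volume).ae_tendsto_average l2] with p h1 h2 ε hε
  have t1 := h1.comp (Besicovitch.tendsto_filterAt volume p)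
  have t2 := h2.comp (Besicovitch.tendsto_filterAt volume p)
  have t3 : Tendsto (fun r : ℝ => (⨍ w in closedBall p r, A w ^ 2) -
      2 * A p * (⨍ w in closedBall p r, A w) + A p ^ 2) (𝓝[>] 0)
      (𝓝 (A p ^ 2 - 2 * A p * A p + A p ^ 2)) := (t2.sub (t1.const_mul _)).add_const _
  have e0 : A p ^ 2 - 2 * A p * A p + A p ^ 2 = 0 := by ring
  rw [e0] at t3
  have hpos : 0 < ε ^ 2 / Real.pi := div_pos (by positivity) Real.pi_pos
  obtain ⟨r0, hr0, hs⟩ := mem_nhdsGT_iff_exists_Ioc_subset.1 (t3.eventually (gt_mem_nhds hpos))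
  refine ⟨r0, hr0, fun r hr hrr => ?_⟩
  have h3 : (⨍ w in closedBall p r, A w ^ 2) -
      2 * A p * (⨍ w in closedBall p r, A w) + A p ^ 2 < ε ^ 2 / Real.pi := hs ⟨hr, hrr⟩
  have hK := isCompact_closedBall p r
  have j1 : IntegrableOn A (closedBall p r) volume := l1.integrableOn_isCompact hK
  have j2 : IntegrableOn (fun w => A w ^ 2) (closedBall p r) volume := l2.integrableOn_isCompact hK
  have j3 : IntegrableOn (fun _ : ℂ => A p ^ 2) (closedBall p r) volume :=
    integrableOn_const hK.measure_lt_top.ne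
  have e : (fun w => (A w - A p) ^ 2) = fun w => (A w ^ 2 - 2 * A p * A w) + A p ^ 2 := by
    funext w; ring
  have j4 : IntegrableOn (fun w => A w ^ 2 - 2 * A p * A w) (closedBall p r) volume :=
    j2.sub (j1.const_mul _)
  rw [e, integral_add j4 j3, integral_sub j2 (j1.const_mul _),
    integral_const_mul, setIntegral_const, vol_cb p hr.le, smul_eq_mul]
  rw [setAverage_eq, setAverage_eq, vol_cb p hr.le, smul_eq_mul, smul_eq_mul,
    lt_div_iff₀ Real.pi_pos] at h3
  have hV : 0 < Real.pi * r ^ 2 := by have := Real.pi_pos; positivity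
  have e2 : (∫ w in closedBall p r, A w ^ 2) - 2 * A p * (∫ w in closedBall p r, A w) +
      Real.pi * r ^ 2 * A p ^ 2 = (((Real.pi * r ^ 2)⁻¹ * ∫ w in closedBall p r, A w ^ 2) -
      2 * A p * ((Real.pi * r ^ 2)⁻¹ * ∫ w in closedBall p r, A w) + A p ^ 2) * Real.pi * r ^ 2 := by
    have := Real.pi_pos
    field_simp
  rw [e2, mul_pow]
  exact mul_le_mul_of_nonneg_right h3.le (sq_nonneg _)

end LebAux

open LebAux

theorem leb_pf : S_leb := by
  intro A hA
  filter_upwards [small hA] with p hp ε hε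
  obtain ⟨r0, hr0, h⟩ := hp ε hε
  refine ⟨r0, hr0, fun r hr hrr a ha hs => ?_⟩
  have hK := isCompact_closedBall p r
  have hm : MeasurableSet (closedBall p r) := measurableSet_closedBall
  have m1 : MemLp a 2 volume := ha.memLp_of_hasCompactSupport hs.hcs
  have : IsFiniteMeasure (volume.restrict (closedBall p r)) :=
    isFiniteMeasure_restrict.2 hK.measure_lt_top.ne
  have m2 : MemLp ((closedBall p r).indicator fun w => A w - A p) 2 volume :=
    (memLp_indicator_iff_restrict hm).2 ((hA.restrict _).sub (memLp_const _))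
  have c := cs m1 m2
  have e1 : ∫ w, a w * (closedBall p r).indicator (fun w => A w - A p) w =
      (∫ w, a w * A w) - A p * ∫ w, a w := by
    have i3 : Integrable (fun w => a w * A w) volume := m1.integrable_mul hA
    rw [← integral_const_mul, ← integral_sub i3 ((hs.integrable ha).const_mul _)]
    congr 1
    funext w
    by_cases hw : w ∈ closedBall p r
    · rw [indicator_of_mem hw]; ring
    · have h0 : a w = 0 := by
        by_contra h0
        exact hw (mem_closedBall_iff_norm.2 (hs w h0))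
      simp [h0]
  have e2 : ∫ w, (closedBall p r).indicator (fun w => A w - A p) w ^ 2 =
      ∫ w in closedBall p r, (A w - A p) ^ 2 := by
    rw [← integral_indicator hm]
    congr 1
    funext w
    by_cases hw : w ∈ closedBall p r <;> simp [hw]
  rw [e1, e2] at c
  have e3 : √(∫ w in closedBall p r, (A w - A p) ^ 2) ≤ ε * r :=
    Real.sqrt_le_iff.2 ⟨by positivity, h r hr hrr⟩
  calc _ ≤ _ := c
    _ ≤ √(∫ w, a w ^ 2) * (ε * r) := mul_le_mul_of_nonneg_left e3 (Real.sqrt_nonneg _)
    _ = _ := by ring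

end Vale.Agent.P198.PB
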