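import Vale.Agent.P198.B.Stm

open Set Metric Topology Filter MeasureTheory

namespace Vale.Agent.P198.PB

variable {G Z : Type*} [Group G] [MetricSpace Z] [MulAction G Z]

namespace LimAux

theorem ulim {X : Type*} [TopologicalSpace X] {K : Set X} (hK : IsCompact K) {x : ℕ → X}
    (hx : ∀ᶠ k in UF, x k ∈ K) : ∃ l, Tendsto x UF (𝓝 l) := by
  obtain ⟨l, -, hl⟩ := hK.ultrafilter_le_nhds ((hyperfilter ℕ).map x) (le_principal_iff.2 hx)
  exact ⟨l, hl⟩

theorem near {a : ℕ → Z} {b : Z} (hb : Tendsto a UF (𝓝 b)) {d : ℝ} (hd : 0 < d) :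
    ∀ᶠ k in UF, ∀ y, d ≤ dist y b → d / 2 ≤ dist y (a k) := by
  filter_upwards [Metric.tendsto_nhds.1 hb (d / 2) (half_pos hd)] with k hk y hy
  linarith [dist_triangle y (a k) b]

end LimAux

open LimAux in
theorem lim_pf [CompactSpace Z] (h1 : S_uc Z ℂ) (h2 : S_uc ℂ Z) : S_lim Z := by
  intro φ κ a H1 H2 H3 H4
  obtain ⟨b, hb⟩ := ulim isCompact_univ (x := a) (Eventually.of_forall fun _ => mem_univ _)
  choose kk hkk using fun w => ulim isCompact_univ (x := fun k => κ k w)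
    (Eventually.of_forall fun _ => mem_univ _)
  have G1 : ∀ d > 0, ∃ K, ∀ᶠ k in UF, ∀ y, d ≤ dist y b → ‖φ k y‖ ≤ K ∧ κ k (φ k y) = y := by
    intro d hd
    obtain ⟨K, hK⟩ := H1 (d / 2) (half_pos hd)
    exact ⟨K, by filter_upwards [ev_UF hK, near hb hd] with k a1 a2 y hy using a1 y (a2 y hy)⟩
  have ex : ∀ y, ∃ l, y ≠ b → Tendsto (fun k => φ k y) UF (𝓝 l) := by
    intro y
    by_cases hy : y = b
    · exact ⟨0, fun h => absurd hy h⟩
    · obtain ⟨K, hK⟩ := G1 _ (dist_pos.2 hy)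
      obtain ⟨l, hl⟩ := ulim (isCompact_closedBall (0 : ℂ) K) (x := fun k => φ k y)
        (hK.mono fun k hk => mem_closedBall_zero_iff.2 (hk y le_rfl).1)
      exact ⟨l, fun _ => hl⟩
  choose h hh using ex
  have U1 : ∀ d > 0, ContinuousOn h {y | d ≤ dist y b} ∧
      ∀ ε > 0, ∀ᶠ k in UF, ∀ y ∈ {y | d ≤ dist y b}, dist (φ k y) (h y) ≤ ε := by
    intro d hd
    refine h1 φ h _ (isClosed_le continuous_const (by fun_prop)).isCompact
      (fun y hy => hh y (dist_pos.1 (hd.trans_le hy))) fun ε hε => ?_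
    obtain ⟨θ, hθ, H⟩ := H2 (d / 2) (half_pos hd) ε hε
    refine ⟨θ, hθ, ?_⟩
    filter_upwards [ev_UF H, near hb hd] with k a1 a2 x hx y hy hxy
    rw [dist_eq_norm]
    exact a1 x y (a2 x hx) (a2 y hy) hxy
  have U2 : ∀ R : ℝ, ContinuousOn kk (closedBall 0 R) ∧
      ∀ ε > 0, ∀ᶠ k in UF, ∀ w ∈ closedBall (0 : ℂ) R, dist (κ k w) (kk w) ≤ ε := by
    intro R
    refine h2 κ kk _ (isCompact_closedBall _ _) (fun w _ => hkk w) fun ε hε => ?_
    obtain ⟨θ, hθ, H⟩ := H4 R ε hε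
    refine ⟨θ, hθ, ?_⟩
    filter_upwards [ev_UF H] with k a1 x hx y hy hxy
    exact a1 x y (mem_closedBall_zero_iff.1 hx) (mem_closedBall_zero_iff.1 hy)
      (by rwa [← dist_eq_norm])
  have B1 : ∀ d > 0, ∃ K, ∀ y, d ≤ dist y b → ‖h y‖ ≤ K := by
    intro d hd
    obtain ⟨K, hK⟩ := G1 d hd
    exact ⟨K, fun y hy => le_of_tendsto (hh y (dist_pos.1 (hd.trans_le hy))).norm
      (hK.mono fun k hk => (hk y hy).1)⟩
  have B2 : ∀ R : ℝ, ∃ d > 0, ∀ w, ‖w‖ ≤ R → d ≤ dist (kk w) b := by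
    intro R
    obtain ⟨d, hd, H⟩ := H3 R
    exact ⟨d, hd, fun w hw => ge_of_tendsto ((hkk w).dist hb)
      ((ev_UF H).mono fun k hk => (hk w hw).1)⟩
  have hc : ∀ y, y ≠ b → ContinuousAt h y := by
    intro y hy
    have hd := dist_pos.2 hy
    refine (U1 _ (half_pos hd)).1.continuousAt (mem_of_superset
      ((isOpen_lt (continuous_const (y := dist y b / 2))
        (show Continuous fun z => dist z b by fun_prop)).mem_nhds (half_lt_self hd)) ?_)
    exact fun z hz => show dist y b / 2 ≤ dist z b from le_of_lt hz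
  have kc : Continuous kk := by
    rw [continuous_iff_continuousAt]
    intro w
    exact (U2 (‖w‖ + 1)).1.continuousAt (closedBall_mem_nhds_of_mem
      (mem_ball_zero_iff.2 (lt_add_one _)))
  have kne : ∀ w, kk w ≠ b := fun w => by
    obtain ⟨d, hd, H⟩ := B2 ‖w‖
    exact dist_pos.1 (hd.trans_le (H w le_rfl))
  have hk : ∀ w, h (kk w) = w := by
    intro w
    refine tendsto_nhds_unique ((hc _ (kne w)).tendsto.comp (hkk w))
      (Metric.tendsto_nhds.2 fun ε hε => ?_)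
    obtain ⟨d, -, H⟩ := H3 ‖w‖
    have hd := dist_pos.2 (kne w)
    filter_upwards [ev_UF H, (U1 _ (half_pos hd)).2 (ε / 2) (half_pos hε),
      Metric.tendsto_nhds.1 (hkk w) _ (half_pos hd)] with k a1 a2 a3
    have := a2 (κ k w) (show _ ≤ _ by linarith [dist_triangle_left (kk w) b (κ k w)])
    rw [(a1 w le_rfl).2, dist_comm] at this
    exact this.trans_lt (half_lt_self hε)
  have kh : ∀ y, y ≠ b → kk (h y) = y := by
    intro y hy
    refine tendsto_nhds_unique (kc.continuousAt.tendsto.comp (hh y hy))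
      (Metric.tendsto_nhds.2 fun ε hε => ?_)
    obtain ⟨K, hK⟩ := G1 _ (dist_pos.2 hy)
    filter_upwards [hK, (U2 K).2 (ε / 2) (half_pos hε)] with k a1 a2
    have := a2 (φ k y) (mem_closedBall_zero_iff.2 (a1 y le_rfl).1)
    rw [(a1 y le_rfl).2, dist_comm] at this
    exact this.trans_lt (half_lt_self hε)
  have kinf : Tendsto kk (cocompact ℂ) (𝓝 b) := by
    refine Metric.tendsto_nhds.2 fun ε hε => ?_
    obtain ⟨K, hK⟩ := B1 ε hε
    filter_upwards [(tendsto_norm_cocompact_atTop (E := ℂ)).eventually_gt_atTop K] with w hw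
    by_contra hc'
    have := hK _ (not_lt.1 hc')
    rw [hk] at this
    exact absurd hw (not_lt.2 this)
  have hinf : Tendsto h (𝓝[≠] b) (cocompact ℂ) := by
    rw [← Metric.cobounded_eq_cocompact, ← tendsto_norm_atTop_iff_cobounded,
      Filter.tendsto_atTop]
    intro R
    obtain ⟨d, hd, H⟩ := B2 R
    filter_upwards [self_mem_nhdsWithin, mem_nhdsWithin_of_mem_nhds (ball_mem_nhds b hd)]
      with y hy hy'
    by_contra hc'
    have := H _ (not_le.1 hc').le
    rw [kh y hy] at this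
    exact absurd (mem_ball.1 hy') (not_lt.2 this)
  refine ⟨⟨b, h, kk, fun y hy => (hc y hy).continuousWithinAt, kc, kne, hk, kh, kinf, hinf⟩, hb,
    fun d hd ε hε => ?_, fun R ε hε => ?_⟩
  · filter_upwards [(U1 d hd).2 ε hε] with k a1 y hy
    rw [← dist_eq_norm]
    exact a1 y hy
  · filter_upwards [(U2 R).2 ε hε] with k a1 w hw
    exact a1 w (mem_closedBall_zero_iff.2 hw)

end Vale.Agent.P198.PB
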