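import Vale.Agent.P198.B.Stm

open Set Metric Topology Filter MeasureTheory

namespace Vale.Agent.P198.PB

variable {G Z : Type*} [Group G] [MetricSpace Z] [MulAction G Z]

namespace LlAux

/-- Directional derivative. -/
noncomputable def dd (v : ℂ) (ψ : ℂ → ℝ) (p : ℂ) : ℝ := fderiv ℝ ψ p v

theorem LL_eq (a b c : ℝ) (ψ : ℂ → ℝ) (p : ℂ) : LL a b c ψ p =
    a * dd 1 (dd 1 ψ) p + 2 * b * dd 1 (dd Complex.I ψ) p + c * dd Complex.I (dd Complex.I ψ) p :=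
  rfl

theorem dd_congr (v : ℂ) {φ ψ : ℂ → ℝ} {p : ℂ} (h : φ =ᶠ[𝓝 p] ψ) : dd v φ =ᶠ[𝓝 p] dd v ψ := by
  filter_upwards [h.fderiv (𝕜 := ℝ)] with q hq
  simp only [dd, hq]

theorem dd_zero (v : ℂ) : dd v (0 : ℂ → ℝ) = 0 := by
  funext p
  simp [dd]

theorem dd_c1 (v : ℂ) {ψ : ℂ → ℝ} (h : ContDiff ℝ 2 ψ) : ContDiff ℝ 1 (dd v ψ) :=
  (h.fderiv_right (m := 1) (by norm_num)).clm_apply contDiff_const

theorem dd_c0 (v : ℂ) {ψ : ℂ → ℝ} (h : ContDiff ℝ 1 ψ) : Continuous (dd v ψ) :=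
  (h.continuous_fderiv (by norm_num)).clm_apply continuous_const

theorem congr' (a b c : ℝ) (φ ψ : ℂ → ℝ) (p : ℂ) (h : φ =ᶠ[𝓝 p] ψ) :
    LL a b c φ p = LL a b c ψ p := by
  rw [LL_eq, LL_eq, (dd_congr 1 (dd_congr 1 h)).eq_of_nhds,
    (dd_congr 1 (dd_congr Complex.I h)).eq_of_nhds,
    (dd_congr Complex.I (dd_congr Complex.I h)).eq_of_nhds]

theorem zero' (a b c : ℝ) (ψ : ℂ → ℝ) (p : ℂ) (h : p ∉ tsupport ψ) : LL a b c ψ p = 0 := by
  rw [congr' a b c ψ 0 p (notMem_tsupport_iff_eventuallyEq.1 h), LL_eq]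
  simp only [dd_zero, Pi.zero_apply, mul_zero, add_zero]

theorem cont' (a b c : ℝ) (ψ : ℂ → ℝ) (h : ContDiff ℝ 2 ψ) : Continuous (LL a b c ψ) := by
  have e : LL a b c ψ = fun p => a * dd 1 (dd 1 ψ) p + 2 * b * dd 1 (dd Complex.I ψ) p +
      c * dd Complex.I (dd Complex.I ψ) p := rfl
  rw [e]
  exact ((continuous_const.mul (dd_c0 _ (dd_c1 _ h))).add
    (continuous_const.mul (dd_c0 _ (dd_c1 _ h)))).add (continuous_const.mul (dd_c0 _ (dd_c1 _ h)))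

theorem int' (a b c : ℝ) (ψ U : ℂ → ℝ) (h : ContDiff ℝ 2 ψ) (hc : HasCompactSupport ψ)
    (hU : ContinuousOn U (tsupport ψ)) : Integrable fun p => U p * LL a b c ψ p := by
  have hs : Function.support (fun p => U p * LL a b c ψ p) ⊆ tsupport ψ := by
    intro p hp
    by_contra hn
    exact hp (by simp only [zero' a b c ψ p hn, mul_zero])
  rw [← integrableOn_iff_integrable_of_support_subset hs]
  exact (hU.mul (cont' a b c ψ h).continuousOn).integrableOn_compact hc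

theorem aff_eq (p0 : ℂ) (s : ℝ) (q : ℂ) : (q - p0) / s = s⁻¹ • (q - p0) := by
  rw [Complex.real_smul, Complex.ofReal_inv, div_eq_inv_mul]

theorem aff_deriv (p0 : ℂ) (s : ℝ) (q : ℂ) :
    HasFDerivAt (fun q : ℂ => (q - p0) / s) (s⁻¹ • ContinuousLinearMap.id ℝ ℂ) q := by
  simp only [aff_eq]
  exact ((hasFDerivAt_id q).sub_const p0).const_smul s⁻¹

theorem sc_smooth' (k : ℕ) (p0 : ℂ) (s : ℝ) (ψ : ℂ → ℝ) (h : ContDiff ℝ k ψ) :
    ContDiff ℝ k (sc p0 s ψ) := by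
  have e : sc p0 s ψ = ψ ∘ fun q => s⁻¹ • (q - p0) := by
    funext q
    simp only [sc, aff_eq, Function.comp]
  rw [e]
  exact h.comp ((contDiff_id.sub contDiff_const).const_smul s⁻¹)

theorem dd_sc (v p0 : ℂ) (s : ℝ) {ψ : ℂ → ℝ} (h : Differentiable ℝ ψ) :
    dd v (sc p0 s ψ) = fun q => s⁻¹ * sc p0 s (dd v ψ) q := by
  funext q
  have k : HasFDerivAt (sc p0 s ψ)
      ((fderiv ℝ ψ ((q - p0) / s)).comp (s⁻¹ • ContinuousLinearMap.id ℝ ℂ)) q :=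
    (h _).hasFDerivAt.comp q (aff_deriv p0 s q)
  simp only [dd, sc]
  rw [k.fderiv]
  simp only [ContinuousLinearMap.comp_apply, smul_apply,
    ContinuousLinearMap.id_apply, map_smul, smul_eq_mul]

theorem dd_mul (v : ℂ) (c : ℝ) {ψ : ℂ → ℝ} (h : Differentiable ℝ ψ) :
    dd v (fun q => c * ψ q) = fun q => c * dd v ψ q := by
  funext q
  simp only [dd]
  rw [((h q).hasFDerivAt.const_mul c).fderiv]
  simp only [smul_apply, smul_eq_mul]

theorem dd_sc2 (v w p0 : ℂ) (s : ℝ) {ψ : ℂ → ℝ} (h : ContDiff ℝ 2 ψ) (q : ℂ) :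
    dd v (dd w (sc p0 s ψ)) q = s⁻¹ * (s⁻¹ * dd v (dd w ψ) ((q - p0) / s)) := by
  have h1 : Differentiable ℝ (dd w ψ) := (dd_c1 w h).differentiable (by norm_num)
  have h2 : Differentiable ℝ (sc p0 s (dd w ψ)) :=
    (sc_smooth' 1 p0 s _ (dd_c1 w h)).differentiable (by norm_num)
  rw [dd_sc w p0 s (h.differentiable (by norm_num)), dd_mul v _ h2, dd_sc v p0 s h1]
  rfl

theorem LL_sc (a b c : ℝ) (p0 : ℂ) (s : ℝ) {ψ : ℂ → ℝ} (h : ContDiff ℝ 2 ψ) (q : ℂ) :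
    LL a b c (sc p0 s ψ) q = s⁻¹ ^ 2 * LL a b c ψ ((q - p0) / s) := by
  rw [LL_eq, LL_eq, dd_sc2 _ _ _ _ h, dd_sc2 _ _ _ _ h, dd_sc2 _ _ _ _ h]
  ring

theorem sc_int' (a b c : ℝ) (p0 : ℂ) (s : ℝ) (ψ U : ℂ → ℝ) (hs : 0 < s) (h : ContDiff ℝ 2 ψ) :
    ∫ p, U p * LL a b c (sc p0 s ψ) p = ∫ w : ℂ, U (p0 + s * w) * LL a b c ψ w := by
  set g : ℂ → ℝ := fun w => U (p0 + s * w) * LL a b c ψ w with hg
  have hs' : (s : ℂ) ≠ 0 := Complex.ofReal_ne_zero.2 hs.ne'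
  have e : ∀ p, U p * LL a b c (sc p0 s ψ) p = s⁻¹ ^ 2 * g (s⁻¹ • (p - p0)) := by
    intro p
    rw [LL_sc _ _ _ _ _ h, ← aff_eq, hg]
    have : p0 + s * ((p - p0) / s) = p := by
      rw [mul_div_cancel₀ _ hs', add_sub_cancel]
    simp only [this]
    ring
  simp only [e]
  rw [integral_const_mul, integral_sub_right_eq_self (fun p => g (s⁻¹ • p)) p0,
    Measure.integral_comp_smul, Complex.finrank_real_complex, abs_of_pos (by positivity),
    smul_eq_mul, ← mul_assoc, mul_inv_cancel₀ (by positivity), one_mul]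

theorem norm_aff (p p' : ℂ) {s : ℝ} (hs : 0 < s) : ‖(p - p') / s‖ = ‖p - p'‖ / s := by
  rw [norm_div, Complex.norm_real, Real.norm_eq_abs, abs_of_pos hs]

theorem abs_dd_le (v : ℂ) (hv : ‖v‖ = 1) (ψ : ℂ → ℝ) (p : ℂ) : |dd v ψ p| ≤ ‖fderiv ℝ ψ p‖ := by
  have := (fderiv ℝ ψ p).le_opNorm v
  rw [hv, mul_one] at this
  exact this

theorem lip' (ψ : ℂ → ℝ) (h : ContDiff ℝ 1 ψ) (hc : HasCompactSupport ψ) :
    ∃ M, 0 ≤ M ∧ (∀ p, |ψ p| ≤ M) ∧
    (∀ p, |dx ψ p| ≤ M ∧ |dy ψ p| ≤ M) ∧ ∀ p p', |ψ p - ψ p'| ≤ M * ‖p - p'‖ := by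
  obtain ⟨A, hA⟩ := h.continuous.bounded_above_of_compact_support hc
  obtain ⟨B, hB⟩ := (h.continuous_fderiv (by norm_num)).bounded_above_of_compact_support
    (hc.fderiv ℝ)
  have hB' : ∀ p, ‖fderiv ℝ ψ p‖ ≤ max A B := fun p => (hB p).trans (le_max_right _ _)
  refine ⟨max A B, (norm_nonneg _).trans (hB' 0), fun p => (hA p).trans (le_max_left _ _),
    fun p => ⟨(abs_dd_le 1 norm_one ψ p).trans (hB' p),
      (abs_dd_le Complex.I Complex.norm_I ψ p).trans (hB' p)⟩, fun p p' => ?_⟩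
  exact convex_univ.norm_image_sub_le_of_norm_fderiv_le
    (fun x _ => h.differentiable (by norm_num) x) (fun x _ => hB' x) (mem_univ p') (mem_univ p)

theorem fderiv_coord (b : ℂ → ℝ) (p u v : ℂ) :
    fderiv ℝ b p (u - v) = dx b p * (u.re - v.re) + dy b p * (u.im - v.im) := by
  have e : u - v = (u.re - v.re) • (1 : ℂ) + (u.im - v.im) • Complex.I := by
    apply Complex.ext <;> simp
  rw [e, map_add, map_smul, map_smul, smul_eq_mul, smul_eq_mul, dx, dy]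
  ring

theorem taylor' (b : ℂ → ℝ) (h : ContDiff ℝ 1 b) (hc : HasCompactSupport b) (ε : ℝ)
    (hε : ε > 0) : ∃ δ > 0, ∀ p u v : ℂ, ‖u - p‖ ≤ δ → ‖v - p‖ ≤ δ →
    |b u - b v - (dx b p * (u.re - v.re) + dy b p * (u.im - v.im))| ≤ ε * ‖u - v‖ := by
  have hu : UniformContinuous (fderiv ℝ b) :=
    (hc.fderiv ℝ).uniformContinuous_of_continuous (h.continuous_fderiv (by norm_num))
  obtain ⟨δ, hδ, hd⟩ := Metric.uniformContinuous_iff_le.1 hu ε hε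
  refine ⟨δ, hδ, fun p u v h1 h2 => ?_⟩
  rw [← fderiv_coord]
  refine (convex_closedBall p δ).norm_image_sub_le_of_norm_fderiv_le'
    (fun x _ => h.differentiable (by norm_num) x) (fun x hx => ?_) ?_ ?_
  · rw [← dist_eq_norm]
    exact hd hx
  · rwa [mem_closedBall, dist_eq_norm]
  · rwa [mem_closedBall, dist_eq_norm]

end LlAux

open LlAux in
theorem ll_pf : S_ll := by
  refine ⟨congr', zero', cont', int', sc_smooth', ?_, ?_, ?_, sc_int', lip', taylor'⟩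
  · intro p0 s R ψ hs h p hp
    have := h _ hp
    rw [sub_zero, norm_aff _ _ hs, div_le_iff₀ hs] at this
    exact this
  · intro p0 s M ψ hs h hM p
    have hd : Differentiable ℝ ψ := h.differentiable (by norm_num)
    have k : ∀ v, |dd v ψ ((p - p0) / s)| ≤ M → |dd v (sc p0 s ψ) p| ≤ M / s := by
      intro v hv
      rw [dd_sc v p0 s hd]
      simp only [sc]
      rw [abs_mul, abs_of_pos (inv_pos.2 hs), div_eq_inv_mul M]
      exact mul_le_mul_of_nonneg_left hv (inv_pos.2 hs).le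
    exact ⟨k 1 (hM _).1, k Complex.I (hM _).2⟩
  · intro p0 s M ψ hs h p p'
    refine (h _ _).trans (le_of_eq ?_)
    rw [← sub_div, sub_sub_sub_cancel_right, norm_aff _ _ hs]
    ring

end Vale.Agent.P198.PB
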