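import Vale.Agent.P198.B.Stm

open Set Metric Topology Filter MeasureTheory

namespace Vale.Agent.P198.PB

variable {G Z : Type*} [Group G] [MetricSpace Z] [MulAction G Z]

namespace LowAux

theorem pair_le (s t : ℝ) (w : ℂ) : |s * w.re + t * w.im| ≤ ‖(⟨s, t⟩ : ℂ)‖ * ‖w‖ := by
  have e : s * w.re + t * w.im = ((starRingEnd ℂ) (⟨s, t⟩ : ℂ) * w).re := by simp
  rw [e]
  refine (Complex.abs_re_le_norm _).trans ?_
  rw [norm_mul, Complex.norm_conj]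

theorem nsq (s t : ℝ) : ‖(⟨s, t⟩ : ℂ)‖ ^ 2 = s ^ 2 + t ^ 2 := by
  rw [Complex.sq_norm, Complex.normSq_apply]
  ring

theorem quad [MeasurableSpace Z] {D : Dyn G Z} (S : Su D) (hmbl : S_mbl S.toNC) (hel : S_el S)
    (g : G) (s t : ℝ) :
    s ^ 2 * S.el g S.X S.X + 2 * s * t * S.el g S.X S.Y + t ^ 2 * S.el g S.Y S.Y =
      S.el g (fun x => s * S.X x + t * S.Y x) (fun x => s * S.X x + t * S.Y x) := by
  have hX : MB S.X := hmbl.ext _ Complex.continuous_re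
  have hY : MB S.Y := hmbl.ext _ Complex.continuous_im
  have hu := hmbl.add _ _ (hmbl.smul s _ hX) (hmbl.smul t _ hY)
  have h1 : ∀ v, MB v → S.el g (fun x => s * S.X x + t * S.Y x) v
      = s * S.el g S.X v + t * S.el g S.Y v := fun v hv => by
    rw [hel.add g _ _ v (hmbl.smul s _ hX) (hmbl.smul t _ hY) hv, hel.smul, hel.smul]
  rw [h1 _ hu, hel.symm g S.X (fun x => s * S.X x + t * S.Y x),
    hel.symm g S.Y (fun x => s * S.X x + t * S.Y x), h1 _ hX, h1 _ hY, hel.symm g S.Y S.X]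
  ring

end LowAux

open LowAux in
theorem low_pf [MeasurableSpace Z] [BorelSpace Z] [CompactSpace Z] {D : Dyn G Z} (S : Su D) (hdyn : S_dyn D) (hsh : S_sh S.toNC) (hmbl : S_mbl S.toNC) (hel : S_el S) : S_low S := by
  have hd := S.d_pos
  have hC := D.C_pos
  have := S.nu.fin
  obtain ⟨θ, hθ, hsm⟩ := S.small (D.C / S.d) (1 / 4) (by norm_num)
  obtain ⟨K, -, hrel⟩ := hsh.rel S.d hd
  have hd' : 0 < min (2 * S.d) (θ * S.d ^ 2 / D.C ^ 3) := lt_min (by positivity) (by positivity)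
  obtain ⟨c, hc, hfull⟩ := S.nu.full _ hd'
  have hd1 := min_le_left (2 * S.d) (θ * S.d ^ 2 / D.C ^ 3)
  have hd2 := min_le_right (2 * S.d) (θ * S.d ^ 2 / D.C ^ 3)
  generalize min (2 * S.d) (θ * S.d ^ 2 / D.C ^ 3) = d' at hd' hfull hd1 hd2
  refine ⟨S.d ^ 2 * c ^ 2 / 4, by positivity, ?_⟩
  filter_upwards [hsm, hrel, S.dsm, S.sg_pos, S.sg_tiny S.ρ_pos] with n h1 h2 h3 h4 h5 g hg s t
  rw [quad S hmbl hel]
  have hX : MB S.X := hmbl.ext _ Complex.continuous_re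
  have hY : MB S.Y := hmbl.ext _ Complex.continuous_im
  have hu := hmbl.add _ _ (hmbl.smul s _ hX) (hmbl.smul t _ hY)
  rcases (norm_nonneg (⟨s, t⟩ : ℂ)).eq_or_lt with h0 | h0
  · rw [← nsq, ← h0]
    simpa using hel.nonneg g _
  obtain ⟨hlen, hB, hpg⟩ := S.toNC.mem_Rel.1 hg
  have hsg := h4 g hg
  have hρ := S.ρ_pos
  have hq := D.qpow_pos n
  have near : ∀ x ∈ S.B, ‖S.f x - S.pg g‖ ≤ S.sg g → ∀ y ∈ ball (g⁻¹ • x) d',
      S.d ≤ S.wt g y ∧ g • y ∈ S.B ∧ ‖S.f (g • y) - S.f x‖ ≤ 1 / 4 * S.sg g := by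
    intro x hx hxs y hy
    have k1 := h3 g hg x hx hxs
    have k2 := dist_triangle (g⁻¹ • x) y (D.pt g⁻¹)
    rw [mem_ball] at hy
    rw [dist_comm (g⁻¹ • x) y] at k2
    have k3 : S.d ≤ dist y (D.pt g⁻¹) := by linarith
    have k4 : S.d ≤ dist (g⁻¹ • x) (D.pt g⁻¹) := by linarith
    refine ⟨le_max_of_le_left (by linarith), (h2 g hg y k3).1, ?_⟩
    have k5 := hdyn.sh g y _ hd k3
    have k6 := hdyn.sh g _ _ hd k4
    have k7 := hdyn.con g y _ _ hd k3 k4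
    rw [smul_inv_smul, hlen] at k6 k7
    rw [hlen] at k5
    rw [S.toNC.sg_eq hg]
    refine h1 _ hB (S.toNC.Rel_in hg) _ _ k5 k6 (k7.trans ?_)
    refine mul_le_mul_of_nonneg_right ?_ hq.le
    calc D.C ^ 3 / S.d ^ 2 * dist y (g⁻¹ • x)
        ≤ D.C ^ 3 / S.d ^ 2 * (θ * S.d ^ 2 / D.C ^ 3) := by
          gcongr
          exact hy.le.trans hd2
      _ = θ := by field_simp
  have hr := nsq s t
  have hp := pair_le s t
  generalize hξ : (⟨s, t⟩ : ℂ) = ξ at h0 hr hp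
  have hre : ξ.re = s := by rw [← hξ]
  have him : ξ.im = t := by rw [← hξ]
  have hn : ‖((S.sg g / ‖ξ‖ : ℝ) : ℂ) * ξ‖ = S.sg g := by
    rw [norm_mul, Complex.norm_real, Real.norm_of_nonneg (by positivity),
      div_mul_cancel₀ _ h0.ne']
  have hin : ‖S.pg g + ((S.sg g / ‖ξ‖ : ℝ) : ℂ) * ξ - S.c‖ < 4 * S.ρ := by
    have := norm_add_le (S.pg g - S.c) (((S.sg g / ‖ξ‖ : ℝ) : ℂ) * ξ)
    rw [hn, sub_add_eq_add_sub] at this
    linarith [h5 g hg]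
  obtain ⟨hx2, hf2⟩ := S.fi_mem _ hin
  generalize S.fi (S.pg g + ((S.sg g / ‖ξ‖ : ℝ) : ℂ) * ξ) = x2 at hx2 hf2
  have n1 := near (D.pt g) hB (by simpa [NC.pg] using hsg.le)
  have n2 := near x2 hx2 (by rw [hf2, add_sub_cancel_left, hn])
  have hint := hel.int g g _ _ hu hu
  have hlow : ∀ z ∈ ball (g⁻¹ • x2) d' ×ˢ ball (g⁻¹ • D.pt g) d',
      S.d ^ 2 * (‖ξ‖ * S.sg g / 2) ^ 2 ≤ S.wt g z.1 * S.wt g z.2 *
        ((s * S.X (g • z.1) + t * S.Y (g • z.1) - (s * S.X (g • z.2) + t * S.Y (g • z.2))) *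
          (s * S.X (g • z.1) + t * S.Y (g • z.1) - (s * S.X (g • z.2) + t * S.Y (g • z.2)))) := by
    rintro ⟨y, y'⟩ ⟨hy, hy'⟩
    obtain ⟨a1, a2, a3⟩ := n2 y hy
    obtain ⟨b1, b2, b3⟩ := n1 y' hy'
    simp only [NC.X, NC.Y, S.toNC.ext_of_mem _ a2, S.toNC.ext_of_mem _ b2]
    have e1 := (abs_le.1 ((hp _).trans (mul_le_mul_of_nonneg_left a3 h0.le))).1
    have e2 := (abs_le.1 ((hp _).trans (mul_le_mul_of_nonneg_left b3 h0.le))).2
    have e3 : s * (S.f x2 - S.f (D.pt g)).re + t * (S.f x2 - S.f (D.pt g)).im = ‖ξ‖ * S.sg g := by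
      have : S.f x2 - S.f (D.pt g) = ((S.sg g / ‖ξ‖ : ℝ) : ℂ) * ξ := by
        rw [hf2, NC.pg, add_sub_cancel_left]
      rw [this, Complex.re_ofReal_mul, Complex.im_ofReal_mul, hre, him]
      have h6 : s * (S.sg g / ‖ξ‖ * s) + t * (S.sg g / ‖ξ‖ * t)
          = S.sg g / ‖ξ‖ * (s ^ 2 + t ^ 2) := by ring
      rw [h6, ← hr]
      field_simp
    simp only [Complex.sub_re, Complex.sub_im] at e1 e2 e3
    have e4 : ‖ξ‖ * S.sg g / 2 ≤ s * (S.f (g • y)).re + t * (S.f (g • y)).im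
        - (s * (S.f (g • y')).re + t * (S.f (g • y')).im) := by linarith
    have e5 : 0 ≤ ‖ξ‖ * S.sg g / 2 := by positivity
    rw [sq, sq]
    exact mul_le_mul (mul_le_mul a1 b1 hd.le (hd.le.trans a1))
      (mul_le_mul e4 e4 e5 (e5.trans e4)) (mul_nonneg e5 e5)
      (mul_nonneg (hd.le.trans a1) (hd.le.trans b1))
  have hm : MeasurableSet (ball (g⁻¹ • x2) d' ×ˢ ball (g⁻¹ • D.pt g) d') :=
    measurableSet_ball.prod measurableSet_ball
  have i1 := setIntegral_ge_of_const_le_real hm (measure_ne_top (S.ν.prod S.ν) _) hlow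
    hint.integrableOn
  have i2 := setIntegral_le_integral (s := ball (g⁻¹ • x2) d' ×ˢ ball (g⁻¹ • D.pt g) d') hint
    (Eventually.of_forall fun z => mul_nonneg
      (mul_nonneg ((hel.wt g).2 _).1 ((hel.wt g).2 _).1) (mul_self_nonneg _))
  rw [measureReal_prod_prod] at i1
  refine le_trans ?_ (i1.trans i2)
  have i3 : c * c ≤ S.ν.real (ball (g⁻¹ • x2) d') * S.ν.real (ball (g⁻¹ • D.pt g) d') :=
    mul_le_mul (hfull _) (hfull _) hc.le measureReal_nonneg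
  calc S.d ^ 2 * c ^ 2 / 4 * (s ^ 2 + t ^ 2) * S.sg g ^ 2
      = S.d ^ 2 * (‖ξ‖ * S.sg g / 2) ^ 2 * (c * c) := by rw [← hr]; ring
    _ ≤ _ := by gcongr

end Vale.Agent.P198.PB
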