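import Vale.Agent.P198.B.Stm

open Set Metric Topology Filter MeasureTheory

namespace Vale.Agent.P198.PB

variable {G Z : Type*} [Group G] [MetricSpace Z] [MulAction G Z]

namespace MbAux

theorem vol_ball (w : ℂ) {t : ℝ} (ht : 0 ≤ t) : (volume (ball w t)).toReal = t ^ 2 * Real.pi := by
  rw [Complex.volume_ball, ENNReal.toReal_mul, ENNReal.toReal_pow, ENNReal.toReal_ofReal ht]
  rfl

theorem meas {W : Set ℂ} (hW : IsOpen W) {Ψ : ℂ → ℂ} (hΨ : ContinuousOn Ψ W) {p0 : ℂ} {R A : ℝ}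
    (hR : 0 ≤ R) (hA : 0 ≤ A) (hsub : W ⊆ ball p0 R) :
    ∃ μ : Measure ℂ, IsFiniteMeasure μ ∧ μ.real univ ≤ A * R ^ 2 ∧
      ∀ (s : Set ℂ) (w : ℂ) (t : ℝ), 0 ≤ t → ball w t ⊆ W ∩ Ψ ⁻¹' s → A * t ^ 2 ≤ μ.real s := by
  have hm : AEMeasurable Ψ (volume.restrict W) := hΨ.aemeasurable hW.measurableSet
  have hfin : volume W ≠ ⊤ := ne_top_of_le_ne_top measure_ball_lt_top.ne (measure_mono hsub)
  have f1 : IsFiniteMeasure (volume.restrict W) := isFiniteMeasure_restrict.2 hfin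
  have f2 : IsFiniteMeasure ((volume.restrict W).map Ψ) := inferInstance
  have hpi := Real.pi_pos
  have hc : 0 ≤ A / Real.pi := by positivity
  refine ⟨ENNReal.ofReal (A / Real.pi) • (volume.restrict W).map Ψ,
    Measure.smul_finite _ ENNReal.ofReal_ne_top, ?_, fun s w t ht h => ?_⟩
  · rw [measureReal_ennreal_smul_apply, ENNReal.toReal_ofReal hc, Measure.real,
      Measure.map_apply_of_aemeasurable hm MeasurableSet.univ, preimage_univ,
      Measure.restrict_apply_univ]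
    have : (volume W).toReal ≤ R ^ 2 * Real.pi := by
      rw [← vol_ball p0 hR]
      exact ENNReal.toReal_mono measure_ball_lt_top.ne (measure_mono hsub)
    calc _ ≤ A / Real.pi * (R ^ 2 * Real.pi) := mul_le_mul_of_nonneg_left this hc
      _ = _ := by field_simp
  · rw [measureReal_ennreal_smul_apply, ENNReal.toReal_ofReal hc, Measure.real]
    have h1 : volume (ball w t) ≤ ((volume.restrict W).map Ψ) s := by
      rw [← Measure.restrict_eq_self volume (fun x hx => (h hx).1)]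
      exact (measure_mono fun x hx => (h hx).2).trans (Measure.le_map_apply hm s)
    have h2 := ENNReal.toReal_mono (measure_ne_top _ _) h1
    rw [vol_ball w ht] at h2
    calc A * t ^ 2 = A / Real.pi * (t ^ 2 * Real.pi) := by field_simp
      _ ≤ _ := mul_le_mul_of_nonneg_left h2 hc

/-- The function read in the chart. -/
noncomputable def UU {D : Dyn G Z} (N : NC D) (γ : G) (φ : ℂ → ℝ) : ℂ → ℝ :=
  (ball N.c (4 * N.ρ)).indicator fun p => N.ext φ (γ • N.fi p)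

theorem UU_of_lt {D : Dyn G Z} (N : NC D) (γ : G) (φ : ℂ → ℝ) {p : ℂ}
    (h : ‖p - N.c‖ < 4 * N.ρ) : UU N γ φ p = N.ext φ (γ • N.fi p) :=
  indicator_of_mem (mem_ball_iff_norm.2 h) _

theorem UU_ne {D : Dyn G Z} (N : NC D) (γ : G) (φ : ℂ → ℝ) {p : ℂ} (h : UU N γ φ p ≠ 0) :
    ‖p - N.c‖ < 4 * N.ρ ∧ N.ext φ (γ • N.fi p) ≠ 0 := by
  by_cases hp : p ∈ ball N.c (4 * N.ρ)
  · have := mem_ball_iff_norm.1 hp
    exact ⟨this, by rwa [UU_of_lt N γ φ this] at h⟩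
  · exact absurd (indicator_of_notMem hp _) h

theorem UU_sup {D : Dyn G Z} (N : NC D) (γ : G) {φ : ℂ → ℝ} {p0 : ℂ} {r : ℝ}
    (hs : ∀ x, N.ext φ (γ • x) ≠ 0 → x ∈ N.B ∧ ‖N.f x - p0‖ ≤ r) : Sup p0 r (UU N γ φ) := by
  intro p hp
  obtain ⟨h1, h2⟩ := UU_ne N γ φ hp
  have := (hs _ h2).2
  rwa [(N.fi_mem p h1).2] at this

theorem UU_ext {D : Dyn G Z} (N : NC D) (γ : G) {φ : ℂ → ℝ} {p0 : ℂ} {r : ℝ}
    (hr : ‖p0 - N.c‖ + r < 4 * N.ρ)
    (hs : ∀ x, N.ext φ (γ • x) ≠ 0 → x ∈ N.B ∧ ‖N.f x - p0‖ ≤ r) (x : Z) :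
    N.ext (UU N γ φ) x = N.ext φ (γ • x) := by
  by_cases hx : x ∈ N.B ∧ ‖N.f x - N.c‖ < 4 * N.ρ
  · rw [N.ext_of_mem _ hx.1, UU_of_lt N γ φ hx.2, N.fi_f hx.1 hx.2]
  · have h1 : N.ext φ (γ • x) = 0 := by
      by_contra h
      obtain ⟨a, b⟩ := hs x h
      exact hx ⟨a, by linarith [norm_sub_le_norm_sub_add_norm_sub (N.f x) p0 N.c]⟩
    rw [h1]
    by_contra h
    obtain ⟨a, b⟩ := N.ext_ne h
    exact hx ⟨a, (UU_ne N γ φ b).1⟩

theorem UU_cont {D : Dyn G Z} (N : NC D) (γ : G) {φ : ℂ → ℝ} {p0 : ℂ} {r : ℝ}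
    (hr : ‖p0 - N.c‖ + r < 4 * N.ρ) (hc : Continuous (N.ext φ)) (hs : Sup p0 r (UU N γ φ)) :
    Continuous (UU N γ φ) := by
  rw [continuous_iff_continuousAt]
  intro p
  by_cases hp : p ∈ ball N.c (4 * N.ρ)
  · have h1 : ContinuousAt (fun p => N.ext φ (γ • N.fi p)) p :=
      (hc.comp (D.cont_smul γ)).continuousAt.comp
        (N.fi_cont.continuousAt (isOpen_ball.mem_nhds hp))
    refine h1.congr ?_
    filter_upwards [isOpen_ball.mem_nhds hp] with y hy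
    exact (UU_of_lt N γ φ (mem_ball_iff_norm.1 hy)).symm
  · have h1 : p ∉ closedBall p0 r := fun h => hp (mem_ball_iff_norm.2 (by
      linarith [norm_sub_le_norm_sub_add_norm_sub p p0 N.c, mem_closedBall_iff_norm.1 h]))
    refine (continuousAt_const (y := (0 : ℝ))).congr ?_
    filter_upwards [isClosed_closedBall.isOpen_compl.mem_nhds h1] with y hy
    by_contra h
    exact hy (mem_closedBall_iff_norm.2 (hs y (Ne.symm h)))

/-- Nearby points have nearby preimages, also after applying `γ`. -/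
theorem close {D : Dyn G Z} (N : NC D) (γ : G) {a b : ℝ} (ha : 0 < a) (hb : 0 < b) :
    ∃ ε0 > 0, ε0 ≤ N.ρ ∧ ∀ p1 p2, ‖p1 - N.c‖ ≤ N.ρ → ‖p2 - p1‖ ≤ ε0 → γ • N.fi p1 ∈ N.B →
      ‖N.f (γ • N.fi p1) - N.c‖ ≤ 3 * N.ρ → dist (N.fi p2) (N.fi p1) ≤ a ∧ γ • N.fi p2 ∈ N.B ∧
        ‖N.f (γ • N.fi p2) - N.f (γ • N.fi p1)‖ ≤ b := by
  obtain ⟨K1, hK1, hout⟩ := N.out 1
  have hK0 : 0 < K1 := by linarith
  obtain ⟨n, h1, h2⟩ := (hout.and (N.tiny (b / K1) (by positivity))).exists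
  obtain ⟨L, hL, hlip⟩ := D.lip γ
  have hρ := N.ρ_pos
  have hq := D.qpow_pos n
  have hu := (isCompact_closedBall N.c (2 * N.ρ)).uniformContinuousOn_of_continuous
    (N.fi_cont.mono (closedBall_subset_ball (by linarith)))
  obtain ⟨δ, hδ, hδ'⟩ := Metric.uniformContinuousOn_iff_le.1 hu (min a (D.q ^ n / L))
    (by positivity)
  refine ⟨min δ N.ρ, by positivity, min_le_right _ _, fun p1 p2 a1 a2 a3 a4 => ?_⟩
  have b1 := hδ' p2 (mem_closedBall_iff_norm.2 (by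
      linarith [norm_sub_le_norm_sub_add_norm_sub p2 p1 N.c, min_le_right δ N.ρ]))
    p1 (mem_closedBall_iff_norm.2 (by linarith))
    (by rw [dist_eq_norm]; exact a2.trans (min_le_left _ _))
  have b2 : dist (γ • N.fi p2) (γ • N.fi p1) ≤ 1 * D.q ^ n := by
    refine (hlip _ _).trans ?_
    have := b1.trans (min_le_right _ _)
    rw [le_div_iff₀ hL] at this
    linarith
  obtain ⟨c1, c2⟩ := h1 _ a3 a4 _ b2
  refine ⟨b1.trans (min_le_left _ _), c1, c2.trans ?_⟩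
  have := h2 _ a3 a4
  rw [le_div_iff₀ hK0] at this
  linarith

end MbAux

open MbAux in
theorem mb_pf {D : Dyn G Z} (N : NC D) (hrnd : S_rnd N) (hmoll : S_moll) : S_mb N := by
  obtain ⟨K, hK, hrnd⟩ := hrnd
  obtain ⟨Km, hKm, hmoll⟩ := hmoll
  refine ⟨Km * (4 * K ^ 2), by positivity, fun γ φ p0 r M hr hp0 hφ hlip hs => ?_⟩
  have hρ := N.ρ_pos
  have hn0 := norm_nonneg (p0 - N.c)
  have hφc : Continuous φ := (LipschitzWith.of_dist_le' (K := M) fun p p' => by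
    rw [Real.dist_eq, dist_eq_norm]; exact hlip p p').continuous
  have hr4 : ‖p0 - N.c‖ + r < 4 * N.ρ := by linarith
  have hsup := UU_sup N γ hs
  have hcont := UU_cont N γ hr4 (N.ext_cont hφc (hφ.mono (by linarith))) hsup
  refine ⟨UU N γ φ, hcont, hsup, UU_ext N γ hr4 hs, ?_⟩
  have hball : ball p0 (2 * r) ⊆ ball N.c (4 * N.ρ) := fun w hw => mem_ball_iff_norm.2 (by
    linarith [norm_sub_le_norm_sub_add_norm_sub w p0 N.c, mem_ball_iff_norm.1 hw])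
  have hc1 : ContinuousOn (fun w => γ⁻¹ • N.fi w) (ball p0 (2 * r)) :=
    (D.cont_smul γ⁻¹).comp_continuousOn (N.fi_cont.mono hball)
  have hW := hc1.isOpen_inter_preimage isOpen_ball N.opn
  have hΨ : ContinuousOn (fun w => N.f (γ⁻¹ • N.fi w))
      (ball p0 (2 * r) ∩ (fun w => γ⁻¹ • N.fi w) ⁻¹' N.B) :=
    N.cont.comp (hc1.mono inter_subset_left) fun w hw => hw.2
  obtain ⟨μ, hfin, htot, hlow⟩ := meas hW hΨ (R := 2 * r) (A := K ^ 2 * M ^ 2) (by positivity)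
    (by positivity) inter_subset_left
  obtain ⟨r1, hr1, hrnd⟩ := hrnd γ
  obtain ⟨ε0, hε0, hε0ρ, hclose⟩ := close N γ hr1 (mul_pos hK hr)
  have key : ∀ (ε : ℝ) (p1 p2 p : ℂ), ε ≤ ε0 → UU N γ φ p1 ≠ 0 → ‖p2 - p1‖ ≤ ε →
      ‖p1 - p‖ ≤ ε → (UU N γ φ p2 - UU N γ φ p1) ^ 2 ≤ μ.real (ball p (2 * ε)) := by
    intro ε p1 p2 p hε h1 h2 h3
    obtain ⟨a1, a2⟩ := UU_ne N γ φ h1
    obtain ⟨a3, a4⟩ := N.ext_ne a2
    have a5 := hφ _ a4
    have a6 : ‖p1 - N.c‖ ≤ N.ρ := by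
      linarith [hsup p1 h1, norm_sub_le_norm_sub_add_norm_sub p1 p0 N.c]
    have a7 : ‖p2 - N.c‖ < 4 * N.ρ := by
      linarith [norm_sub_le_norm_sub_add_norm_sub p2 p1 N.c]
    obtain ⟨b1, b2, b3⟩ := hclose p1 p2 a6 (h2.trans hε) a3 (by
      linarith [norm_sub_le_norm_sub_add_norm_sub (N.f (γ • N.fi p1)) p0 N.c])
    obtain ⟨c1, c2⟩ := N.fi_mem p1 a1
    obtain ⟨c3, c4⟩ := N.fi_mem p2 a7
    rw [UU_of_lt N γ φ a1, UU_of_lt N γ φ a7, N.ext_of_mem φ a3, N.ext_of_mem φ b2]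
    have d1 := hlip (N.f (γ • N.fi p2)) (N.f (γ • N.fi p1))
    generalize ho : ‖N.f (γ • N.fi p2) - N.f (γ • N.fi p1)‖ = o at b3 d1
    have ho0 : 0 ≤ o := ho ▸ norm_nonneg _
    have d2 := pow_le_pow_left₀ (abs_nonneg _) d1 2
    rw [sq_abs] at d2
    refine d2.trans (le_trans (le_of_eq ?_)
      (hlow _ (N.f (γ • N.fi p1)) (o / K) (by positivity) fun w hw => ?_))
    · field_simp
    · have e1 := mem_ball_iff_norm.1 hw
      have e2 : o / K ≤ r := by rw [div_le_iff₀ hK]; linarith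
      have e3 : w ∈ ball p0 (2 * r) := mem_ball_iff_norm.2 (by
        linarith [norm_sub_le_norm_sub_add_norm_sub w (N.f (γ • N.fi p1)) p0])
      obtain ⟨e4, e5⟩ := N.fi_mem w (mem_ball_iff_norm.1 (hball e3))
      have e6 := hrnd (N.fi p1) (N.fi p2) (γ⁻¹ • N.fi w) c1 (by rw [c2]; linarith) c3 b1 a3 b2
        (by rw [smul_inv_smul]; exact e4)
      rw [smul_inv_smul, e5, ho, c2, c4] at e6
      rw [lt_div_iff₀ hK] at e1
      have e7 : ¬ (γ⁻¹ • N.fi w ∈ N.B → ‖p2 - p1‖ ≤ ‖N.f (γ⁻¹ • N.fi w) - p1‖) := fun h => by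
        linarith [e6 h]
      obtain ⟨e8, e9⟩ := Classical.not_imp.1 e7
      refine ⟨⟨e3, e8⟩, mem_ball_iff_norm.2 ?_⟩
      linarith [norm_sub_le_norm_sub_add_norm_sub (N.f (γ⁻¹ • N.fi w)) p1 p, not_le.1 e9]
  have hap := hmoll (UU N γ φ) p0 r μ hfin hr hcont hsup ⟨ε0, hε0, fun ε hε hε' p p' hpp => by
    by_cases h1 : UU N γ φ p = 0
    · by_cases h2 : UU N γ φ p' = 0
      · rw [h1, h2, sub_zero, zero_pow two_ne_zero]
        exact measureReal_nonneg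
      · rw [← neg_sub, neg_sq]
        exact key ε p' p p hε' h2 (by rwa [norm_sub_rev]) hpp
    · exact key ε p p' p hε' h1 hpp (by rw [sub_self, norm_zero]; exact hε.le)⟩
  intro η hη
  obtain ⟨b, b1, b2, b3, b4⟩ := hap η hη
  refine ⟨b, b1, b2, b3.trans ?_, b4⟩
  calc Km * μ.real univ ≤ Km * (K ^ 2 * M ^ 2 * (2 * r) ^ 2) := mul_le_mul_of_nonneg_left htot hKm
    _ = _ := by ring

end Vale.Agent.P198.PB
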