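import Vale.Agent.P198.B.Stm

open Set Metric Topology Filter MeasureTheory

namespace Vale.Agent.P198.PB

variable {G Z : Type*} [Group G] [MetricSpace Z] [MulAction G Z]

namespace MollAux

open scoped Convolution

theorem int_scale (f : ℂ → ℝ) (ε : ℝ) : ∫ t, f (ε⁻¹ • t) = ε ^ 2 * ∫ t, f t := by
  rw [Measure.integral_comp_inv_smul, Complex.finrank_real_complex, abs_of_nonneg (sq_nonneg ε),
    smul_eq_mul]

theorem exists_ker : ∃ C, 0 ≤ C ∧ ∀ ε > 0, ∃ k : ℂ → ℝ, ContDiff ℝ 1 k ∧ Sup 0 ε k ∧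
    (∀ t, 0 ≤ k t) ∧ ∫ t, k t = 1 ∧ (∫ t, |fderiv ℝ k t 1|) ≤ C / ε ∧
      (∫ t, |fderiv ℝ k t Complex.I|) ≤ C / ε := by
  let φ : ContDiffBump (0 : ℂ) := ⟨1 / 2, 1, by norm_num, by norm_num⟩
  have h1 : ContDiff ℝ 1 (φ.normed volume) := φ.contDiff_normed
  have h2 : ∀ t, φ.normed volume t ≠ 0 → ‖t‖ < 1 := fun t ht => by
    have : t ∈ Function.support (φ.normed volume) := ht
    rw [φ.support_normed_eq] at this
    simpa using this
  have h3 : ∫ t, φ.normed volume t = 1 := φ.integral_normed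
  have h4 : ∀ t, 0 ≤ φ.normed volume t := φ.nonneg_normed
  generalize φ.normed volume = ρ at h1 h2 h3 h4
  have p1 : 0 ≤ ∫ t, |fderiv ℝ ρ t 1| := integral_nonneg fun _ => abs_nonneg _
  have p2 : 0 ≤ ∫ t, |fderiv ℝ ρ t Complex.I| := integral_nonneg fun _ => abs_nonneg _
  refine ⟨(∫ t, |fderiv ℝ ρ t 1|) + ∫ t, |fderiv ℝ ρ t Complex.I|, by positivity, fun ε hε => ?_⟩
  have hd : ∀ v, (∫ t, |fderiv ℝ (fun t : ℂ => ε⁻¹ ^ 2 * ρ (ε⁻¹ • t)) t v|) =
      (∫ t, |fderiv ℝ ρ t v|) / ε := by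
    intro v
    have e : ∀ t : ℂ, |fderiv ℝ (fun t : ℂ => ε⁻¹ ^ 2 * ρ (ε⁻¹ • t)) t v| =
        ε⁻¹ ^ 3 * |fderiv ℝ ρ (ε⁻¹ • t) v| := by
      intro t
      have d1 : HasFDerivAt ρ (fderiv ℝ ρ (ε⁻¹ • t)) (ε⁻¹ • t) :=
        (h1.differentiable one_ne_zero _).hasFDerivAt
      have d2 : HasFDerivAt (fun t : ℂ => ε⁻¹ • t) (ε⁻¹ • ContinuousLinearMap.id ℝ ℂ) t :=
        (hasFDerivAt_id t).const_smul ε⁻¹
      have d3 := (d1.comp t d2).const_mul (ε⁻¹ ^ 2)
      have d4 : fderiv ℝ (fun t : ℂ => ε⁻¹ ^ 2 * ρ (ε⁻¹ • t)) t = _ := d3.fderiv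
      rw [d4]
      simp only [smul_apply, ContinuousLinearMap.comp_apply,
        ContinuousLinearMap.id_apply, map_smul, smul_eq_mul]
      rw [← mul_assoc, abs_mul, abs_of_pos (by positivity)]
      ring
    simp_rw [e]
    rw [integral_const_mul, int_scale (fun t => |fderiv ℝ ρ t v|)]
    field_simp
  refine ⟨fun t => ε⁻¹ ^ 2 * ρ (ε⁻¹ • t), contDiff_const.mul (h1.comp (contDiff_id.const_smul _)),
    fun t ht => ?_, fun t => mul_nonneg (by positivity) (h4 _), ?_, ?_, ?_⟩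
  · have := h2 _ (right_ne_zero_of_mul ht)
    rw [norm_smul, norm_inv, Real.norm_of_nonneg hε.le, inv_mul_lt_iff₀ hε, mul_one] at this
    rw [sub_zero]
    exact this.le
  · rw [integral_const_mul, int_scale, h3]
    field_simp
  · rw [hd]
    exact div_le_div_of_nonneg_right (by linarith) hε.le
  · rw [hd]
    exact div_le_div_of_nonneg_right (by linarith) hε.le

theorem key (U g : ℂ → ℝ) (p : ℂ) (ε A : ℝ) (hU : Continuous U) (hg : Continuous g)
    (sg : Sup 0 ε g) (hA : ∀ t, ‖t - p‖ ≤ ε → |U t - U p| ≤ A) :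
    |(∫ t, U t * g (p - t)) - U p * ∫ t, g t| ≤ A * ∫ t, |g t| := by
  have c1 : Continuous fun t => g (p - t) := hg.comp (continuous_const.sub continuous_id)
  have s1 : Sup p ε fun t => g (p - t) := fun t ht => by
    have := sg _ ht
    rwa [sub_zero, norm_sub_rev] at this
  have i1 := s1.integrable c1
  have i2 : Integrable fun t => U t * g (p - t) := (s1.mul_left U).integrable (hU.mul c1)
  rw [← integral_sub_left_eq_self g volume p, ← integral_sub_left_eq_self (fun t => |g t|) volume p,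
    ← integral_const_mul, ← integral_const_mul, ← integral_sub i2 (i1.const_mul _)]
  refine abs_integral_le_integral_abs.trans (integral_mono (i2.sub (i1.const_mul _)).abs
    (i1.abs.const_mul A) fun t => ?_)
  show |U t * g (p - t) - U p * g (p - t)| ≤ A * |g (p - t)|
  by_cases h0 : g (p - t) = 0
  · simp [h0]
  · rw [← sub_mul, abs_mul]
    exact mul_le_mul_of_nonneg_right (hA t (s1 t h0)) (abs_nonneg _)

theorem conv_smooth (U k : ℂ → ℝ) (ε : ℝ) (hU : Continuous U) (hk : ContDiff ℝ 1 k)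
    (sk : Sup 0 ε k) : ContDiff ℝ 1 fun p => ∫ t, U t * k (p - t) :=
  sk.hcs.contDiff_convolution_right (ContinuousLinearMap.lsmul ℝ ℝ) hU.locallyIntegrable hk

theorem conv_der (U k : ℂ → ℝ) (ε : ℝ) (hU : Continuous U) (hk : ContDiff ℝ 1 k)
    (sk : Sup 0 ε k) (p v : ℂ) :
    fderiv ℝ (fun p => ∫ t, U t * k (p - t)) p v = ∫ t, U t * fderiv ℝ k (p - t) v := by
  have h := sk.hcs.hasFDerivAt_convolution_right (ContinuousLinearMap.lsmul ℝ ℝ)
    (μ := volume) hU.locallyIntegrable hk p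
  have h2 : fderiv ℝ (fun p => ∫ t, U t * k (p - t)) p = _ := h.fderiv
  rw [h2, convolution_precompR_apply _ hU.locallyIntegrable (sk.hcs.fderiv ℝ)
    (hk.continuous_fderiv one_ne_zero)]
  rfl

theorem int_der (k : ℂ → ℝ) (ε : ℝ) (hk : ContDiff ℝ 1 k) (sk : Sup 0 ε k) (v : ℂ) :
    ∫ t, fderiv ℝ k t v = 0 := by
  have h := conv_der (fun _ => 1) k ε continuous_const hk sk 0 v
  simp only [one_mul] at h
  rw [integral_sub_left_eq_self (fun t => fderiv ℝ k t v) volume 0] at h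
  have e : (fun p : ℂ => ∫ t, k (p - t)) = fun _ => ∫ t, k t :=
    funext fun p => integral_sub_left_eq_self k volume p
  rw [← h, e]
  simp

theorem lint_ball (μ : Measure ℂ) [IsFiniteMeasure μ] (δ : ℝ) :
    ∫⁻ p, μ (ball p δ) = ENNReal.ofReal δ ^ 2 * NNReal.pi * μ univ := by
  have hs : MeasurableSet {z : ℂ × ℂ | dist z.2 z.1 < δ} :=
    (isOpen_lt (continuous_snd.dist continuous_fst) continuous_const).measurableSet
  have h1 := Measure.prod_apply (μ := volume) (ν := μ) hs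
  have h2 := Measure.prod_apply_symm (μ := volume) (ν := μ) hs
  have e : ∀ y : ℂ, volume ((fun x => (x, y)) ⁻¹' {z : ℂ × ℂ | dist z.2 z.1 < δ}) =
      ENNReal.ofReal δ ^ 2 * NNReal.pi := by
    intro y
    rw [← Complex.volume_ball y δ]
    congr 1
    ext x
    simp [dist_comm]
  simp_rw [e] at h2
  rw [lintegral_const] at h2
  rw [← h2, h1]
  rfl

theorem int_le (μ : Measure ℂ) [IsFiniteMeasure μ] (δ c : ℝ) (hδ : 0 ≤ δ) (hc : 0 ≤ c) (f : ℂ → ℝ)
    (hf : Continuous f) (h0 : ∀ p, 0 ≤ f p) (h : ∀ p, f p ≤ c * μ.real (ball p δ)) :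
    ∫ p, f p ≤ c * (δ ^ 2 * Real.pi * μ.real univ) := by
  rw [integral_eq_lintegral_of_nonneg_ae (Eventually.of_forall h0) hf.aestronglyMeasurable]
  have h1 : ∫⁻ p, ENNReal.ofReal (f p) ≤ ∫⁻ p, ENNReal.ofReal c * μ (ball p δ) := by
    refine lintegral_mono fun p => ?_
    refine (ENNReal.ofReal_le_ofReal (h p)).trans ?_
    rw [ENNReal.ofReal_mul hc, ofReal_measureReal]
  rw [lintegral_const_mul' _ _ ENNReal.ofReal_ne_top, lint_ball] at h1
  refine (ENNReal.toReal_mono (by finiteness) h1).trans (le_of_eq ?_)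
  simp [ENNReal.toReal_ofReal hc, ENNReal.toReal_ofReal hδ, measureReal_def]

end MollAux

open MollAux in
theorem moll_pf : S_moll := by
  obtain ⟨C, hC, hk⟩ := exists_ker
  refine ⟨8 * Real.pi * C ^ 2, by positivity, fun U c r μ hμ hr hU sU h η hη => ?_⟩
  obtain ⟨ε0, e0, h⟩ := h
  obtain ⟨δ, hδ, hu⟩ := Metric.uniformContinuous_iff.1
    (sU.hcs.uniformContinuous_of_continuous hU) η hη
  set ε := min (min ε0 r) (δ / 2) with hε
  have p0 : 0 < ε := by positivity
  have p1 : ε ≤ ε0 := (min_le_left _ _).trans (min_le_left _ _)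
  have p2 : ε ≤ r := (min_le_left _ _).trans (min_le_right _ _)
  have p3 : ε < δ := (min_le_right _ _).trans_lt (by linarith)
  clear_value ε
  obtain ⟨k, k1, k2, k3, k4, k5, k6⟩ := hk ε p0
  have hb := conv_smooth U k ε hU k1 k2
  have hd : ∀ v, (∫ t, |fderiv ℝ k t v|) ≤ C / ε → ∀ p,
      (fderiv ℝ (fun p => ∫ t, U t * k (p - t)) p v) ^ 2 ≤ (C / ε) ^ 2 * μ.real (ball p (2 * ε)) := by
    intro v hv p
    have a1 := key U (fun t => fderiv ℝ k t v) p ε (√(μ.real (ball p (2 * ε)))) hU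
      ((k1.continuous_fderiv one_ne_zero).clm_apply continuous_const) (k2.fderiv v)
      fun t ht => Real.abs_le_sqrt (h ε p0 p1 p t ht)
    rw [int_der k ε k1 k2 v, mul_zero, sub_zero, ← conv_der U k ε hU k1 k2 p v] at a1
    have a2 := a1.trans (mul_le_mul_of_nonneg_left hv (Real.sqrt_nonneg _))
    have a3 := pow_le_pow_left₀ (abs_nonneg _) a2 2
    rw [sq_abs, mul_pow, Real.sq_sqrt measureReal_nonneg, mul_comm] at a3
    exact a3
  refine ⟨fun p => ∫ t, U t * k (p - t), hb, fun p hp => ?_, ?_, fun p => ?_⟩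
  · by_contra hh
    refine hp (integral_eq_zero_of_ae (Eventually.of_forall fun t => ?_))
    show U t * k (p - t) = 0
    by_contra h2
    have a1 := sU t (left_ne_zero_of_mul h2)
    have a2 := k2 _ (right_ne_zero_of_mul h2)
    rw [sub_zero] at a2
    have a3 := norm_sub_le_norm_sub_add_norm_sub p t c
    exact hh (by linarith)
  · have a1 := int_le μ (2 * ε) (2 * (C / ε) ^ 2) (by positivity) (by positivity) _
      (((cont_dx hb).pow 2).add ((cont_dy hb).pow 2)) (fun p => add_nonneg (sq_nonneg _) (sq_nonneg _)) fun p => by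
        have b1 := hd 1 k5 p
        have b2 := hd Complex.I k6 p
        show dx _ p ^ 2 + dy _ p ^ 2 ≤ _
        unfold dx dy
        linarith
    refine a1.trans (le_of_eq ?_)
    field_simp
    ring
  · have a1 := key U k p ε η hU k1.continuous k2 fun t ht => by
      have := hu (a := t) (b := p) (by rw [dist_eq_norm]; linarith)
      rw [Real.dist_eq] at this
      exact this.le
    have a2 : ∫ t, |k t| = 1 := by
      rw [← k4]
      exact integral_congr_ae (Eventually.of_forall fun t => abs_of_nonneg (k3 t))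
    rwa [k4, a2, mul_one, mul_one] at a1

end Vale.Agent.P198.PB
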