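import Vale.Agent.P198.B.Stm

open Set Metric Topology Filter MeasureTheory

namespace Vale.Agent.P198.PB

variable {G Z : Type*} [Group G] [MetricSpace Z] [MulAction G Z]

namespace Nc0Aux

theorem QUp_mono {f : Z → ℂ} {B B' : Set Z} {L K : ℝ} (h : QUp f B L K) (hs : B' ⊆ B) :
    QUp f B' L K := fun x hx y hy z hz => h x (hs hx) y (hs hy) z (hs hz)

/-- The inverse of an open injective map is continuous on any subset of the image. -/
theorem inv_cont {f : Z → ℂ} {B : Set Z} {fi : ℂ → Z} {S : Set ℂ} (hB : IsOpen B)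
    (hinj : InjOn f B) (hop : ∀ U, IsOpen U → U ⊆ B → IsOpen (f '' U))
    (hfi : ∀ p ∈ S, fi p ∈ B ∧ f (fi p) = p) : ContinuousOn fi S := by
  rw [_root_.continuousOn_iff']
  intro U hU
  refine ⟨f '' (U ∩ B), hop _ (hU.inter hB) inter_subset_right, ?_⟩
  ext p
  constructor
  · rintro ⟨hp, hS⟩
    exact ⟨⟨fi p, ⟨hp, (hfi p hS).1⟩, (hfi p hS).2⟩, hS⟩
  · rintro ⟨⟨x, ⟨hxU, hxB⟩, hx⟩, hS⟩
    refine ⟨?_, hS⟩
    have : fi p = x := hinj (hfi p hS).1 hxB (by rw [(hfi p hS).2, hx])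
    show fi p ∈ U
    rw [this]; exact hxU

end Nc0Aux

open Nc0Aux in
theorem nc0_pf [CompactSpace Z] (h1 : S_q1 Z) (h2 : S_q2 Z) : S_nc0 Z := by
  rintro ⟨c⟩
  obtain ⟨r, hr, hr0, hup⟩ := h1 c
  have h3 : 3 * (r / 3) = r := by ring
  obtain ⟨hpw, hdec⟩ := h2 c.f c.x0 (r / 3) (by rw [h3]; exact hup)
  have hsub : ball c.x0 (r / 3) ⊆ ball c.x0 c.r0 := ball_subset_ball (by linarith)
  have hsub' : closedBall c.x0 (r / 3) ⊆ ball c.x0 c.r0 := closedBall_subset_ball (by linarith)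
  have hx0 : c.x0 ∈ ball c.x0 (r / 3) := mem_ball_self (by linarith)
  have hinj : InjOn c.f (ball c.x0 (r / 3)) := c.inj.mono hsub
  have hop : ∀ U, IsOpen U → U ⊆ ball c.x0 (r / 3) → IsOpen (c.f '' U) :=
    fun U hU hs => c.opn U hU (hs.trans hsub)
  obtain ⟨δ, hδ, hball⟩ := Metric.isOpen_iff.1 (hop _ isOpen_ball subset_rfl) (c.f c.x0)
    ⟨c.x0, hx0, rfl⟩
  have : Nonempty Z := ⟨c.x0⟩
  have h4 : 4 * (δ / 4) = δ := by ring
  have hfi : ∀ p ∈ ball (c.f c.x0) (4 * (δ / 4)),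
      Function.invFunOn c.f (ball c.x0 (r / 3)) p ∈ ball c.x0 (r / 3) ∧
        c.f (Function.invFunOn c.f (ball c.x0 (r / 3)) p) = p := by
    intro p hp
    rw [h4] at hp
    obtain ⟨x, hx, hxp⟩ := hball hp
    exact Function.invFunOn_pos ⟨x, hx, hxp⟩
  have hcont : ContinuousOn (Function.invFunOn c.f (ball c.x0 (r / 3)))
      (ball (c.f c.x0) (4 * (δ / 4))) := inv_cont isOpen_ball hinj hop hfi
  refine ⟨{ f := c.f
            fi := Function.invFunOn c.f (ball c.x0 (r / 3))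
            B := ball c.x0 (r / 3)
            c := c.f c.x0
            ρ := δ / 4
            ρ_pos := by linarith
            opn := isOpen_ball
            cont := c.cont.mono hsub
            inj := hinj
            bdd := ?_
            fi_mem := fun p hp => hfi p (mem_ball_iff_norm.2 hp)
            fi_cont := hcont
            ins := ?_
            up := fun L => ?_
            pw := hpw
            dec := hdec }⟩
  · have hk : IsCompact (closedBall c.x0 (r / 3)) := isClosed_closedBall.isCompact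
    obtain ⟨M, hM⟩ := hk.exists_bound_of_continuousOn (c.cont.mono hsub')
    exact ⟨M, fun x hx => hM x (ball_subset_closedBall hx)⟩
  · have hcb : closedBall (c.f c.x0) (3 * (δ / 4)) ⊆ ball (c.f c.x0) (4 * (δ / 4)) :=
      closedBall_subset_ball (by linarith)
    have hk : IsCompact (Function.invFunOn c.f (ball c.x0 (r / 3)) ''
        closedBall (c.f c.x0) (3 * (δ / 4))) :=
      (isCompact_closedBall _ _).image_of_continuousOn (hcont.mono hcb)
    obtain ⟨η, hη, hth⟩ := hk.exists_thickening_subset_open (isOpen_ball (x := c.x0) (ε := r / 3))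
      (by rintro _ ⟨p, hp, rfl⟩; exact (hfi p (hcb hp)).1)
    refine ⟨η, hη, fun x hx hn y hy => hth ?_⟩
    have hp : c.f x ∈ closedBall (c.f c.x0) (3 * (δ / 4)) := mem_closedBall_iff_norm.2 hn
    refine mem_thickening_iff.2 ⟨x, ⟨c.f x, hp, ?_⟩, hy⟩
    exact hinj (hfi _ (hcb hp)).1 hx (hfi _ (hcb hp)).2
  · obtain ⟨K, hK, hq⟩ := hup L
    exact ⟨K, hK, QUp_mono hq (ball_subset_ball (by linarith))⟩

end Vale.Agent.P198.PB
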