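import Vale.Agent.P198.B.Stm

open Set Metric Topology Filter MeasureTheory

namespace Vale.Agent.P198.PB

variable {G Z : Type*} [Group G] [MetricSpace Z] [MulAction G Z]

namespace NmAux

theorem vol_ball : (volume (ball (0 : ℂ) 1)).toReal = Real.pi := by
  rw [Complex.volume_ball]
  simp

instance : IsFiniteMeasure ((volume : Measure ℂ).restrict (ball 0 1)) :=
  isFiniteMeasure_restrict.2 measure_ball_lt_top.ne

theorem int_const (c : ℝ) : ∫ _ in ball (0 : ℂ) 1, c = Real.pi * c := by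
  rw [setIntegral_const, Measure.real, vol_ball, smul_eq_mul]

theorem intOn {f : ℂ → ℝ} (hf : Continuous f) (p : ℂ) (r : ℝ) : IntegrableOn f (ball p r) :=
  (hf.continuousOn.integrableOn_compact (isCompact_closedBall p r)).mono_set
    ball_subset_closedBall

theorem bound {Φ : ℝ × ℂ → ℝ} (h : Continuous Φ) (t0 : ℝ) :
    ∃ M, ∀ w ∈ ball (0 : ℂ) 1, ∀ t ∈ ball t0 1, ‖Φ (t, w)‖ ≤ M := by
  obtain ⟨M, hM⟩ := ((isCompact_closedBall t0 1).prod
    (isCompact_closedBall (0 : ℂ) 1)).exists_bound_of_continuousOn h.continuousOn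
  exact ⟨M, fun w hw t ht => hM (t, w) ⟨ball_subset_closedBall ht, ball_subset_closedBall hw⟩⟩

theorem cs {g : ℂ → ℝ} (hg : Continuous g) :
    (∫ w in ball (0 : ℂ) 1, g w) ^ 2 ≤ Real.pi * ∫ w in ball (0 : ℂ) 1, g w ^ 2 := by
  obtain ⟨I, hI⟩ : ∃ I, I = ∫ w in ball (0 : ℂ) 1, g w := ⟨_, rfl⟩
  have hp := Real.pi_pos
  have h1 : 0 ≤ ∫ w in ball (0 : ℂ) 1,
      (Real.pi ^ 2 * g w ^ 2 - 2 * Real.pi * I * g w + I ^ 2) :=
    integral_nonneg fun w => by
      have := sq_nonneg (Real.pi * g w - I)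
      simp only [Pi.zero_apply]
      linarith
  have i1 : IntegrableOn (fun w => Real.pi ^ 2 * g w ^ 2) (ball (0 : ℂ) 1) :=
    intOn (by fun_prop) 0 1
  have i2 : IntegrableOn (fun w => 2 * Real.pi * I * g w) (ball (0 : ℂ) 1) :=
    intOn (by fun_prop) 0 1
  have i3 : IntegrableOn (fun w => Real.pi ^ 2 * g w ^ 2 - 2 * Real.pi * I * g w)
      (ball (0 : ℂ) 1) := i1.sub i2
  rw [integral_add i3 (integrable_const _), integral_sub i1 i2, integral_const_mul,
    integral_const_mul, int_const, ← hI] at h1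
  rw [← hI]
  refine le_of_mul_le_mul_left ?_ hp
  nlinarith

theorem chg (f : ℂ → ℝ) (P : ℂ) {S : ℝ} (hS : 0 < S) :
    ∫ w in ball (0 : ℂ) 1, f (P + S * w) = (S ^ 2)⁻¹ * ∫ w in ball P S, f w := by
  have h1 := Measure.setIntegral_comp_smul_of_pos (volume : Measure ℂ) (fun x => f (P + x))
    (ball (0 : ℂ) 1) hS
  have h2 := (measurePreserving_add_left (volume : Measure ℂ) P).setIntegral_preimage_emb
    (measurableEmbedding_addLeft P) f (ball P S)
  have h3 : (fun x => P + x) ⁻¹' ball P S = ball (0 : ℂ) S := by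
    ext x
    simp [mem_ball_iff_norm]
  rw [h3] at h2
  rw [smul_unitBall_of_pos hS, h2, Complex.finrank_real_complex, smul_eq_mul] at h1
  exact h1

theorem fd_sq (b : ℂ → ℝ) (q v : ℂ) :
    (fderiv ℝ b q v) ^ 2 ≤ ‖v‖ ^ 2 * (dx b q ^ 2 + dy b q ^ 2) := by
  have h1 : fderiv ℝ b q v = v.re * dx b q + v.im * dy b q := by
    have e : v = v.re • (1 : ℂ) + v.im • Complex.I := by
      apply Complex.ext <;> simp
    conv_lhs => rw [e]
    rw [map_add, map_smul, map_smul]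
    rfl
  rw [h1, Complex.sq_norm, Complex.normSq_apply]
  nlinarith [sq_nonneg (v.re * dy b q - v.im * dx b q)]

theorem deriv_int {b : ℂ → ℝ} (hb : ContDiff ℝ 1 b) (p v : ℂ) (s σ t0 : ℝ) :
    HasDerivAt (fun t : ℝ => ∫ w in ball (0 : ℂ) 1, b (p + t * v + (s + t * σ : ℝ) * w))
      (∫ w in ball (0 : ℂ) 1, fderiv ℝ b (p + t0 * v + (s + t0 * σ : ℝ) * w) (v + σ * w)) t0 := by
  have hc := hb.continuous
  have hd := hb.continuous_fderiv one_ne_zero
  have h1 : Continuous fun z : ℝ × ℂ =>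
      fderiv ℝ b (p + z.1 * v + (s + z.1 * σ : ℝ) * z.2) (v + σ * z.2) :=
    (hd.comp (by fun_prop)).clm_apply (by fun_prop)
  obtain ⟨M, hM⟩ := bound h1 t0
  refine (hasDerivAt_integral_of_dominated_loc_of_deriv_le (bound := fun _ => M)
    (F' := fun (t : ℝ) (w : ℂ) => fderiv ℝ b (p + t * v + (s + t * σ : ℝ) * w) (v + σ * w))
    (ball_mem_nhds t0 one_pos) (Eventually.of_forall fun t => ?_) (intOn (by fun_prop) 0 1)
    (h1.comp (Continuous.prodMk_right t0)).aestronglyMeasurable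
    ((ae_restrict_iff' measurableSet_ball).2 (ae_of_all _ hM)) (integrable_const M)
    (ae_of_all _ fun w t _ => ?_)).2
  · exact Continuous.aestronglyMeasurable (by fun_prop)
  · have h2 : HasDerivAt (fun t : ℝ => p + t * v + (s + t * σ : ℝ) * w) (v + σ * w) t := by
      have h3 : HasDerivAt (fun t : ℝ => (t : ℂ)) 1 t := Complex.ofRealCLM.hasDerivAt
      have h4 := ((h3.mul_const v).const_add p).add
        (((h3.mul_const (σ : ℂ)).const_add (s : ℂ)).mul_const w)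
      refine HasDerivAt.congr_deriv (h4.congr_of_eventuallyEq (Eventually.of_forall fun u => ?_))
        (by ring)
      simp
    exact ((hb.differentiable one_ne_zero _).hasFDerivAt).comp_hasDerivAt t h2

theorem cmp (b : ℂ → ℝ) (p p' c : ℂ) (s s' s0 R : ℝ) (hb : ContDiff ℝ 1 b) (h0 : 0 < s0)
    (hs : s0 ≤ s) (hs' : s0 ≤ s') (hp : ‖p - c‖ + s ≤ R) (hp' : ‖p' - c‖ + s' ≤ R) :
    (Nm b p s - Nm b p' s') ^ 2 ≤
      ((‖p - p'‖ + |s - s'|) / s0) ^ 2 * ∫ w in ball c R, (dx b w ^ 2 + dy b w ^ 2) := by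
  obtain ⟨t, ht, h1⟩ := exists_hasDerivAt_eq_slope _ _ zero_lt_one
    (fun t _ => (deriv_int hb p' (p - p') s' (s - s') t).continuousAt.continuousWithinAt)
    fun t _ => deriv_int hb p' (p - p') s' (s - s') t
  simp only [sub_zero, div_one, Complex.ofReal_one, one_mul, add_sub_cancel, Complex.ofReal_zero,
    zero_mul, add_zero] at h1
  obtain ⟨P, hP⟩ : ∃ P, P = p' + t * (p - p') := ⟨_, rfl⟩
  obtain ⟨S, hS⟩ : ∃ S, S = s' + t * (s - s') := ⟨_, rfl⟩
  obtain ⟨l, hl⟩ : ∃ l, l = ‖p - p'‖ + |s - s'| := ⟨_, rfl⟩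
  rw [← hP, ← hS] at h1
  have t0 := ht.1
  have t1 : 0 < 1 - t := sub_pos.2 ht.2
  have hS0 : s0 ≤ S := by
    rw [hS]
    nlinarith [mul_nonneg t0.le (sub_nonneg.2 hs), mul_nonneg t1.le (sub_nonneg.2 hs')]
  have hSp : 0 < S := h0.trans_le hS0
  have hsub : ball P S ⊆ ball c R := by
    refine ball_subset_ball' ?_
    have e : P - c = (t : ℂ) * (p - c) + ((1 - t : ℝ) : ℂ) * (p' - c) := by
      rw [hP]
      push_cast
      ring
    have h2 := norm_add_le ((t : ℂ) * (p - c)) (((1 - t : ℝ) : ℂ) * (p' - c))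
    rw [norm_mul, norm_mul, Complex.norm_real, Complex.norm_real, Real.norm_of_nonneg t0.le,
      Real.norm_of_nonneg t1.le, ← e] at h2
    rw [dist_eq_norm, hS]
    nlinarith [mul_le_mul_of_nonneg_left hp t0.le, mul_le_mul_of_nonneg_left hp' t1.le]
  have he : Continuous fun w => dx b w ^ 2 + dy b w ^ 2 :=
    ((cont_dx hb).pow 2).add ((cont_dy hb).pow 2)
  have hd := hb.continuous_fderiv one_ne_zero
  have hg : Continuous fun w : ℂ => fderiv ℝ b (P + S * w) (p - p' + (s - s' : ℝ) * w) :=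
    (hd.comp (by fun_prop)).clm_apply (by fun_prop)
  have h2 := cs hg
  have h3 : ∫ w in ball (0 : ℂ) 1, fderiv ℝ b (P + S * w) (p - p' + (s - s' : ℝ) * w) ^ 2 ≤
      ∫ w in ball (0 : ℂ) 1, l ^ 2 * (dx b (P + S * w) ^ 2 + dy b (P + S * w) ^ 2) := by
    refine setIntegral_mono_on (intOn (hg.pow 2) 0 1)
      (intOn (continuous_const.mul (he.comp (by fun_prop))) 0 1) measurableSet_ball fun w hw => ?_
    refine (fd_sq b _ _).trans (mul_le_mul_of_nonneg_right ?_ (by positivity))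
    refine pow_le_pow_left₀ (norm_nonneg _) ((norm_add_le _ _).trans ?_) 2
    rw [hl, norm_mul, Complex.norm_real, Real.norm_eq_abs]
    have h4 : ‖w‖ ≤ 1 := (mem_ball_zero_iff.1 hw).le
    nlinarith [abs_nonneg (s - s')]
  rw [integral_const_mul, chg (fun w => dx b w ^ 2 + dy b w ^ 2) P hSp] at h3
  obtain ⟨E, hE⟩ : ∃ E, E = ∫ w in ball c R, (dx b w ^ 2 + dy b w ^ 2) := ⟨_, rfl⟩
  have h4 : ∫ w in ball P S, (dx b w ^ 2 + dy b w ^ 2) ≤ E := by
    rw [hE]
    exact setIntegral_mono_set (intOn he c R) (ae_of_all _ fun w => by positivity)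
      hsub.eventuallyLE
  have h5 : 0 ≤ ∫ w in ball P S, (dx b w ^ 2 + dy b w ^ 2) :=
    integral_nonneg fun w => by positivity
  have h6 : (S ^ 2)⁻¹ ≤ (s0 ^ 2)⁻¹ :=
    inv_anti₀ (by positivity) (pow_le_pow_left₀ h0.le hS0 2)
  have h7 := mul_le_mul h6 h4 h5 (by positivity)
  have h8 := h3.trans (mul_le_mul_of_nonneg_left h7 (sq_nonneg l))
  have hp0 := Real.pi_pos
  have h9 := h2.trans (mul_le_mul_of_nonneg_left h8 hp0.le)
  rw [h1] at h9
  rw [Nm, Nm, ← mul_sub, ← hl, ← hE, mul_pow, div_pow, div_eq_mul_inv, mul_assoc]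
  have h10 : 0 ≤ l ^ 2 * ((s0 ^ 2)⁻¹ * E) := by
    have := h5.trans h4
    positivity
  have h11 : Real.pi⁻¹ ^ 2 * Real.pi ≤ 1 := by
    rw [sq, mul_assoc, inv_mul_cancel₀ hp0.ne', mul_one]
    exact inv_le_one_of_one_le₀ (by linarith [Real.pi_gt_three])
  refine (mul_le_mul_of_nonneg_left h9 (by positivity)).trans ?_
  rw [← mul_assoc]
  exact mul_le_of_le_one_left h10 h11

theorem lim (b : ℂ → ℝ) (p : ℂ) (hb : Continuous b) : Tendsto (Nm b p) (𝓝 0) (𝓝 (b p)) := by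
  have h1 : Continuous fun z : ℝ × ℂ => b (p + z.1 * z.2) := by fun_prop
  obtain ⟨M, hM⟩ := bound h1 0
  have h2 : ContinuousAt (fun s : ℝ => ∫ w in ball (0 : ℂ) 1, b (p + s * w)) 0 := by
    refine continuousAt_of_dominated (bound := fun _ => M) (Eventually.of_forall fun s => ?_) ?_
      (integrable_const M) (ae_of_all _ fun w => Continuous.continuousAt (by fun_prop))
    · exact Continuous.aestronglyMeasurable (by fun_prop)
    · filter_upwards [ball_mem_nhds (0 : ℝ) one_pos] with s hs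
      exact (ae_restrict_iff' measurableSet_ball).2 (ae_of_all _ fun w hw => hM w hw s hs)
  have h3 := (h2.const_mul Real.pi⁻¹).tendsto
  simp only [Complex.ofReal_zero, zero_mul, add_zero] at h3
  rw [int_const, inv_mul_cancel_left₀ Real.pi_pos.ne'] at h3
  exact h3

end NmAux

theorem nm_pf : S_nm := ⟨NmAux.cmp, NmAux.lim⟩

end Vale.Agent.P198.PB
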