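import Vale.Agent.P198.B.Stm

open Set Metric Topology Filter MeasureTheory

namespace Vale.Agent.P198.PB

variable {G Z : Type*} [Group G] [MetricSpace Z] [MulAction G Z]

namespace NuAux

theorem sec [MeasurableSpace Z] [BorelSpace Z] (E : Geo Z) (x : Z) :
    ∃ z : ℝ → Z, Measurable z ∧ ∀ s ∈ Icc 0 E.d0, dist (z s) x = s := by
  obtain ⟨y, hy⟩ := E.two x
  obtain ⟨γ⟩ := (E.llc x y).joined
  have hg : Continuous fun t => dist (γ.extend t) x := by fun_prop
  let A : ℝ → Set ℝ := fun s => Icc 0 1 ∩ {t | min s E.d0 ≤ dist (γ.extend t) x}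
  have hne : ∀ s, (A s).Nonempty := fun s => ⟨1, ⟨zero_le_one, le_rfl⟩, by
    change min s E.d0 ≤ dist (γ.extend 1) x
    rw [γ.extend_one]
    exact (min_le_right _ _).trans hy⟩
  have hb : ∀ s, BddBelow (A s) := fun s => ⟨0, fun t ht => ht.1.1⟩
  have hm : Monotone fun s => sInf (A s) := fun s s' h =>
    csInf_le_csInf (hb s) (hne s') fun t ht => ⟨ht.1, (min_le_min_right _ h).trans ht.2⟩
  refine ⟨fun s => γ.extend (sInf (A s)), γ.continuous_extend.measurable.comp hm.measurable,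
    fun s hs => ?_⟩
  have h1 : sInf (A s) ∈ A s :=
    (isClosed_Icc.inter (isClosed_le continuous_const hg)).csInf_mem (hne s) (hb s)
  have h2 : s ≤ dist (γ.extend (sInf (A s))) x := (min_eq_left hs.2).ge.trans h1.2
  obtain ⟨t, ht, e⟩ := intermediate_value_Icc h1.1.1 hg.continuousOn
    (show s ∈ Icc _ _ from ⟨by simpa using hs.1, h2⟩)
  have h3 : sInf (A s) ≤ t :=
    csInf_le (hb s) ⟨⟨ht.1, ht.2.trans h1.1.2⟩, (min_le_left _ _).trans e.ge⟩
  rwa [le_antisymm ht.2 h3] at e

theorem one [MeasurableSpace Z] [BorelSpace Z] (E : Geo Z) (x : Z) : ∃ μ : Measure Z,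
    μ univ ≤ ENNReal.ofReal E.d0 ∧ (∀ w r, μ (closedBall w r) ≤ ENNReal.ofReal (2 * r)) ∧
      ∀ r, ENNReal.ofReal (min r E.d0) ≤ μ (ball x r) := by
  obtain ⟨z, hz, h⟩ := sec E x
  have e : ∀ A, MeasurableSet A → Measure.map z (volume.restrict (Icc 0 E.d0)) A
      = volume (z ⁻¹' A ∩ Icc 0 E.d0) := fun A hA => by
    rw [Measure.map_apply hz hA, Measure.restrict_apply (hz hA)]
  refine ⟨Measure.map z (volume.restrict (Icc 0 E.d0)), ?_, fun w r => ?_, fun r => ?_⟩
  · rw [e _ MeasurableSet.univ]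
    simp
  · rw [e _ measurableSet_closedBall,
      show 2 * r = dist w x + r - (dist w x - r) by ring, ← Real.volume_Icc]
    refine measure_mono fun s hs => ?_
    have h1 := h s hs.2
    have h2 : dist (z s) w ≤ r := hs.1
    have h3 := dist_triangle (z s) w x
    have h4 := dist_triangle_left w x (z s)
    exact ⟨by linarith, by linarith⟩
  · rw [e _ measurableSet_ball, ← sub_zero (min r E.d0), ← Real.volume_Ico]
    refine measure_mono fun s hs => ?_
    have h1 : s ∈ Icc 0 E.d0 := ⟨hs.1, hs.2.le.trans (min_le_right _ _)⟩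
    exact ⟨(h s h1).trans_lt (hs.2.trans_le (min_le_left _ _)), h1⟩

end NuAux

theorem nu_pf [MeasurableSpace Z] [BorelSpace Z] [CompactSpace Z] [Nonempty Z] (E : Geo Z) : S_nu Z := by
  choose μ h1 h2 h3 using NuAux.one E
  let x := TopologicalSpace.denseSeq Z
  let ν : Measure Z := Measure.sum fun i : ℕ => (2⁻¹ : ENNReal) ^ i • μ (x i)
  have key : ∀ A c, MeasurableSet A → (∀ y, μ y A ≤ ENNReal.ofReal c) →
      ν A ≤ ENNReal.ofReal (2 * c) := fun A c hA h => by
    rw [Measure.sum_apply _ hA, ENNReal.ofReal_mul zero_le_two, ENNReal.ofReal_ofNat]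
    refine le_trans (ENNReal.tsum_le_tsum fun i => ?_) (ENNReal.tsum_mul_right.trans
      (congrArg (· * ENNReal.ofReal c) ENNReal.tsum_geometric_two)).le
    rw [Measure.smul_apply, smul_eq_mul]
    exact mul_le_mul_right (h _) _
  have hf : IsFiniteMeasure ν := ⟨(key _ _ MeasurableSet.univ h1).trans_lt ENNReal.ofReal_lt_top⟩
  refine ⟨ν, hf, fun w r hr => ?_, fun r hr => ?_⟩
  · refine ENNReal.toReal_le_of_le_ofReal (by linarith) ?_
    rw [show 4 * r = 2 * (2 * r) by ring]
    exact key _ _ measurableSet_closedBall fun y => h2 y w r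
  · obtain ⟨T, hT⟩ := isCompact_univ.elim_finite_subcover (fun i => ball (x i) (r / 2))
      (fun _ => isOpen_ball) fun w _ => by
        obtain ⟨i, hi⟩ := (TopologicalSpace.denseRange_denseSeq Z).exists_dist_lt w (half_pos hr)
        exact mem_iUnion.2 ⟨i, hi⟩
    refine ⟨2⁻¹ ^ T.sup id * min (r / 2) E.d0,
      mul_pos (by positivity) (lt_min (half_pos hr) E.d0_pos), fun w => ?_⟩
    obtain ⟨i, hi, hw⟩ := mem_iUnion₂.1 (hT (mem_univ w))
    refine (ENNReal.ofReal_le_iff_le_toReal (measure_ne_top ν _)).1 ?_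
    refine le_trans ?_ (Measure.le_sum (fun i : ℕ => (2⁻¹ : ENNReal) ^ i • μ (x i)) i _)
    rw [Measure.smul_apply, smul_eq_mul, ENNReal.ofReal_mul (by positivity),
      ENNReal.ofReal_pow (by norm_num), ENNReal.ofReal_inv_of_pos two_pos, ENNReal.ofReal_ofNat]
    refine mul_le_mul' (pow_le_pow_right_of_le_one' (by simp) (Finset.le_sup (f := id) hi))
      ((h3 _ _).trans (measure_mono fun y hy => ?_))
    rw [mem_ball] at hy hw ⊢
    linarith [dist_triangle_right y w (x i)]

end Vale.Agent.P198.PB
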