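import Vale.Agent.P198.B.Stm

open Set Metric Topology Filter MeasureTheory

namespace Vale.Agent.P198.PB

variable {G Z : Type*} [Group G] [MetricSpace Z] [MulAction G Z]

theorem ovl_pf {D : Dyn G Z} (N : NC D) : S_ovl N := by
  classical
  intro L
  obtain ⟨K, hK, hin⟩ := N.inn L
  obtain ⟨M, hM⟩ := D.loc' K
  have hρ := N.ρ_pos
  refine ⟨M, Nat.cast_nonneg M, ?_⟩
  filter_upwards [hin, N.sg_pos, N.sg_tiny (ε := N.ρ / (|L| + 1)) (by positivity)]
    with n h1 h2 h3 φ hφ h0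
  have hcard : ∀ p : ℂ,
      ((N.Rel n).filter fun g => p ∈ ball (N.pg g) (L * N.sg g)).card ≤ M := by
    intro p
    refine hM (N.fi p) n _ fun g hg => ?_
    obtain ⟨hg, hp⟩ := Finset.mem_filter.1 hg
    obtain ⟨hl, hB, hc⟩ := N.mem_Rel.1 hg
    rw [mem_ball_iff_norm] at hp
    have h4 : L * N.sg g ≤ N.ρ := by
      have a1 : L * N.sg g ≤ (|L| + 1) * N.sg g :=
        mul_le_mul_of_nonneg_right (by linarith [le_abs_self L]) (h2 g hg).le
      have a2 := mul_le_mul_of_nonneg_left (h3 g hg) (by positivity : (0:ℝ) ≤ |L| + 1)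
      rw [mul_div_cancel₀ _ (by positivity : |L| + 1 ≠ 0)] at a2
      linarith
    have h5 : ‖p - N.c‖ < 4 * N.ρ := by
      linarith [norm_sub_le_norm_sub_add_norm_sub p (N.pg g) N.c]
    obtain ⟨h6, h7⟩ := N.fi_mem p h5
    refine ⟨hl, ?_⟩
    rw [dist_comm]
    refine h1 _ hB (N.Rel_in hg) _ h6 ?_
    rw [h7, ← N.sg_eq hg]
    exact hp.le
  have he : ∑ g ∈ N.Rel n, ∫ p in ball (N.pg g) (L * N.sg g), φ p =
      ∫ p, ∑ g ∈ N.Rel n, (ball (N.pg g) (L * N.sg g)).indicator φ p := by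
    rw [integral_finsetSum _ fun g _ => hφ.indicator measurableSet_ball]
    exact Finset.sum_congr rfl fun g _ => (integral_indicator measurableSet_ball).symm
  rw [he, ← integral_const_mul]
  refine integral_mono (integrable_finsetSum _ fun g _ => hφ.indicator measurableSet_ball)
    (hφ.const_mul _) fun p => ?_
  have h8 : ∑ g ∈ N.Rel n, (ball (N.pg g) (L * N.sg g)).indicator φ p =
      (((N.Rel n).filter fun g => p ∈ ball (N.pg g) (L * N.sg g)).card : ℝ) * φ p := by
    rw [← nsmul_eq_mul, ← Finset.sum_const, Finset.sum_filter]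
    exact Finset.sum_congr rfl fun g _ => by rw [indicator_apply]
  show ∑ g ∈ N.Rel n, (ball (N.pg g) (L * N.sg g)).indicator φ p ≤ M * φ p
  rw [h8]
  exact mul_le_mul_of_nonneg_right (by exact_mod_cast hcard p) (h0 p)

end Vale.Agent.P198.PB
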