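import Vale.Agent.P198.B.Stm

open Set Metric Topology Filter MeasureTheory

namespace Vale.Agent.P198.PB

variable {G Z : Type*} [Group G] [MetricSpace Z] [MulAction G Z]

namespace Q1Aux

theorem key (c : Chart Z) {x z u u' : Z} (hx : x ∈ ball c.x0 c.r0) (hz : z ∈ ball c.x0 c.r0)
    (hu : u ∈ ball c.x0 c.r0) (hu' : u' ∈ ball c.x0 c.r0) (hd : dist u' u ≤ dist z x / 20) :
    ‖c.f u' - c.f x‖ ≤ c.H * ‖c.f z - c.f x‖ ∨
      ‖c.f u' - c.f x‖ ≤ (1 + c.H) * ‖c.f u - c.f x‖ := by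
  by_cases h : 4 * dist u' x ≤ dist z x
  · exact Or.inl (c.qb x hx u' hu' z hz h)
  · right
    have h1 := dist_triangle u' u x
    have h2 := c.qb u hu u' hu' x hx (by rw [dist_comm x u]; linarith [not_le.1 h])
    rw [norm_sub_rev (c.f x)] at h2
    have h3 := norm_sub_le_norm_sub_add_norm_sub (c.f u') (c.f u) (c.f x)
    linarith

theorem ivt (c : Chart Z) {x y : Z} {S : Set Z} (hS : S ⊆ ball c.x0 c.r0) (h : JoinedIn S x y)
    {v : ℝ} (h0 : 0 ≤ v) (h1 : v ≤ ‖c.f y - c.f x‖) : ∃ u ∈ S, ‖c.f u - c.f x‖ = v := by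
  obtain ⟨γ, hγ⟩ := h
  have hc : Continuous fun s => ‖c.f (γ s) - c.f x‖ :=
    ((c.cont.comp_continuous γ.continuous fun s => hS (hγ s)).sub continuous_const).norm
  obtain ⟨s, hs⟩ := intermediate_value_univ 0 1 hc (show v ∈ Icc _ _ from ⟨by simpa, by simpa⟩)
  exact ⟨γ s, hγ s, hs⟩

end Q1Aux

theorem q1_pf (E : Geo Z) : S_q1 Z := by
  classical
  intro c
  have hΛ := E.one_le_Λ
  have hr0 := c.r0_pos
  have hH := c.one_le_H
  set r := c.r0 / (2 * E.Λ + 1) with hr
  have hr1 : r * (2 * E.Λ + 1) = c.r0 := by rw [hr]; field_simp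
  have hrp : 0 < r := by positivity
  refine ⟨r, hrp, by nlinarith, fun L => ?_⟩
  obtain ⟨N, hN⟩ := E.pack (20 * (E.Λ * max L 0))
  have hq : 1 ≤ 2 + 2 * c.H := by linarith
  refine ⟨(2 + 2 * c.H) ^ (N + 1) * c.H, one_le_mul_of_one_le_of_one_le (one_le_pow₀ hq) hH,
    fun x hx y hy z hz hd => ?_⟩
  have hsub : ball c.x0 r ⊆ ball c.x0 c.r0 := ball_subset_ball (by nlinarith)
  by_cases hzx : z = x
  · subst hzx
    rw [dist_self, mul_zero] at hd
    rw [dist_le_zero.1 hd, sub_self, norm_zero, mul_zero]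
  have ht : 0 < dist z x := dist_pos.2 hzx
  have hI : 0 < ‖c.f z - c.f x‖ :=
    norm_pos_iff.2 (sub_ne_zero.2 fun h => hzx (c.inj (hsub hz) (hsub hx) h))
  have hS : closedBall x (E.Λ * dist x y) ⊆ ball c.x0 c.r0 := by
    intro u hu
    have h1 := mem_closedBall.1 hu
    have h2 := mem_ball.1 hx
    have h3 := mem_ball.1 hy
    have h4 := dist_triangle_right x y c.x0
    have h5 := dist_triangle u x c.x0
    have h6 : E.Λ * dist x y ≤ E.Λ * (2 * r) := mul_le_mul_of_nonneg_left (by linarith) (by linarith)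
    rw [mem_ball]
    nlinarith
  by_contra hcon
  have hcon := (not_le.1 hcon).le
  have hex : ∀ j : Fin (N + 1), ∃ u ∈ closedBall x (E.Λ * dist x y),
      ‖c.f u - c.f x‖ = (2 + 2 * c.H) ^ ((j : ℕ) + 1) * c.H * ‖c.f z - c.f x‖ := fun j =>
    Q1Aux.ivt c hS (E.llc x y) (by positivity) (le_trans (by gcongr; omega) hcon)
  choose u hu hm using hex
  have hsep : ∀ i j : Fin (N + 1), i < j → dist z x / 20 < dist (u j) (u i) := by
    intro i j hij
    by_contra h
    have h1 : (2 + 2 * c.H) ^ ((i : ℕ) + 1) * (2 + 2 * c.H) ≤ (2 + 2 * c.H) ^ ((j : ℕ) + 1) := by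
      rw [← pow_succ]
      exact pow_le_pow_right₀ hq (by have := Fin.lt_def.1 hij; omega)
    have h2 : 1 ≤ (2 + 2 * c.H) ^ ((i : ℕ) + 1) := one_le_pow₀ hq
    have h3 : 0 < c.H * ‖c.f z - c.f x‖ := by positivity
    have h4 := Q1Aux.key c (hsub hx) (hsub hz) (hS (hu i)) (hS (hu j)) (not_lt.1 h)
    rw [hm, hm, mul_assoc, mul_assoc, ← mul_assoc (1 + c.H)] at h4
    rcases h4 with h4 | h4
    · have := le_of_mul_le_mul_right (h4.trans (one_mul _).ge) h3
      nlinarith
    · have := le_of_mul_le_mul_right h4 h3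
      nlinarith
  have hsep' : ∀ i j : Fin (N + 1), i ≠ j → dist z x / 20 < dist (u j) (u i) := by
    intro i j hij
    rcases lt_or_gt_of_ne hij with h | h
    · exact hsep i j h
    · rw [dist_comm (u j)]
      exact hsep j i h
  have hinj : Function.Injective u := by
    intro i j h
    by_contra hij
    have := hsep' i j hij
    rw [h, dist_self] at this
    linarith
  have h1 := hN x (dist z x / 20) (Finset.univ.image u) (by positivity) (by
    intro v hv
    obtain ⟨j, -, rfl⟩ := Finset.mem_image.1 hv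
    have h1 := mem_closedBall.1 (hu j)
    have h2 : dist x y ≤ max L 0 * dist z x := by
      rw [dist_comm]
      exact hd.trans (mul_le_mul_of_nonneg_right (le_max_left _ _) ht.le)
    have h3 := mul_le_mul_of_nonneg_left h2 (show 0 ≤ E.Λ by linarith)
    linarith) (by
    intro v hv w hw hvw
    obtain ⟨j, -, rfl⟩ := Finset.mem_image.1 hv
    obtain ⟨i, -, rfl⟩ := Finset.mem_image.1 hw
    exact (hsep' i j fun h => hvw (by rw [h])).le)
  rw [Finset.card_image_of_injective _ hinj, Finset.card_univ, Fintype.card_fin] at h1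
  omega

end Vale.Agent.P198.PB
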