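import Vale.Agent.P198.B.Stm

open Set Metric Topology Filter MeasureTheory

namespace Vale.Agent.P198.PB

variable {G Z : Type*} [Group G] [MetricSpace Z] [MulAction G Z]

namespace Q2Aux

theorem pack (A δ : ℝ) (hδ : 0 < δ) : ∃ N : ℕ, ∀ s : ℝ, 0 ≤ s → ∀ u : ℕ → ℂ,
    (∀ i, ‖u i‖ ≤ A * s) → ∃ i j, i < j ∧ j ≤ N ∧ ‖u i - u j‖ ≤ δ * s := by
  classical
  obtain ⟨t, -, ht, hc⟩ := finite_cover_balls_of_compact (isCompact_closedBall (0 : ℂ) A)
    (half_pos hδ)
  refine ⟨ht.toFinset.card + 1, fun s hs u hu => ?_⟩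
  rcases hs.eq_or_lt with rfl | hs
  · refine ⟨0, 1, zero_lt_one, by omega, ?_⟩
    have h0 : u 0 = 0 := by simpa using hu 0
    have h1 : u 1 = 0 := by simpa using hu 1
    simp [h0, h1]
  have h1 : ∀ i, ∃ p ∈ ht.toFinset, u i / s ∈ ball p (δ / 2) := by
    intro i
    have : u i / s ∈ closedBall (0 : ℂ) A := by
      rw [mem_closedBall_zero_iff, norm_div, Complex.norm_real, Real.norm_of_nonneg hs.le,
        div_le_iff₀ hs]
      exact hu i
    simpa using hc this
  choose p hp hb using h1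
  obtain ⟨i, hi, j, hj, hne, he⟩ := Finset.exists_ne_map_eq_of_card_lt_of_maps_to
    (s := Finset.range (ht.toFinset.card + 1)) (t := ht.toFinset) (by simp) (f := p)
    (fun i _ => hp i)
  have h2 : ‖u i - u j‖ ≤ δ * s := by
    have h3 : dist (u i / s) (u j / s) < δ := by
      have a := mem_ball.1 (hb i)
      have b := mem_ball.1 (hb j)
      rw [← he] at b
      linarith [dist_triangle_right (u i / s) (u j / s) (p i)]
    rw [dist_eq_norm, ← sub_div, norm_div, Complex.norm_real, Real.norm_of_nonneg hs.le,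
      div_lt_iff₀ hs] at h3
    exact h3.le
  rw [Finset.mem_range] at hi hj
  rcases lt_or_gt_of_ne hne with h | h
  · exact ⟨i, j, h, by omega, h2⟩
  · exact ⟨j, i, h, by omega, by rwa [norm_sub_rev]⟩

theorem mem3 {x0 x y : Z} {r : ℝ} (hx : x ∈ ball x0 r) (h : dist y x < 2 * r) :
    y ∈ ball x0 (3 * r) := by
  rw [mem_ball] at *
  linarith [dist_triangle y x x0]

theorem lt2 {x0 x y : Z} {r : ℝ} (hx : x ∈ ball x0 r) (hy : y ∈ ball x0 r) :
    dist y x < 2 * r := by
  rw [mem_ball] at *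
  linarith [dist_triangle_right y x x0]

end Q2Aux

open Q2Aux in
theorem q2_pf (hmid : S_mid Z) : S_q2 Z := by
  intro f x0 r h
  constructor
  · obtain ⟨K, hK, hq⟩ := h 2
    refine ⟨K, hK, fun j x hx y hy z hz => ?_⟩
    have hx3 := mem3 hx (lt2 hx hx)
    have hz3 := mem3 hx (lt2 hx hz)
    have key : ∀ j : ℕ, ∀ y, dist y x < 2 * r → dist y x ≤ 2 ^ j * dist z x →
        ‖f y - f x‖ ≤ K ^ (j + 1) * ‖f z - f x‖ := by
      intro j
      induction j with
      | zero =>
        intro y h1 h2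
        have := hq x hx3 y (mem3 hx h1) z hz3 (by
          have := dist_nonneg (x := z) (y := x)
          linarith)
        simpa using this
      | succ j ih =>
        intro y h1 h2
        have h0 := dist_nonneg (x := y) (y := x)
        obtain ⟨y', hy'⟩ := hmid x y (dist y x / 2) (by linarith) (by linarith)
        have h3 : dist y' x < 2 * r := by linarith
        have h4 := ih y' h3 (by rw [pow_succ] at h2; linarith)
        have h5 := hq x hx3 y (mem3 hx h1) y' (mem3 hx h3) (by linarith)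
        calc ‖f y - f x‖ ≤ K * ‖f y' - f x‖ := h5
          _ ≤ K * (K ^ (j + 1) * ‖f z - f x‖) := by gcongr
          _ = _ := by ring
    exact key j y (lt2 hx hy)
  · intro ε hε
    obtain ⟨K, hK, hq⟩ := h 1
    obtain ⟨N, hN⟩ := pack K (ε / (2 * K)) (by positivity)
    refine ⟨1 / 3 ^ N, by positivity, fun x hx y hy z hz hd => ?_⟩
    have hx3 := mem3 hx (lt2 hx hx)
    have hy3 := mem3 hx (lt2 hx hy)
    have hz3 := mem3 hx (lt2 hx hz)
    have t0 := dist_nonneg (x := z) (y := x)
    have hle : ∀ i : ℕ, dist z x / 3 ^ i ≤ dist z x := fun i =>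
      div_le_self t0 (one_le_pow₀ (by norm_num))
    choose b hb using fun i : ℕ => hmid x z (dist z x / 3 ^ i) (by positivity) (hle i)
    have hb3 : ∀ i, b i ∈ ball x0 (3 * r) := fun i =>
      mem3 hx (by rw [hb]; exact (hle i).trans_lt (lt2 hx hz))
    obtain ⟨i, j, hij, hj, h1⟩ := hN ‖f z - f x‖ (norm_nonneg _) (fun i => f (b i) - f x)
      fun i => hq x hx3 _ (hb3 i) z hz3 (by rw [hb, one_mul]; exact hle i)
    rw [sub_sub_sub_cancel_right] at h1
    have h2 : 3 * (dist z x / 3 ^ j) ≤ dist z x / 3 ^ i := by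
      have : dist z x / 3 ^ j ≤ dist z x / 3 ^ (i + 1) := by
        gcongr
        · norm_num
        · omega
      calc 3 * (dist z x / 3 ^ j) ≤ 3 * (dist z x / 3 ^ (i + 1)) := by linarith
        _ = _ := by field_simp; ring
    have h3 : dist y x ≤ dist z x / 3 ^ j := by
      calc dist y x ≤ dist z x / 3 ^ N := by rw [div_eq_inv_mul, ← one_div]; exact hd
        _ ≤ _ := by gcongr; norm_num
    have h4 : 2 * (dist z x / 3 ^ j) ≤ dist (b i) (b j) := by
      have := dist_triangle (b i) (b j) x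
      rw [hb, hb] at this
      linarith
    have h5 : 0 ≤ dist z x / 3 ^ j := by positivity
    have a1 := hq (b j) (hb3 j) y hy3 (b i) (hb3 i) (by
      have := dist_triangle_right y (b j) x
      rw [hb] at this
      linarith)
    have a2 := hq (b j) (hb3 j) x hx3 (b i) (hb3 i) (by
      rw [dist_comm x, hb]
      linarith)
    have a3 : ‖f y - f x‖ ≤ ‖f y - f (b j)‖ + ‖f x - f (b j)‖ := by
      simpa using norm_sub_le (f y - f (b j)) (f x - f (b j))
    calc ‖f y - f x‖ ≤ 2 * K * ‖f (b i) - f (b j)‖ := by linarith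
      _ ≤ 2 * K * (ε / (2 * K) * ‖f z - f x‖) := by gcongr
      _ = _ := by field_simp

end Vale.Agent.P198.PB
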