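import Vale.Agent.P198.B.Stm

open Set Metric Topology Filter MeasureTheory

namespace Vale.Agent.P198.PB

variable {G Z : Type*} [Group G] [MetricSpace Z] [MulAction G Z]

namespace RepAux

theorem test (p0 : ℂ) {r : ℝ} (hr : 0 < r) : ∃ a : ℂ → ℝ, Continuous a ∧ Sup p0 r a ∧
    (∀ p, 0 ≤ a p) ∧ 0 < ∫ p, a p ∧ r * √(∫ p, a p ^ 2) ≤ 2 * ∫ p, a p := by
  let a : ℂ → ℝ := fun p => max (1 - ‖p - p0‖ / r) 0
  have hc : Continuous a := by
    simp only [a]
    fun_prop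
  have hs : Sup p0 r a := fun p hp => by
    by_contra h
    refine hp (max_eq_right ?_)
    rw [sub_nonpos, one_le_div hr]
    exact (not_le.1 h).le
  have h0 : ∀ p, 0 ≤ a p := fun p => le_max_right _ _
  have h1 : ∀ p, a p ≤ 1 := fun p =>
    max_le (sub_le_self _ (div_nonneg (norm_nonneg _) hr.le)) zero_le_one
  have hi := hs.integrable hc
  have h2 : r ^ 2 / 4 ≤ ∫ p, a p := by
    have e1 : volume.real (ball p0 (r / 2)) = (r / 2) ^ 2 * Real.pi := by
      rw [Measure.real, Complex.volume_ball, ENNReal.toReal_mul, ENNReal.toReal_pow,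
        ENNReal.toReal_ofReal (by positivity)]
      rfl
    have e2 : (1 / 2 : ℝ) * volume.real (ball p0 (r / 2)) ≤ ∫ p in ball p0 (r / 2), a p := by
      refine setIntegral_ge_of_const_le_real measurableSet_ball measure_ball_lt_top.ne
        (fun p hp => le_trans ?_ (le_max_left _ _)) hi.integrableOn
      have e3 : ‖p - p0‖ / r ≤ 1 / 2 := by
        rw [div_le_iff₀ hr]
        linarith [mem_ball_iff_norm.1 hp]
      linarith
    have e3 := setIntegral_le_integral (s := ball p0 (r / 2)) hi (Eventually.of_forall h0)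
    have e4 := mul_le_mul_of_nonneg_left Real.pi_gt_three.le (sq_nonneg (r / 2))
    rw [e1] at e2
    nlinarith [sq_nonneg r]
  have h3 : ∫ p, a p ^ 2 ≤ ∫ p, a p :=
    integral_mono_of_nonneg (Eventually.of_forall fun p => sq_nonneg _) hi
      (Eventually.of_forall fun p => by
        show a p ^ 2 ≤ a p
        nlinarith [h0 p, h1 p])
  have h4 : 0 < ∫ p, a p := lt_of_lt_of_le (by positivity) h2
  refine ⟨a, hc, hs, h0, h4, ?_⟩
  refine le_of_sq_le_sq ?_ (by positivity)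
  rw [mul_pow, Real.sq_sqrt (integral_nonneg fun p => sq_nonneg _)]
  nlinarith [mul_le_mul_of_nonneg_left h3 (sq_nonneg r)]

theorem leb {c p0 : ℂ} {ρ x : ℝ} {Λ : (ℂ → ℝ) → ℝ} {A : ℂ → ℝ} (hp : ‖p0 - c‖ < ρ)
    (hA : ∀ a, Continuous a → Sup c ρ a → Λ a = ∫ p, a p * A p)
    (h : Leb p0 x fun a => ∫ w, a w * A w) : Leb p0 x Λ := by
  intro ε hε
  obtain ⟨r0, h0, h1⟩ := h ε hε
  refine ⟨min r0 (ρ - ‖p0 - c‖), lt_min h0 (sub_pos.2 hp), fun r hr hr' a ha hs => ?_⟩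
  rw [hA a ha (hs.mono (by linarith [hr'.trans (min_le_right _ _)]))]
  exact h1 r hr (hr'.trans (min_le_left _ _)) a ha hs

end RepAux

theorem rep_pf (h1 : S_riesz) (h2 : S_leb) : S_rep := by
  intro c ρ K κ Λ1 Λ2 Λ3 hρ hκ l1 l2 l3 hpos
  obtain ⟨A1, m1, r1⟩ := h1 c ρ K Λ1 l1
  obtain ⟨A2, m2, r2⟩ := h1 c ρ K Λ2 l2
  obtain ⟨A3, m3, r3⟩ := h1 c ρ K Λ3 l3
  have hae := ((h2 A1 m1).and ((h2 A2 m2).and (h2 A3 m3)))
  obtain ⟨p0, hp, e1, e2, e3⟩ := Measure.exists_mem_of_measure_ne_zero_of_ae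
    (measure_ball_pos volume c hρ).ne' (ae_restrict_of_ae hae)
  have hp' : ‖p0 - c‖ < ρ := mem_ball_iff_norm.1 hp
  have b1 := RepAux.leb hp' r1 e1
  have b2 := RepAux.leb hp' r2 e2
  have b3 := RepAux.leb hp' r3 e3
  have hε : 0 < κ / 8 := by positivity
  obtain ⟨s1, p1, c1⟩ := b1 _ hε
  obtain ⟨s2, p2, c2⟩ := b2 _ hε
  obtain ⟨s3, p3, c3⟩ := b3 _ hε
  have hr : 0 < min (min s1 s2) (min s3 (ρ - ‖p0 - c‖)) :=
    lt_min (lt_min p1 p2) (lt_min p3 (sub_pos.2 hp'))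
  obtain ⟨a, ha, hs, h0, hI, hb⟩ := RepAux.test p0 hr
  have d1 := c1 _ hr ((min_le_left _ _).trans (min_le_left _ _)) a ha hs
  have d2 := c2 _ hr ((min_le_left _ _).trans (min_le_right _ _)) a ha hs
  have d3 := c3 _ hr ((min_le_right _ _).trans (min_le_left _ _)) a ha hs
  have hs' : Sup c ρ a := hs.mono (by
    linarith [(min_le_right (min s1 s2) _).trans (min_le_right s3 (ρ - ‖p0 - c‖))])
  have hb' := mul_le_mul_of_nonneg_left hb hε.le
  rw [← mul_assoc] at hb'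
  set I := ∫ p, a p with hIdef
  have f1 := (abs_le.1 (d1.trans hb')).2
  have f2 := d2.trans hb'
  have f3 := (abs_le.1 (d3.trans hb')).2
  have key : ∀ s t : ℝ, κ / 2 * (s ^ 2 + t ^ 2) ≤
      s ^ 2 * A1 p0 + 2 * s * t * A2 p0 + t ^ 2 * A3 p0 := by
    intro s t
    have g0 := hpos a ha hs' h0 s t
    have g1 := mul_le_mul_of_nonneg_left f1 (sq_nonneg s)
    have g3 := mul_le_mul_of_nonneg_left f3 (sq_nonneg t)
    have g2 : 2 * s * t * (Λ2 a - A2 p0 * I) ≤ (s ^ 2 + t ^ 2) * (κ / 8 * (2 * I)) := by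
      refine (le_abs_self _).trans ?_
      rw [abs_mul]
      refine mul_le_mul ?_ f2 (abs_nonneg _) (by positivity)
      exact abs_le.2 ⟨by nlinarith [sq_nonneg (s + t)], by nlinarith [sq_nonneg (s - t)]⟩
    refine le_of_mul_le_mul_right ?_ hI
    linarith
  have k1 := key 1 0
  have a0 : 0 < A1 p0 := by linarith
  refine ⟨p0, A1 p0, A2 p0, A3 p0, hp', a0, ?_, b1, b2, b3⟩
  have k2 := key (-A2 p0) (A1 p0)
  have k3 : 0 < κ / 2 * ((-A2 p0) ^ 2 + A1 p0 ^ 2) := by positivity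
  refine lt_of_mul_lt_mul_left ?_ a0.le
  linarith

end Vale.Agent.P198.PB
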