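import Vale.Agent.P198.B.Stm

open Set Metric Topology Filter MeasureTheory

namespace Vale.Agent.P198.PB

variable {G Z : Type*} [Group G] [MetricSpace Z] [MulAction G Z]

namespace RieszAux

/-- continuous functions vanishing off the disc -/
def V (c : ℂ) (ρ : ℝ) : Submodule ℝ (ℂ → ℝ) where
  carrier := {a | Continuous a ∧ Sup c ρ a}
  add_mem' ha hb := ⟨ha.1.add hb.1, ha.2.add hb.2⟩
  zero_mem' := ⟨continuous_const, fun _ h => absurd rfl h⟩
  smul_mem' t _ ha := ⟨ha.1.const_smul t, ha.2.mul_left fun _ => t⟩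

theorem mem2 {c : ℂ} {ρ : ℝ} (a : V c ρ) : MemLp a.1 2 volume :=
  a.2.1.memLp_of_hasCompactSupport a.2.2.hcs

/-- inclusion in the square integrable classes -/
noncomputable def T (c : ℂ) (ρ : ℝ) : V c ρ →ₗ[ℝ] Lp ℝ 2 (volume : Measure ℂ) where
  toFun a := (mem2 a).toLp a.1
  map_add' a b := MemLp.toLp_add (mem2 a) (mem2 b)
  map_smul' t a := MemLp.toLp_const_smul t (mem2 a)

theorem T_ae {c : ℂ} {ρ : ℝ} (a : V c ρ) : T c ρ a =ᵐ[volume] a.1 := (mem2 a).coeFn_toLp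

theorem int_le (c : ℂ) (ρ : ℝ) : ∃ C : ℝ, ∀ a : V c ρ, ∫ p, |a.1 p| ≤ C * ‖T c ρ a‖ := by
  have hm : MeasurableSet (closedBall c ρ) := measurableSet_closedBall
  have hf : volume (closedBall c ρ) ≠ ⊤ := measure_closedBall_lt_top.ne
  refine ⟨‖indicatorConstLp 2 hm hf (1 : ℝ)‖, fun a => ?_⟩
  have h1 := real_inner_le_norm (indicatorConstLp 2 hm hf (1 : ℝ)) |T c ρ a|
  rw [L2.inner_indicatorConstLp_one, norm_abs_eq_norm] at h1
  refine le_trans (le_of_eq ?_) h1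
  have h2 : (fun p => (|T c ρ a| : Lp ℝ 2 (volume : Measure ℂ)) p) =ᵐ[volume] fun p => |a.1 p| := by
    filter_upwards [Lp.coeFn_abs (T c ρ a), T_ae a] with p h h'
    rw [h, h']
  rw [integral_congr_ae (ae_restrict_of_ae h2), setIntegral_eq_integral_of_forall_compl_eq_zero]
  intro p hp
  by_contra h
  exact hp (mem_closedBall_iff_norm.2 (a.2.2 p fun h0 => h (by rw [h0, abs_zero])))

end RieszAux

open RieszAux in
theorem riesz_pf : S_riesz := by
  intro c ρ K Λ hL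
  let L : V c ρ →ₗ[ℝ] ℝ :=
    { toFun := fun a => Λ a.1
      map_add' := fun a b => hL.add _ _ a.2.1 a.2.2 b.2.1 b.2.2
      map_smul' := fun t a => hL.smul t _ a.2.1 a.2.2 }
  obtain ⟨C, hC⟩ := int_le c ρ
  have hb : ∃ C : ℝ, ∀ a, ‖L a‖ ≤ C * ‖T c ρ a‖ := ⟨|K| * C, fun a => by
    have h1 := hL.le _ a.2.1 a.2.2
    have h2 : 0 ≤ ∫ p, |a.1 p| := integral_nonneg fun _ => abs_nonneg _
    have h3 := mul_le_mul_of_nonneg_right (le_abs_self K) h2
    have h4 := mul_le_mul_of_nonneg_left (hC a) (abs_nonneg K)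
    rw [Real.norm_eq_abs, mul_assoc]
    exact h1.trans (h3.trans h4)⟩
  obtain ⟨g, hg, -⟩ := exists_extension_norm_eq _ (L.compLeftInverse (T c ρ))
  set A := (InnerProductSpace.toDual ℝ _).symm g with hA
  refine ⟨A, Lp.memLp A, fun a ha hs => ?_⟩
  have h1 := hg ⟨T c ρ ⟨a, ha, hs⟩, ⟨_, rfl⟩⟩
  rw [LinearMap.compLeftInverse_apply_of_bdd _ _ hb _ _ rfl] at h1
  have h2 : inner ℝ A (T c ρ ⟨a, ha, hs⟩) = g (T c ρ ⟨a, ha, hs⟩) :=
    InnerProductSpace.toDual_symm_apply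
  rw [L2.inner_def] at h2
  refine (h1.symm.trans h2.symm).trans (integral_congr_ae ?_)
  filter_upwards [T_ae (⟨a, ha, hs⟩ : V c ρ)] with p hp
  rw [hp]
  simp

end Vale.Agent.P198.PB
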