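import Vale.Agent.P198.B.Stm

open Set Metric Topology Filter MeasureTheory

namespace Vale.Agent.P198.PB

variable {G Z : Type*} [Group G] [MetricSpace Z] [MulAction G Z]

theorem sh_pf {D : Dyn G Z} (N : NC D) (hdyn : S_dyn D) : S_sh N := by
  refine ⟨fun d hd => ?_, fun d hd => ?_, ?_⟩
  · obtain ⟨K, hK, hout⟩ := N.out (D.C / d)
    have hρ := N.ρ_pos
    filter_upwards [hout, N.tiny (N.ρ / K) (by positivity)] with n h1 h2 g hg hn y hy φ hφ
    by_contra h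
    obtain ⟨hx, hx2⟩ := N.ext_ne h
    have h3 := hφ _ hx2
    have hl := D.mem_lev.1 hg
    have h4 := hdyn.sh g y d hd hy
    rw [hl, dist_comm] at h4
    obtain ⟨h5, h6⟩ := h1 _ hx (by linarith) _ h4
    have h7 := h2 _ hx (by linarith)
    have h8 : K * N.sz (g • y) n ≤ N.ρ := by
      have := mul_le_mul_of_nonneg_left h7 (by linarith : (0:ℝ) ≤ K)
      rwa [mul_div_cancel₀ _ (by linarith : K ≠ 0)] at this
    refine hn (N.mem_Rel.2 ⟨hl, h5, ?_⟩)
    have h9 := norm_sub_le_norm_sub_add_norm_sub (N.f (D.pt g)) (N.f (g • y)) N.c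
    unfold NC.pg
    linarith
  · obtain ⟨K, hK, hout⟩ := N.out (D.C / d)
    refine ⟨K, hK, ?_⟩
    filter_upwards [hout] with n h1 g hg y hy
    have h4 := hdyn.sh g y d hd hy
    rw [(N.mem_Rel.1 hg).1] at h4
    rw [N.sg_eq hg]
    exact h1 _ (N.mem_Rel.1 hg).2.1 (N.Rel_in hg) _ h4
  · obtain ⟨K, hK, hin⟩ := N.inn 1
    have hC := D.C_pos
    refine ⟨1 / (4 * (D.C * K)), by positivity, ?_⟩
    filter_upwards [hin, hdyn.far K hK] with n h1 h2 g hg x hx hx2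
    rw [N.sg_eq hg] at hx2
    have h3 := h1 _ (N.mem_Rel.1 hg).2.1 (N.Rel_in hg) x hx (by rw [one_mul]; exact hx2)
    have h4 := h2 g (N.mem_Rel.1 hg).1 x h3
    have h5 : 4 * (1 / (4 * (D.C * K))) = 1 / (D.C * K) := by field_simp
    rw [h5]; exact h4

theorem rnd_pf {D : Dyn G Z} (N : NC D) (hdyn : S_dyn D) : S_rnd N := by
  obtain ⟨L, hL, hdn⟩ := N.dn
  obtain ⟨K1, hK1, htri⟩ := hdyn.tri (max L 1)
  obtain ⟨K, hK, hup⟩ := N.up K1
  obtain ⟨r2, hr2, hins⟩ := N.ins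
  refine ⟨K, by linarith, fun γ => ?_⟩
  obtain ⟨r1, hr1, h1⟩ := htri γ
  refine ⟨min r1 r2, lt_min hr1 hr2, fun x y z hx hx2 hy hyx gx gy gz hz => ?_⟩
  refine hup _ gx _ gy _ gz (h1 x y z (hyx.trans (min_le_left _ _)) ?_)
  by_cases hzB : z ∈ N.B
  · exact (hdn x hx y hy z hzB (hz hzB)).trans
      (mul_le_mul_of_nonneg_right (le_max_left _ _) dist_nonneg)
  · have h2 : r2 ≤ dist z x := by
      by_contra h
      exact hzB (hins x hx hx2 (mem_ball.2 (not_le.1 h)))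
    have h3 : dist z x ≤ max L 1 * dist z x := le_mul_of_one_le_left dist_nonneg (le_max_right _ _)
    linarith [min_le_right r1 r2]

end Vale.Agent.P198.PB
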