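import Vale.Agent.P198.B.Stm

open Set Metric Topology Filter MeasureTheory

namespace Vale.Agent.P198.PB

variable {G Z : Type*} [Group G] [MetricSpace Z] [MulAction G Z]

namespace SumAux

theorem area (p : ℂ) {r : ℝ} (hr : 0 ≤ r) : volume.real (ball p r) = Real.pi * r ^ 2 := by
  rw [measureReal_def, Complex.volume_ball]
  simp [ENNReal.toReal_ofReal hr, mul_comm]

theorem low_ball {φ : ℂ → ℝ} (hφ : Integrable φ) {p : ℂ} {r t e : ℝ} (hr : 0 ≤ r)
    (h : ∀ w ∈ ball p r, t ≤ φ w + e) :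
    Real.pi * (t * r ^ 2) ≤ (∫ w in ball p r, φ w) + e * (Real.pi * r ^ 2) := by
  have h1 : ∫ _ in ball p r, (t - e) ≤ ∫ w in ball p r, φ w :=
    setIntegral_mono_on (integrableOn_const measure_ball_lt_top.ne) hφ.integrableOn
      measurableSet_ball fun w hw => by linarith [h w hw]
  rw [setIntegral_const, area p hr, smul_eq_mul] at h1
  linarith

theorem unif {c : ℂ} {ρ : ℝ} {a : ℂ → ℝ} (hc : Continuous a) (hs : Sup c ρ a) {e : ℝ}
    (he : 0 < e) : ∃ δ > 0, ∀ p w : ℂ, ‖w - p‖ ≤ δ → |a w - a p| ≤ e := by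
  obtain ⟨δ, hδ, h⟩ := Metric.uniformContinuous_iff_le.1
    (hs.hcs.uniformContinuous_of_continuous hc) e he
  exact ⟨δ, hδ, fun p w hw => by
    rw [← Real.dist_eq]; exact h (by rwa [dist_eq_norm])⟩

variable {D : Dyn G Z} (N : NC D)

theorem tot (hovl : S_ovl N) : ∃ M, 0 < M ∧ ∀ᶠ n in atTop, ∑ g ∈ N.Rel n, N.sg g ^ 2 ≤ M := by
  obtain ⟨M, hM, h⟩ := hovl 1
  set φ : ℂ → ℝ := (ball N.c (3 * N.ρ)).indicator fun _ => 1 with hφ
  have hi : Integrable φ :=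
    (integrableOn_const measure_ball_lt_top.ne).integrable_indicator measurableSet_ball
  have h0 : ∀ p, 0 ≤ φ p := fun p => indicator_nonneg (fun _ _ => zero_le_one) p
  refine ⟨max (M * (∫ p, φ p) / Real.pi) 1, lt_max_of_lt_right one_pos, ?_⟩
  filter_upwards [h, N.sg_pos, N.sg_tiny N.ρ_pos] with n h1 h2 h3
  refine le_trans ?_ (le_max_left _ _)
  rw [le_div_iff₀ Real.pi_pos, Finset.sum_mul]
  refine le_trans (Finset.sum_le_sum fun g hg => ?_) (h1 φ hi h0)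
  have h4 := low_ball hi (p := N.pg g) (t := 1) (e := 0) (h2 g hg).le fun w hw => by
    have h5 := (N.mem_Rel.1 hg).2.2
    have h6 := mem_ball_iff_norm.1 hw
    have h7 := norm_sub_le_norm_sub_add_norm_sub w (N.pg g) N.c
    have h8 : w ∈ ball N.c (3 * N.ρ) := mem_ball_iff_norm.2 (by linarith [h3 g hg])
    rw [hφ, indicator_of_mem h8, add_zero]
  rw [one_mul]
  linarith

theorem up (hovl : S_ovl N) : ∃ K, 0 ≤ K ∧ ∀ a, Continuous a → Sup N.c N.ρ a → ∀ ε > 0,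
    ∀ᶠ n in atTop, ∑ g ∈ N.Rel n, |a (N.pg g)| * N.sg g ^ 2 ≤ K * (∫ p, |a p|) + ε := by
  obtain ⟨T, hT, ht⟩ := tot N hovl
  obtain ⟨M, hM, h⟩ := hovl 1
  refine ⟨M / Real.pi, div_nonneg hM Real.pi_pos.le, fun a hc hs ε hε => ?_⟩
  obtain ⟨δ, hδ, hu⟩ := unif hc hs (div_pos hε hT)
  have hi : Integrable fun p => |a p| := (hs.integrable hc).abs
  filter_upwards [h, ht, N.sg_pos, N.sg_tiny hδ] with n h1 h2 h3 h4
  have h5 : ∀ g ∈ N.Rel n, Real.pi * (|a (N.pg g)| * N.sg g ^ 2) ≤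
      (∫ w in ball (N.pg g) (1 * N.sg g), |a w|) + ε / T * (Real.pi * N.sg g ^ 2) := by
    intro g hg
    rw [one_mul]
    refine low_ball hi (h3 g hg).le fun w hw => ?_
    have h6 := hu (N.pg g) w ((mem_ball_iff_norm.1 hw).le.trans (h4 g hg))
    have h7 := abs_sub_abs_le_abs_sub (a (N.pg g)) (a w)
    rw [abs_sub_comm] at h7
    linarith
  have h6 := Finset.sum_le_sum h5
  rw [Finset.sum_add_distrib, ← Finset.mul_sum, ← Finset.mul_sum, ← Finset.mul_sum] at h6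
  have h7 := h1 _ hi fun p => abs_nonneg _
  have h8 : ε / T * (Real.pi * ∑ g ∈ N.Rel n, N.sg g ^ 2) ≤ Real.pi * ε := by
    calc _ ≤ ε / T * (Real.pi * T) := by gcongr
      _ = Real.pi * ε := by field_simp
  refine le_of_mul_le_mul_left ?_ Real.pi_pos
  have h9 : Real.pi * (M / Real.pi * (∫ p, |a p|) + ε) = M * (∫ p, |a p|) + Real.pi * ε := by
    field_simp
  rw [h9]
  linarith

theorem cover : ∃ K, 1 ≤ K ∧ ∀ᶠ n in atTop, ∀ p, ‖p - N.c‖ ≤ N.ρ →
    ∃ g ∈ N.Rel n, ‖p - N.pg g‖ ≤ K * N.sg g := by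
  obtain ⟨K, hK, h⟩ := N.out D.C
  have hK0 : 0 < K := by linarith
  refine ⟨K, hK, ?_⟩
  filter_upwards [h, N.tiny _ (div_pos N.ρ_pos hK0)] with n h1 h2 p hp
  have hρ := N.ρ_pos
  obtain ⟨hx, hf⟩ := N.fi_mem p (by linarith)
  obtain ⟨g, hg, hd⟩ := D.surj (N.fi p) n
  have h3 : ‖N.f (N.fi p) - N.c‖ ≤ 3 * N.ρ := by rw [hf]; linarith
  obtain ⟨h4, h5⟩ := h1 _ hx h3 _ hd
  have h6 : K * N.sz (N.fi p) n ≤ N.ρ := by
    rw [mul_comm, ← le_div_iff₀ hK0]
    exact h2 _ hx h3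
  rw [hf] at h5
  have h7 := norm_sub_le_norm_sub_add_norm_sub (N.f (D.pt g)) p N.c
  have hR : g ∈ N.Rel n := N.mem_Rel.2 ⟨hg, h4, by unfold NC.pg; linarith⟩
  refine ⟨g, hR, ?_⟩
  have h8 := (h1 _ h4 (N.Rel_in hR) (N.fi p) (by rwa [dist_comm])).2
  rwa [hf, ← N.sg_eq hR] at h8

theorem low (hovl : S_ovl N) : ∃ κ > 0, ∀ a, Continuous a → Sup N.c N.ρ a → (∀ p, 0 ≤ a p) →
    ∀ ε > 0, ∀ᶠ n in atTop, κ * ∫ p, a p ≤ ∑ g ∈ N.Rel n, a (N.pg g) * N.sg g ^ 2 + ε := by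
  obtain ⟨T, hT, ht⟩ := tot N hovl
  obtain ⟨K, hK, h⟩ := cover N
  have hK0 : 0 < K := by linarith
  have hπ := Real.pi_pos
  refine ⟨(Real.pi * (2 * K) ^ 2)⁻¹, by positivity, fun a hc hs h0 ε hε => ?_⟩
  have he := div_pos hε hT
  obtain ⟨δ, hδ, hu⟩ := unif hc hs he
  filter_upwards [h, ht, N.sg_pos, N.sg_tiny (div_pos hδ hK0)] with n h1 h2 h3 h4
  set F : G → ℂ → ℝ := fun g =>
    (ball (N.pg g) (2 * K * N.sg g)).indicator fun _ => a (N.pg g) + ε / T with hF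
  have hi : ∀ g ∈ N.Rel n, Integrable (F g) := fun g _ =>
    (integrableOn_const measure_ball_lt_top.ne).integrable_indicator measurableSet_ball
  have hF0 : ∀ g p, 0 ≤ F g p := fun g p =>
    indicator_nonneg (fun _ _ => add_nonneg (h0 _) he.le) p
  have h5 : ∀ p, a p ≤ ∑ g ∈ N.Rel n, F g p := by
    intro p
    by_cases hp : a p = 0
    · rw [hp]
      exact Finset.sum_nonneg fun g _ => hF0 g p
    obtain ⟨g, hg, h6⟩ := h1 p (hs p hp)
    refine le_trans ?_ (Finset.single_le_sum (f := fun g => F g p) (fun g _ => hF0 g p) hg)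
    have h7 := mul_pos hK0 (h3 g hg)
    have h8 : p ∈ ball (N.pg g) (2 * K * N.sg g) := mem_ball_iff_norm.2 (by linarith)
    have h9 : K * N.sg g ≤ δ := by
      rw [mul_comm, ← le_div_iff₀ hK0]
      exact h4 g hg
    have h10 := (abs_le.1 (hu (N.pg g) p (h6.trans h9))).2
    simp only [hF]
    rw [indicator_of_mem h8]
    linarith
  have h6 := integral_mono (hs.integrable hc) (integrable_finsetSum _ hi) h5
  rw [integral_finsetSum _ hi] at h6
  have h7 : ∀ g ∈ N.Rel n, ∫ p, F g p =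
      Real.pi * (2 * K) ^ 2 * (a (N.pg g) * N.sg g ^ 2 + ε / T * N.sg g ^ 2) := by
    intro g hg
    simp only [hF]
    rw [integral_indicator_const _ measurableSet_ball,
      area _ (mul_pos (by positivity) (h3 g hg)).le, smul_eq_mul]
    ring
  rw [Finset.sum_congr rfl h7, ← Finset.mul_sum, Finset.sum_add_distrib, ← Finset.mul_sum] at h6
  rw [inv_mul_le_iff₀ (by positivity)]
  refine h6.trans ?_
  gcongr
  calc _ ≤ ε / T * T := by gcongr
    _ = ε := by field_simp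

end SumAux

theorem sum_pf {D : Dyn G Z} (N : NC D) (hovl : S_ovl N) : S_sum N := by
  obtain ⟨M, -, h⟩ := SumAux.tot N hovl
  exact ⟨⟨M, h⟩, SumAux.up N hovl, SumAux.low N hovl⟩

end Vale.Agent.P198.PB
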