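import Vale.Agent.P198.B.Stm

open Set Metric Topology Filter MeasureTheory

namespace Vale.Agent.P198.PB

variable {G Z : Type*} [Group G] [MetricSpace Z] [MulAction G Z]

namespace SymAux

theorem ev_eb [MeasurableSpace Z] {D : Dyn G Z} (S : Su D) (hll : S_ll) (heb : S_eb S.toNC)
    (P : S.Pt) (W : Blow S.toNC P.p0) (φ : ℂ → ℝ) (h1 : ContDiff ℝ 2 φ)
    (h2 : HasCompactSupport φ) : ∀ᶠ k in UF, EB D (S.ext (sc P.p0 (W.s k) φ)) := by
  obtain ⟨R, hR1, hR, -⟩ := exists_Sup h2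
  have ht : Tendsto (fun k => R * W.s k) atTop (𝓝 (R * 0)) := W.s_zero.const_mul R
  rw [mul_zero] at ht
  have hp : 0 < S.ρ - ‖P.p0 - S.c‖ := sub_pos.2 P.hp
  refine ev_UF ?_
  filter_upwards [W.s_pos, ht.eventually (ge_mem_nhds hp)] with k hk hk2
  refine heb.ext _ ?_ ((hll.sc_sup _ _ _ _ hk hR).mono (by linarith))
  have := hll.sc_smooth 1 P.p0 (W.s k) φ (h1.of_le (by norm_num))
  simpa using this

theorem b1_symm [MeasurableSpace Z] {D : Dyn G Z} (S : Su D) (hel : S_el S) (u v : Z → ℝ) :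
    S.B1 u v = S.B1 v u := by
  unfold Su.B1
  congr 1
  funext n
  unfold Su.E1
  exact Finset.sum_congr rfl fun g _ => hel.symm g u v

end SymAux

theorem sym_pf [MeasurableSpace Z] [BorelSpace Z] [CompactSpace Z] {D : Dyn G Z} (S : Su D) (hll : S_ll) (hel : S_el S) (heb : S_eb S.toNC) (hinv : S_inv S) (hkey : S_key S) : S_sym S := by
  intro P W γ φ ψ h1 h2 h3 h4 h5 h6
  have k1 := hkey P W γ φ ψ h1 h2 h3 h4 h5 h6
  have k2 := hkey P W γ⁻¹ ψ φ h3 h4 h1 h2 h6 (by simpa using h5)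
  have he : (fun k => S.B1 (fun x => S.ext (sc P.p0 (W.s k) φ) (W.cj γ k • x))
      (S.ext (sc P.p0 (W.s k) ψ))) =ᶠ[UF] fun k => S.B1
        (fun x => S.ext (sc P.p0 (W.s k) ψ) (W.cj γ⁻¹ k • x)) (S.ext (sc P.p0 (W.s k) φ)) := by
    filter_upwards [SymAux.ev_eb S hll heb P W φ h1 h2, SymAux.ev_eb S hll heb P W ψ h3 h4]
      with k e1 e2
    have := hinv (W.cj γ k) _ _ e1 (heb.comp (W.cj γ⁻¹ k) _ e2)
    rw [SymAux.b1_symm S hel _ (S.ext (sc P.p0 (W.s k) φ)), ← this]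
    congr 1
    funext x
    congr 1
    simp [Blow.cj, mul_smul]
  have := tendsto_nhds_unique (k1.congr' he) k2
  linarith

end Vale.Agent.P198.PB
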