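import Vale.Agent.P198.B.Stm

open Set Metric Topology Filter MeasureTheory

namespace Vale.Agent.P198.PB

variable {G Z : Type*} [Group G] [MetricSpace Z] [MulAction G Z]

theorem uc_pf (α β : Type*) [MetricSpace α] [MetricSpace β] : S_uc α β := by
  intro F F0 T hT hp he
  have h0 : ∀ ε > 0, ∃ θ > 0, (∀ᶠ k in UF, ∀ x ∈ T, ∀ y ∈ T, dist x y ≤ θ →
      dist (F k x) (F k y) ≤ ε) ∧ ∀ x ∈ T, ∀ y ∈ T, dist x y ≤ θ → dist (F0 x) (F0 y) ≤ ε := by
    intro ε hε
    obtain ⟨θ, hθ, h⟩ := he ε hε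
    refine ⟨θ, hθ, h, fun x hx y hy hxy => ?_⟩
    exact le_of_tendsto ((hp x hx).dist (hp y hy)) (h.mono fun k hk => hk x hx y hy hxy)
  refine ⟨?_, fun ε hε => ?_⟩
  · refine UniformContinuousOn.continuousOn (Metric.uniformContinuousOn_iff_le.2 fun ε hε => ?_)
    obtain ⟨θ, hθ, -, h⟩ := h0 ε hε
    exact ⟨θ, hθ, h⟩
  · obtain ⟨θ, hθ, h1, h2⟩ := h0 (ε / 3) (by positivity)
    obtain ⟨t, htT, htf, hcov⟩ := hT.finite_cover_balls hθ
    have h3 : ∀ᶠ k in UF, ∀ x ∈ t, dist (F k x) (F0 x) ≤ ε / 3 := by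
      refine (htf.eventually_all).2 fun x hx => ?_
      exact ((hp x (htT hx)).eventually (closedBall_mem_nhds (F0 x) (by positivity))).mono
        fun k hk => hk
    filter_upwards [h1, h3] with k k1 k3 x hx
    obtain ⟨y, hy, hxy⟩ := mem_iUnion₂.1 (hcov hx)
    have a1 := k1 x hx y (htT hy) (mem_ball.1 hxy).le
    have a2 := h2 y (htT hy) x hx (by rw [dist_comm]; exact (mem_ball.1 hxy).le)
    have a3 := k3 y hy
    linarith [dist_triangle4 (F k x) (F k y) (F0 y) (F0 x)]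

theorem cvg_pf [CompactSpace Z] {D : Dyn G Z} (N : NC D) : S_cvg N := by
  intro p0 W γ T hT hne ε hε
  have hc : Continuous fun w => dist (γ • W.ch.k w) W.ch.b :=
    ((D.cont_smul γ).comp W.ch.k_cont).dist continuous_const
  obtain ⟨d, hd, hdT⟩ : ∃ d > 0, ∀ w ∈ T, d ≤ dist (γ • W.ch.k w) W.ch.b := by
    rcases T.eq_empty_or_nonempty with h | h
    · exact ⟨1, one_pos, fun w hw => by simp [h] at hw⟩
    · obtain ⟨w, hw, hmin⟩ := hT.exists_isMinOn h hc.continuousOn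
      exact ⟨_, dist_pos.2 (hne w hw), fun v hv => hmin hv⟩
  have hK : IsCompact {y : Z | d / 2 ≤ dist y W.ch.b} :=
    (isClosed_le continuous_const (continuous_id.dist continuous_const)).isCompact
  have hu : UniformContinuousOn W.ch.h {y : Z | d / 2 ≤ dist y W.ch.b} := by
    refine hK.uniformContinuousOn_of_continuous (W.ch.h_cont.mono fun y hy h => ?_)
    have h1 : y = W.ch.b := h
    have h2 : d / 2 ≤ dist y W.ch.b := hy
    rw [h1, dist_self] at h2
    linarith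
  obtain ⟨θ, hθ, hu⟩ := Metric.uniformContinuousOn_iff_le.1 hu (ε / 2) (by positivity)
  obtain ⟨L, hL, hlip⟩ := D.lip γ
  obtain ⟨R, hR⟩ := hT.isBounded.exists_norm_le
  filter_upwards [W.fw (d / 2) (by positivity) (ε / 2) (by positivity),
    W.bw R (min θ (d / 2) / L) (by positivity)] with k k1 k2 w hw
  set y := γ • (W.g k)⁻¹ • N.fi (p0 + W.s k * w) with hy
  have a1 : dist y (γ • W.ch.k w) ≤ min θ (d / 2) := by
    have b1 := mul_le_mul_of_nonneg_left (k2 w (hR w hw)) hL.le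
    rw [mul_div_cancel₀ _ hL.ne'] at b1
    exact (hlip _ _).trans b1
  have a2 : d / 2 ≤ dist y W.ch.b := by
    have b1 := dist_triangle (γ • W.ch.k w) y W.ch.b
    rw [dist_comm (γ • W.ch.k w) y] at b1
    linarith [hdT w hw, min_le_right θ (d / 2)]
  have a3 : W.cj γ k • N.fi (p0 + W.s k * w) = W.g k • y := by
    simp only [Blow.cj, mul_smul, hy]
  obtain ⟨a4, a5⟩ := k1 y a2
  rw [a3]
  refine ⟨a4, ?_⟩
  have a6 := hu y a2 (γ • W.ch.k w) (show d / 2 ≤ _ by linarith [hdT w hw])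
    (a1.trans (min_le_left _ _))
  rw [dist_eq_norm] at a6
  linarith [norm_sub_le_norm_sub_add_norm_sub ((N.f (W.g k • y) - p0) / W.s k) (W.ch.h y)
    (W.ch.h (γ • W.ch.k w))]

end Vale.Agent.P198.PB
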