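import Vale.Agent.P198.B.Stm

open Set Metric Topology Filter MeasureTheory

namespace Vale.Agent.P198.PB

variable {G Z : Type*} [Group G] [MetricSpace Z] [MulAction G Z]

namespace UpperAux

variable [MeasurableSpace Z] [BorelSpace Z] [CompactSpace Z] {D : Dyn G Z}

/-- The shadow set. -/
def Yg (S : Su D) (g : G) : Set Z := {y | S.d ≤ dist y (D.pt g⁻¹)}

omit [CompactSpace Z] in
theorem Yg_meas (S : Su D) (g : G) : MeasurableSet (Yg S g) :=
  (isClosed_le continuous_const (by fun_prop)).measurableSet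

theorem el_le (S : Su D) (hmbl : S_mbl S.toNC) (hel : S_el S) (g : G) {b : ℂ → ℝ}
    (hb : Continuous b) (hs : Sup S.c S.ρ b) (hB : ∀ y ∈ Yg S g, g • y ∈ S.B) :
    S.el g (S.ext b) (S.ext b) ≤ D.C ^ 2 * ∫ z : Z × Z, (b (S.fm (g • z.1)) - b (S.fm (g • z.2))) ^ 2
      ∂((S.ν.restrict (Yg S g)).prod (S.ν.restrict (Yg S g))) := by
  have := S.nu.fin
  have hY := Yg_meas S g
  have hC := D.C_pos
  obtain ⟨M, hM⟩ := hb.bounded_above_of_compact_support hs.hcs
  have hm : Measurable fun y : Z => b (S.fm (g • y)) :=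
    hb.measurable.comp (hmbl.fm.comp (D.cont_smul g).measurable)
  have hi : Integrable (fun z : Z × Z => (b (S.fm (g • z.1)) - b (S.fm (g • z.2))) ^ 2)
      (S.ν.prod S.ν) := by
    refine Integrable.of_bound (((hm.comp measurable_fst).sub (hm.comp measurable_snd)).pow_const
      2).aestronglyMeasurable ((2 * M) ^ 2) (ae_of_all _ fun z => ?_)
    have h1 := hM (S.fm (g • z.1))
    have h2 := hM (S.fm (g • z.2))
    rw [Real.norm_eq_abs] at h1 h2
    rw [Real.norm_eq_abs, abs_pow]
    exact pow_le_pow_left₀ (abs_nonneg _) ((abs_sub _ _).trans (by linarith)) 2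
  rw [Measure.prod_restrict, ← integral_indicator (hY.prod hY), ← integral_const_mul, Su.el]
  refine integral_mono (hel.int g g _ _ (hmbl.ext b hb) (hmbl.ext b hb))
    ((hi.indicator (hY.prod hY)).const_mul _) fun z => ?_
  obtain ⟨h1, h2, h3⟩ := (hel.wt g).2 z.1
  obtain ⟨h4, h5, h6⟩ := (hel.wt g).2 z.2
  by_cases hz : z ∈ Yg S g ×ˢ Yg S g
  · simp only [indicator_of_mem hz]
    rw [S.ext_of_mem b (hB _ hz.1), S.ext_of_mem b (hB _ hz.2), S.fm_of_mem (hB _ hz.1),
      S.fm_of_mem (hB _ hz.2), ← pow_two]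
    refine mul_le_mul_of_nonneg_right ?_ (sq_nonneg _)
    rw [pow_two]
    exact mul_le_mul h2 h5 h4 hC.le
  · simp only [indicator_of_notMem hz, mul_zero]
    rw [mem_prod, not_and_or] at hz
    rcases hz with hz | hz
    · rw [h3 (le_of_lt (not_le.1 hz))]
      simp
    · rw [h6 (le_of_lt (not_le.1 hz))]
      simp

omit [CompactSpace Z] in
theorem fro (S : Su D) (g : G) {T : Set Z} (hT : MeasurableSet T) {r : ℝ} (hr : 0 ≤ r)
    (h : ∀ y ∈ T ∩ Yg S g, ∀ y' ∈ T ∩ Yg S g, dist y y' ≤ r) :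
    (S.ν.restrict (Yg S g)).real T ≤ 4 * r := by
  have := S.nu.fin
  rw [measureReal_restrict_apply hT]
  rcases (T ∩ Yg S g).eq_empty_or_nonempty with h0 | ⟨y, hy⟩
  · rw [h0, measureReal_empty]
    positivity
  · exact (measureReal_mono fun y' hy' => mem_closedBall.2 (h y' hy' y hy)).trans (S.nu.fro y r hr)

end UpperAux

open UpperAux in
theorem upper_pf [MeasurableSpace Z] [BorelSpace Z] [CompactSpace Z] {D : Dyn G Z} (S : Su D) (htr : S_trace Z) (hdyn : S_dyn D) (hsh : S_sh S.toNC) (hovl : S_ovl S.toNC) (hmbl : S_mbl S.toNC) (hel : S_el S) : S_upper S := by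
  classical
  have := S.nu.fin
  have hC := D.C_pos
  have hd := S.d_pos
  obtain ⟨K1, hK1, hrel⟩ := hsh.rel S.d hd
  obtain ⟨K2, hK2, hsep⟩ := S.sep (D.C / S.d)
  have hK : 2 ≤ 2 * K1 * K2 ^ 2 := by nlinarith
  obtain ⟨K', hK', htr'⟩ := htr (2 * K1 * K2 ^ 2) (max (S.ν.real univ) (4 * D.C)) hK
  obtain ⟨M, hM, hov⟩ := hovl (2 * K1)
  refine ⟨D.C ^ 2 * K' * M, by positivity, ?_⟩
  filter_upwards [hrel, hsep, hov, hsh.irr S.d hd, S.sg_pos] with n h1 h2 h3 h4 h5 b hb hs
  have hφ : Integrable fun w => dx b w ^ 2 + dy b w ^ 2 := by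
    have e1 := (hs.dx.mul_left (dx b)).integrable ((cont_dx hb).mul (cont_dx hb))
    have e2 := (hs.dy.mul_left (dy b)).integrable ((cont_dy hb).mul (cont_dy hb))
    exact (e1.add e2).congr (ae_of_all _ fun w => by simp [pow_two])
  have key : ∀ g ∈ S.Rel n, S.el g (S.ext b) (S.ext b) ≤
      D.C ^ 2 * K' * ∫ w in ball (S.pg g) (2 * K1 * S.sg g), (dx b w ^ 2 + dy b w ^ 2) := by
    intro g hg
    have hs0 := h5 g hg
    have hlen := (S.mem_Rel.1 hg).1
    have hY := Yg_meas S g
    have hΦ : Measurable fun y : Z => S.fm (g • y) := hmbl.fm.comp (D.cont_smul g).measurable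
    have hu : (S.ν.restrict (Yg S g)).real univ ≤ max (S.ν.real univ) (4 * D.C) := by
      rw [measureReal_restrict_apply MeasurableSet.univ]
      exact (measureReal_mono inter_subset_left).trans (le_max_left _ _)
    refine (el_le S hmbl hel g hb.continuous hs fun y hy => (h1 g hg y hy).1).trans ?_
    rw [mul_assoc, mul_assoc 2]
    refine mul_le_mul_of_nonneg_left (htr' _ (fun y => S.fm (g • y)) (S.pg g) (K1 * S.sg g) b
      inferInstance hΦ (by positivity) ?_ hu (fun j w => ?_) hb) (by positivity)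
    · refine ae_restrict_of_forall_mem hY fun y hy => ?_
      rw [S.fm_of_mem (h1 g hg y hy).1]
      exact (h1 g hg y hy).2
    · rcases Nat.eq_zero_or_pos j with rfl | hj
      · rw [pow_zero, pow_zero, div_one, div_one]
        exact (measureReal_mono (subset_univ _)).trans hu
      · have hT : MeasurableSet {x | ‖S.fm (g • x) - w‖ ≤ K1 * S.sg g / (2 * K1 * K2 ^ 2) ^ j} :=
          measurableSet_le (hΦ.sub_const w).norm measurable_const
        refine (fro S g hT (r := D.C / 2 ^ j) (by positivity) fun y hy y' hy' => ?_).trans ?_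
        · have a1 : ‖S.fm (g • y) - w‖ ≤ _ := hy.1
          have a2 : ‖S.fm (g • y') - w‖ ≤ _ := hy'.1
          rw [S.fm_of_mem (h1 g hg y hy.2).1] at a1
          rw [S.fm_of_mem (h1 g hg y' hy'.2).1] at a2
          have a3 : 2 * (K1 * S.sg g / (2 * K1 * K2 ^ 2) ^ j) ≤ S.sg g / K2 ^ (j + 1) := by
            have b1 : 2 * K1 ≤ (2 * K1) ^ j := le_self_pow₀ (by linarith) hj.ne'
            have b2 : K2 ^ (j + 1) ≤ (K2 ^ 2) ^ j := by
              rw [← pow_mul]
              exact pow_le_pow_right₀ (by linarith) (by omega)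
            have b3 : 2 * K1 * K2 ^ (j + 1) ≤ (2 * K1 * K2 ^ 2) ^ j := by
              rw [mul_pow (2 * K1)]
              exact mul_le_mul b1 b2 (by positivity) (by positivity)
            rw [← mul_div_assoc, div_le_div_iff₀ (by positivity) (by positivity)]
            nlinarith
          have a4 := norm_sub_le_norm_sub_add_norm_sub (S.f (g • y)) w (S.f (g • y'))
          rw [norm_sub_rev w] at a4
          have a5 := hdyn.sh g y S.d hd hy.2
          have a6 := hdyn.sh g y' S.d hd hy'.2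
          rw [hlen] at a5 a6
          have a7 := h2 (D.pt g) (S.mem_Rel.1 hg).2.1 (S.Rel_in hg) _ _ j a5 a6
            (by rw [← S.sg_eq hg]; linarith)
          have a8 := hdyn.exp g (g • y) (g • y')
          rw [inv_smul_smul, inv_smul_smul, hlen] at a8
          have hq := D.qpow_pos n
          refine le_of_mul_le_mul_right (a8.trans ((mul_le_mul_of_nonneg_left a7 hC.le).trans
            (le_of_eq ?_))) hq
          ring
        · rw [← mul_div_assoc]
          exact div_le_div_of_nonneg_right (le_max_right _ _) (by positivity)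
  have hz : ∀ g ∈ D.lev n, g ∉ S.Rel n → S.el g (S.ext b) (S.ext b) = 0 := fun g hg hn => by
    have ho : Osc D S.d g (S.ext b) 0 := fun x y hx hy => by
      rw [h4 g hg hn x hx b hs, h4 g hg hn y hy b hs]
      simp
    have := hel.osc g _ _ 0 0 le_rfl le_rfl ho ho
    simpa using this
  rw [Su.E1, ← Finset.sum_subset (S.Rel_subset n) hz]
  refine (Finset.sum_le_sum key).trans ?_
  rw [← Finset.mul_sum, mul_assoc _ M]
  exact mul_le_mul_of_nonneg_left (h3 _ hφ fun p => by positivity) (by positivity)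

end Vale.Agent.P198.PB
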