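import Vale.Agent.P198.B.Stm

open Set Metric Topology Filter MeasureTheory

namespace Vale.Agent.P198.PB

variable {G Z : Type*} [Group G] [MetricSpace Z] [MulAction G Z]

namespace WeakAux

theorem cutoff {T W : Set ℂ} (hT : IsCompact T) (hW : IsOpen W) (h : T ⊆ W) :
    ∃ η : ℂ → ℝ, ContDiff ℝ 2 η ∧ HasCompactSupport η ∧ tsupport η ⊆ W ∧
      ∀ w ∈ T, ∀ᶠ x in 𝓝 w, η x = 1 := by
  obtain ⟨L, hL, h1, h2⟩ := exists_compact_between hT hW h
  obtain ⟨f, f1, f0, -⟩ := exists_contMDiffMap_one_nhds_of_subset_interior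
    (modelWithCornersSelf ℝ ℂ) (n := 2) hT.isClosed h1
  have hs : tsupport f ⊆ L :=
    closure_minimal (fun x hx => by by_contra h0; exact hx (f0 x h0)) hL.isClosed
  exact ⟨f, f.contMDiff.contDiff, hL.of_isClosed_subset (isClosed_tsupport _) hs, hs.trans h2,
    fun w hw => f1.filter_mono (nhds_le_nhdsSet hw)⟩

end WeakAux

open WeakAux in
theorem weak_pf (D : Dyn G Z) (hll : S_ll) : S_weak G Z := by
  intro c a11 a12 a22 H g P ψ hP hP0 hψ hψc hT
  have hF : ContinuousOn (fun w => c.h (g • c.k w)) (tsupport ψ) :=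
    c.h_cont.comp ((D.cont_smul g).comp c.k_cont).continuousOn hT
  have hW : IsOpen {w | g⁻¹ • c.k w ≠ c.b} :=
    isOpen_ne_fun ((D.cont_smul g⁻¹).comp c.k_cont) continuous_const
  obtain ⟨η, h1, h2, h3, h4⟩ := cutoff (hψc.isCompact.image_of_continuousOn hF) hW (by
    rintro _ ⟨w, hw, rfl⟩
    simp only [mem_ofPred_eq]
    rw [c.kh _ (hT w hw), inv_smul_smul]
    exact c.k_ne w)
  have hs : tsupport (fun w => η w * P w) ⊆ tsupport η := tsupport_mul_subset_left
  have h5 := H g (fun w => η w * P w) ψ (h1.mul hP) h2.mul_right hψ hψc hT fun w hw => h3 (hs hw)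
  have e1 : (fun w => η (c.h (g • c.k w)) * P (c.h (g • c.k w)) * LL a11 a12 a22 ψ w) =
      fun w => P (c.h (g • c.k w)) * LL a11 a12 a22 ψ w := by
    funext w
    by_cases hw : w ∈ tsupport ψ
    · rw [(h4 _ ⟨w, hw, rfl⟩).self_of_nhds, one_mul]
    · rw [hll.zero _ _ _ _ _ hw, mul_zero, mul_zero]
  have e2 : (fun w => ψ (c.h (g⁻¹ • c.k w)) * LL a11 a12 a22 (fun w => η w * P w) w) =
      fun _ => 0 := by
    funext w
    by_cases hw : w ∈ tsupport (fun w => η w * P w)
    · by_cases h0 : ψ (c.h (g⁻¹ • c.k w)) = 0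
      · rw [h0, zero_mul]
      · have h6 : w ∈ (fun w => c.h (g • c.k w)) '' tsupport ψ :=
          ⟨_, subset_tsupport _ h0, by
            simp only
            rw [c.kh _ (h3 (hs hw)), smul_inv_smul, c.hk]⟩
        have h7 : (fun w => η w * P w) =ᶠ[𝓝 w] P :=
          (h4 w h6).mono fun x hx => by simp only [hx, one_mul]
        rw [hll.congr _ _ _ _ _ _ h7, hP0, mul_zero]
    · rw [hll.zero _ _ _ _ _ hw, mul_zero]
  rw [e1, e2, integral_zero] at h5
  exact h5

end Vale.Agent.P198.PB
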