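import Vale.Agent.P198.B.TTrace
import Vale.Agent.P198.B.TNm
import Vale.Agent.P198.B.TInv
import Vale.Agent.P198.B.TUpper
import Vale.Agent.P198.B.TMb
import Vale.Agent.P198.B.TBlow
import Vale.Agent.P198.B.TLim
import Vale.Agent.P198.B.TLow
import Vale.Agent.P198.B.TKey
import Vale.Agent.P198.B.TEst
import Vale.Agent.P198.B.TEst1
import Vale.Agent.P198.B.TChain
import Vale.Agent.P198.B.TLam
import Vale.Agent.P198.B.TMoll
import Vale.Agent.P198.B.TLl
import Vale.Agent.P198.B.TNc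
import Vale.Agent.P198.B.TNc0
import Vale.Agent.P198.B.TQ1
import Vale.Agent.P198.B.TQ2
import Vale.Agent.P198.B.TNu
import Vale.Agent.P198.B.TDyn
import Vale.Agent.P198.B.TCes
import Vale.Agent.P198.B.TSum
import Vale.Agent.P198.B.TOvl
import Vale.Agent.P198.B.TSh
import Vale.Agent.P198.B.TEl
import Vale.Agent.P198.B.TEb
import Vale.Agent.P198.B.TBl
import Vale.Agent.P198.B.TRiesz
import Vale.Agent.P198.B.TLeb
import Vale.Agent.P198.B.TRep
import Vale.Agent.P198.B.TDl
import Vale.Agent.P198.B.TIbp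
import Vale.Agent.P198.B.TUc
import Vale.Agent.P198.B.TSym
import Vale.Agent.P198.B.TWeak
import Vale.Agent.P198.B.Asm

/-! Part II-b. -/

namespace Vale.Agent.P198

open PB

variable {G Z : Type*} [Group G] [MetricSpace Z] [MulAction G Z]

theorem partIIb [CompactSpace Z] (D : Dyn G Z) (E : Geo Z) : PartIIb G Z := by
  borelize Z
  have hne := D.ne
  have hmid := mid_pf E
  have hdyn := dyn_pf D
  have hces := ces_pf D bl_pf hdyn
  have hsh := fun N : NC D => sh_pf N hdyn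
  have hsum := fun N : NC D => sum_pf N (ovl_pf N)
  have heb := fun N : NC D => eb_pf N ll_pf hdyn hces (hsh N) (hsum N) (mbl_pf N)
  have hlam := fun S : Su D => lam_pf S bl_pf (hsh _) (hsum _) (el_pf S)
    (low_pf S hdyn (hsh _) (mbl_pf _) (el_pf S))
  have hest := fun S : Su D => est_pf S bl_pf ll_pf dl_pf (mbl_pf _) (el_pf S)
    (upper_pf S (trace_pf Z nm_pf) hdyn (hsh _) (ovl_pf _) (mbl_pf _) (el_pf S))
    (est1_pf S bl_pf ibp_pf (chain_pf S ll_pf (hsh _) (hsum _) (mbl_pf _) (el_pf S)) (hlam S))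
  exact asm D (nc0_pf (q1_pf E) (q2_pf hmid)) (nc_pf D E hmid) (nu_pf E) hsh
    (rep_pf riesz_pf leb_pf) hlam (fun N => blow_pf N hdyn (lim_pf (uc_pf _ _) (uc_pf _ _)))
    (fun S => sym_pf S ll_pf (el_pf S) (heb _)
      (inv_pf S bl_pf hdyn hces (mbl_pf _) (el_pf S) (heb _))
      (key_pf S ll_pf (hest S) (mb_pf _ (rnd_pf _ hdyn) moll_pf) (cvg_pf _)))
    (weak_pf D ll_pf)

end Vale.Agent.P198
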