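import Vale.Agent.P198.B.Defs

/-! Part II-b: interface statements (proof sketches in skel/P198/B.md). -/

open Set Metric Topology Filter MeasureTheory

namespace Vale.Agent.P198.PB

/-! ### Real analysis -/

structure S_bl : Prop where
  add : ∀ x y, Bdd x → Bdd y → BL (fun n => x n + y n) = BL x + BL y
  smul : ∀ (t : ℝ) x, Bdd x → BL (fun n => t * x n) = t * BL x
  const : ∀ t : ℝ, BL (fun _ => t) = t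
  le : ∀ x y, Bdd x → Bdd y → (∀ ε > 0, ∀ᶠ n in atTop, x n ≤ y n + ε) → BL x ≤ BL y
  abs_le : ∀ x (t : ℝ), (∀ ε > 0, ∀ᶠ n in atTop, |x n| ≤ t + ε) → Bdd x ∧ |BL x| ≤ t
  near : ∀ x y (t : ℝ), Bdd y → (∀ ε > 0, ∀ᶠ n in atTop, |x n - y n| ≤ t + ε) →
    Bdd x ∧ |BL x - BL y| ≤ t
  ces : ∀ x y, Bdd x → Bdd y → (∃ M, ∀ᶠ N in atTop,
    |∑ n ∈ Finset.range N, x n - ∑ n ∈ Finset.range N, y n| ≤ M) → BL x = BL y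
  badd : ∀ x y, Bdd x → Bdd y → Bdd fun n => x n + y n
  bsmul : ∀ (t : ℝ) x, Bdd x → Bdd fun n => t * x n

/-- Comparison of two disc means. -/
structure S_nm : Prop where
  cmp : ∀ (b : ℂ → ℝ) (p p' c : ℂ) (s s' s0 R : ℝ), ContDiff ℝ 1 b → 0 < s0 → s0 ≤ s → s0 ≤ s' →
    ‖p - c‖ + s ≤ R → ‖p' - c‖ + s' ≤ R →
    (Nm b p s - Nm b p' s') ^ 2 ≤
      ((‖p - p'‖ + |s - s'|) / s0) ^ 2 * ∫ w in ball c R, (dx b w ^ 2 + dy b w ^ 2)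
  lim : ∀ (b : ℂ → ℝ) (p : ℂ), Continuous b → Tendsto (Nm b p) (𝓝 0) (𝓝 (b p))

/-- Trace inequality for a Frostman measure. -/
def S_trace (α : Type*) [MeasurableSpace α] : Prop :=
  ∀ K C : ℝ, 2 ≤ K → ∃ K' : ℝ, 0 ≤ K' ∧ ∀ (μ : Measure α) (Φ : α → ℂ) (c : ℂ) (δ : ℝ) (b : ℂ → ℝ),
    IsFiniteMeasure μ → Measurable Φ → 0 < δ → (∀ᵐ x ∂μ, ‖Φ x - c‖ ≤ δ) → μ.real univ ≤ C →
    (∀ (j : ℕ) (w : ℂ), μ.real {x | ‖Φ x - w‖ ≤ δ / K ^ j} ≤ C / 2 ^ j) → ContDiff ℝ 1 b →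
    ∫ z : α × α, (b (Φ z.1) - b (Φ z.2)) ^ 2 ∂(μ.prod μ) ≤
      K' * ∫ w in ball c (2 * δ), (dx b w ^ 2 + dy b w ^ 2)

/-- Representation by a square integrable density. -/
def S_riesz : Prop := ∀ (c : ℂ) (ρ K : ℝ) (Λ : (ℂ → ℝ) → ℝ), Lin c ρ K Λ →
  ∃ A : ℂ → ℝ, MemLp A 2 volume ∧ ∀ a, Continuous a → Sup c ρ a → Λ a = ∫ p, a p * A p

/-- Lebesgue points in `L²`. -/
def S_leb : Prop := ∀ A : ℂ → ℝ, MemLp A 2 volume →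
  ∀ᵐ p : ℂ, Leb p (A p) fun a => ∫ w, a w * A w

def S_rep : Prop := ∀ (c : ℂ) (ρ K κ : ℝ) (Λ1 Λ2 Λ3 : (ℂ → ℝ) → ℝ), 0 < ρ → 0 < κ →
  Lin c ρ K Λ1 → Lin c ρ K Λ2 → Lin c ρ K Λ3 →
  (∀ a, Continuous a → Sup c ρ a → (∀ p, 0 ≤ a p) → ∀ s t : ℝ,
    κ * (s ^ 2 + t ^ 2) * ∫ p, a p ≤ s ^ 2 * Λ1 a + 2 * s * t * Λ2 a + t ^ 2 * Λ3 a) →
  ∃ (p0 : ℂ) (a11 a12 a22 : ℝ), ‖p0 - c‖ < ρ ∧ 0 < a11 ∧ a12 ^ 2 < a11 * a22 ∧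
    Leb p0 a11 Λ1 ∧ Leb p0 a12 Λ2 ∧ Leb p0 a22 Λ3

/-- Mollification. -/
def S_moll : Prop := ∃ K : ℝ, 0 ≤ K ∧ ∀ (U : ℂ → ℝ) (c : ℂ) (r : ℝ) (μ : Measure ℂ),
  IsFiniteMeasure μ → 0 < r → Continuous U → Sup c r U →
  (∃ ε0 > 0, ∀ ε, 0 < ε → ε ≤ ε0 → ∀ p p', ‖p' - p‖ ≤ ε →
    (U p' - U p) ^ 2 ≤ μ.real (ball p (2 * ε))) → Apx c (2 * r) U (K * μ.real univ)

/-- Approximations that are Cauchy for the energy. -/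
def S_dl : Prop := ∀ (U : ℂ → ℝ) (c : ℂ) (r M : ℝ), Apx c r U M → ∀ ε > 0,
  ∃ b, ContDiff ℝ 1 b ∧ Sup c r b ∧ Dir b ≤ M ∧ (∀ p, |b p - U p| ≤ ε) ∧ ∀ η > 0,
    ∃ b', ContDiff ℝ 1 b' ∧ Sup c r b' ∧ (∀ p, |b' p - U p| ≤ η) ∧ Dir (fun p => b' p - b p) ≤ ε

def S_ibp : Prop := ∀ (a11 a12 a22 : ℝ) (b ψ : ℂ → ℝ), ContDiff ℝ 1 b → ContDiff ℝ 2 ψ →
  HasCompactSupport ψ → ∫ p, b p * LL a11 a12 a22 ψ p =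
    -(a11 * (∫ p, dx b p * dx ψ p) + a12 * (∫ p, (dx b p * dy ψ p + dy b p * dx ψ p)) +
      a22 * ∫ p, dy b p * dy ψ p)

structure S_ll : Prop where
  congr : ∀ a11 a12 a22 (φ ψ : ℂ → ℝ) p, φ =ᶠ[𝓝 p] ψ → LL a11 a12 a22 φ p = LL a11 a12 a22 ψ p
  zero : ∀ a11 a12 a22 (ψ : ℂ → ℝ) p, p ∉ tsupport ψ → LL a11 a12 a22 ψ p = 0
  cont : ∀ a11 a12 a22 (ψ : ℂ → ℝ), ContDiff ℝ 2 ψ → Continuous (LL a11 a12 a22 ψ)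
  int : ∀ a11 a12 a22 (ψ U : ℂ → ℝ), ContDiff ℝ 2 ψ → HasCompactSupport ψ →
    ContinuousOn U (tsupport ψ) → Integrable fun p => U p * LL a11 a12 a22 ψ p
  sc_smooth : ∀ (k : ℕ) p0 (s : ℝ) (ψ : ℂ → ℝ), ContDiff ℝ k ψ → ContDiff ℝ k (sc p0 s ψ)
  sc_sup : ∀ p0 (s R : ℝ) (ψ : ℂ → ℝ), 0 < s → Sup 0 R ψ → Sup p0 (R * s) (sc p0 s ψ)
  sc_grad : ∀ p0 (s M : ℝ) (ψ : ℂ → ℝ), 0 < s → ContDiff ℝ 1 ψ →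
    (∀ p, |dx ψ p| ≤ M ∧ |dy ψ p| ≤ M) → ∀ p, |dx (sc p0 s ψ) p| ≤ M / s ∧ |dy (sc p0 s ψ) p| ≤ M / s
  sc_lip : ∀ p0 (s M : ℝ) (ψ : ℂ → ℝ), 0 < s → (∀ p p', |ψ p - ψ p'| ≤ M * ‖p - p'‖) →
    ∀ p p', |sc p0 s ψ p - sc p0 s ψ p'| ≤ M / s * ‖p - p'‖
  sc_int : ∀ a11 a12 a22 p0 (s : ℝ) (ψ U : ℂ → ℝ), 0 < s → ContDiff ℝ 2 ψ →
    ∫ p, U p * LL a11 a12 a22 (sc p0 s ψ) p = ∫ w : ℂ, U (p0 + s * w) * LL a11 a12 a22 ψ w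
  lip : ∀ ψ : ℂ → ℝ, ContDiff ℝ 1 ψ → HasCompactSupport ψ → ∃ M, 0 ≤ M ∧ (∀ p, |ψ p| ≤ M) ∧
    (∀ p, |dx ψ p| ≤ M ∧ |dy ψ p| ≤ M) ∧ ∀ p p', |ψ p - ψ p'| ≤ M * ‖p - p'‖
  taylor : ∀ b : ℂ → ℝ, ContDiff ℝ 1 b → HasCompactSupport b → ∀ ε > 0, ∃ δ > 0, ∀ p u v : ℂ,
    ‖u - p‖ ≤ δ → ‖v - p‖ ≤ δ →
    |b u - b v - (dx b p * (u.re - v.re) + dy b p * (u.im - v.im))| ≤ ε * ‖u - v‖

/-- Limit of a sequence of asymptotically equicontinuous charts. -/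
def S_lim (Z : Type*) [MetricSpace Z] : Prop :=
  ∀ (φ : ℕ → Z → ℂ) (κ : ℕ → ℂ → Z) (a : ℕ → Z),
    (∀ d > 0, ∃ K, ∀ᶠ k in atTop, ∀ y, d ≤ dist y (a k) → ‖φ k y‖ ≤ K ∧ κ k (φ k y) = y) →
    (∀ d > 0, ∀ ε > 0, ∃ θ > 0, ∀ᶠ k in atTop, ∀ y y', d ≤ dist y (a k) → d ≤ dist y' (a k) →
      dist y y' ≤ θ → ‖φ k y - φ k y'‖ ≤ ε) →
    (∀ R : ℝ, ∃ d > 0, ∀ᶠ k in atTop, ∀ w, ‖w‖ ≤ R → d ≤ dist (κ k w) (a k) ∧ φ k (κ k w) = w) →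
    (∀ R : ℝ, ∀ ε > 0, ∃ θ > 0, ∀ᶠ k in atTop, ∀ w w', ‖w‖ ≤ R → ‖w'‖ ≤ R → ‖w - w'‖ ≤ θ →
      dist (κ k w) (κ k w') ≤ ε) →
    ∃ ch : GCh Z, Tendsto a UF (𝓝 ch.b) ∧
      (∀ d > 0, ∀ ε > 0, ∀ᶠ k in UF, ∀ y, d ≤ dist y ch.b → ‖φ k y - ch.h y‖ ≤ ε) ∧
      ∀ R : ℝ, ∀ ε > 0, ∀ᶠ k in UF, ∀ w, ‖w‖ ≤ R → dist (κ k w) (ch.k w) ≤ ε

/-- Uniform convergence from pointwise convergence and asymptotic equicontinuity. -/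
def S_uc (α β : Type*) [MetricSpace α] [MetricSpace β] : Prop :=
  ∀ (F : ℕ → α → β) (F0 : α → β) (T : Set α), IsCompact T →
    (∀ x ∈ T, Tendsto (fun k => F k x) UF (𝓝 (F0 x))) →
    (∀ ε > 0, ∃ θ > 0, ∀ᶠ k in UF, ∀ x ∈ T, ∀ y ∈ T, dist x y ≤ θ → dist (F k x) (F k y) ≤ ε) →
    ContinuousOn F0 T ∧ ∀ ε > 0, ∀ᶠ k in UF, ∀ x ∈ T, dist (F k x) (F0 x) ≤ ε

/-! ### Geometry -/

variable {G Z : Type*} [Group G] [MetricSpace Z] [MulAction G Z]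

def S_nu (Z : Type*) [MetricSpace Z] [MeasurableSpace Z] : Prop := ∃ ν : Measure Z, Nu ν

/-- Weak quasisymmetry with an arbitrary ratio. -/
def S_q1 (Z : Type*) [MetricSpace Z] : Prop := ∀ c : Chart Z, ∃ r > 0, 2 * r ≤ c.r0 ∧
  ∀ L, ∃ K, 1 ≤ K ∧ QUp c.f (ball c.x0 r) L K

/-- Power growth and decay. -/
def S_q2 (Z : Type*) [MetricSpace Z] : Prop := ∀ (f : Z → ℂ) (x0 : Z) (r : ℝ),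
  (∀ L, ∃ K, 1 ≤ K ∧ QUp f (ball x0 (3 * r)) L K) →
  (∃ K, 1 ≤ K ∧ ∀ j : ℕ, QUp f (ball x0 r) (2 ^ j) (K ^ (j + 1))) ∧
    ∀ ε > 0, ∃ θ > 0, QUp f (ball x0 r) θ ε

def S_nc0 (Z : Type*) [MetricSpace Z] : Prop := Nonempty (Chart Z) → Nonempty (NC0 Z)

def S_nc (D : Dyn G Z) : Prop := Nonempty (NC0 Z) → Nonempty (NC D)

/-- Points at a prescribed distance. -/
def S_mid (Z : Type*) [MetricSpace Z] : Prop :=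
  ∀ (x y : Z) (t : ℝ), 0 ≤ t → t ≤ dist y x → ∃ z, dist z x = t

structure S_dyn (D : Dyn G Z) : Prop where
  sh : ∀ (g : G) (y : Z) (d : ℝ), 0 < d → d ≤ dist y (D.pt g⁻¹) →
    dist (g • y) (D.pt g) ≤ D.C / d * D.q ^ D.len g
  exp : ∀ (g : G) (x x' : Z), dist (g⁻¹ • x) (g⁻¹ • x') * D.q ^ D.len g ≤ D.C * dist x x'
  con : ∀ (g : G) (y y' : Z) (d : ℝ), 0 < d → d ≤ dist y (D.pt g⁻¹) → d ≤ dist y' (D.pt g⁻¹) →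
    dist (g • y) (g • y') ≤ D.C ^ 3 / d ^ 2 * dist y y' * D.q ^ D.len g
  far : ∀ L, 1 ≤ L → ∀ᶠ n in atTop, ∀ g, D.len g = n → ∀ x, dist x (D.pt g) ≤ L * D.q ^ n →
    1 / (D.C * L) ≤ dist (g⁻¹ • x) (D.pt g⁻¹)
  close : ∀ (h : G), ∀ ε > 0, ∀ᶠ n in atTop, ∀ g, D.len g = n →
    dist (D.pt (h * g)⁻¹) (D.pt g⁻¹) ≤ ε
  tri : ∀ L, ∃ K > 0, ∀ γ : G, ∃ r > 0, ∀ x y z : Z, dist y x ≤ r → dist y x ≤ L * dist z x →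
    dist (γ • y) (γ • x) ≤ K * dist (γ • z) (γ • x)
  len_le : ∀ h g : G, D.len g ≤ D.len (h * g) + D.len h

/-- Cesaro means over the levels are invariant under left translation. -/
def S_ces (D : Dyn G Z) : Prop := ∀ (t : G → ℝ) (h : G),
  (∃ M, ∀ᶠ n in atTop, ∑ g ∈ D.lev n, |t g| ≤ M) →
  (∃ M, ∀ᶠ n in atTop, ∑ g ∈ D.lev n, |t (h * g)| ≤ M) ∧
    BL (fun n => ∑ g ∈ D.lev n, t (h * g)) = BL fun n => ∑ g ∈ D.lev n, t g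

variable {D : Dyn G Z}

/-- Shadows of relevant and irrelevant nodes. -/
structure S_sh (N : NC D) : Prop where
  irr : ∀ d > 0, ∀ᶠ n in atTop, ∀ g ∈ D.lev n, g ∉ N.Rel n → ∀ y, d ≤ dist y (D.pt g⁻¹) →
    ∀ φ, Sup N.c N.ρ φ → N.ext φ (g • y) = 0
  rel : ∀ d > 0, ∃ K, 1 ≤ K ∧ ∀ᶠ n in atTop, ∀ g ∈ N.Rel n, ∀ y, d ≤ dist y (D.pt g⁻¹) →
    g • y ∈ N.B ∧ ‖N.f (g • y) - N.pg g‖ ≤ K * N.sg g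
  dsm : ∃ d > 0, ∀ᶠ n in atTop, ∀ g ∈ N.Rel n, ∀ x ∈ N.B, ‖N.f x - N.pg g‖ ≤ N.sg g →
    4 * d ≤ dist (g⁻¹ • x) (D.pt g⁻¹)

/-- Bounded overlap. -/
def S_ovl (N : NC D) : Prop := ∀ L : ℝ, ∃ M : ℝ, 0 ≤ M ∧ ∀ᶠ n in atTop, ∀ φ : ℂ → ℝ,
  Integrable φ → (∀ p, 0 ≤ φ p) →
  ∑ g ∈ N.Rel n, ∫ p in ball (N.pg g) (L * N.sg g), φ p ≤ M * ∫ p, φ p

/-- Riemann sums. -/
structure S_sum (N : NC D) : Prop where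
  tot : ∃ M, ∀ᶠ n in atTop, ∑ g ∈ N.Rel n, N.sg g ^ 2 ≤ M
  up : ∃ K, 0 ≤ K ∧ ∀ a, Continuous a → Sup N.c N.ρ a → ∀ ε > 0, ∀ᶠ n in atTop,
    ∑ g ∈ N.Rel n, |a (N.pg g)| * N.sg g ^ 2 ≤ K * (∫ p, |a p|) + ε
  low : ∃ κ > 0, ∀ a, Continuous a → Sup N.c N.ρ a → (∀ p, 0 ≤ a p) → ∀ ε > 0, ∀ᶠ n in atTop,
    κ * ∫ p, a p ≤ ∑ g ∈ N.Rel n, a (N.pg g) * N.sg g ^ 2 + ε

/-- Roundness of a group element read in the chart. -/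
def S_rnd (N : NC D) : Prop := ∃ K > 0, ∀ γ : G, ∃ r > 0, ∀ x y z : Z, x ∈ N.B →
  ‖N.f x - N.c‖ ≤ 3 * N.ρ → y ∈ N.B → dist y x ≤ r → γ • x ∈ N.B → γ • y ∈ N.B → γ • z ∈ N.B →
  (z ∈ N.B → ‖N.f y - N.f x‖ ≤ ‖N.f z - N.f x‖) →
  ‖N.f (γ • y) - N.f (γ • x)‖ ≤ K * ‖N.f (γ • z) - N.f (γ • x)‖

/-- Energy bound, uniform in the group element. -/
def S_mb (N : NC D) : Prop := ∃ K : ℝ, 0 ≤ K ∧ ∀ (γ : G) (φ : ℂ → ℝ) (p0 : ℂ) (r M : ℝ), 0 < r →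
  ‖p0 - N.c‖ + 2 * r ≤ N.ρ → Sup p0 r φ → (∀ p p', |φ p - φ p'| ≤ M * ‖p - p'‖) →
  (∀ x, N.ext φ (γ • x) ≠ 0 → x ∈ N.B ∧ ‖N.f x - p0‖ ≤ r) →
  ∃ U, Continuous U ∧ Sup p0 r U ∧ (∀ x, N.ext U x = N.ext φ (γ • x)) ∧
    Apx p0 (2 * r) U (K * (M * r) ^ 2)

def S_blow (N : NC D) : Prop := ∀ p0, ‖p0 - N.c‖ < N.ρ → Nonempty (Blow N p0)

/-- Convergence of the conjugated maps. -/
def S_cvg (N : NC D) : Prop := ∀ (p0 : ℂ) (W : Blow N p0) (γ : G) (T : Set ℂ), IsCompact T →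
  (∀ w ∈ T, γ • W.ch.k w ≠ W.ch.b) → ∀ ε > 0, ∀ᶠ k in UF, ∀ w ∈ T,
    W.cj γ k • N.fi (p0 + W.s k * w) ∈ N.B ∧
    ‖(N.f (W.cj γ k • N.fi (p0 + W.s k * w)) - p0) / W.s k - W.ch.h (γ • W.ch.k w)‖ ≤ ε

/-! ### The energy form -/

variable [MeasurableSpace Z]

structure S_mbl (N : NC D) : Prop where
  fm : Measurable N.fm
  ext : ∀ φ : ℂ → ℝ, Continuous φ → MB (N.ext φ)
  add : ∀ u v : Z → ℝ, MB u → MB v → MB fun x => u x + v x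
  sub : ∀ u v : Z → ℝ, MB u → MB v → MB fun x => u x - v x
  smul : ∀ (t : ℝ) (u : Z → ℝ), MB u → MB fun x => t * u x
  comp : ∀ (g : G) (u : Z → ℝ), MB u → MB fun x => u (g • x)

structure S_el (S : Su D) : Prop where
  wt : ∀ g, Continuous (S.wt g) ∧ ∀ x, 0 ≤ S.wt g x ∧ S.wt g x ≤ D.C ∧
    (dist x (D.pt g⁻¹) ≤ S.d → S.wt g x = 0)
  int : ∀ (g g' : G) (u v : Z → ℝ), MB u → MB v → Integrable (fun z : Z × Z => S.wt g z.1 * S.wt g z.2 *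
    ((u (g' • z.1) - u (g' • z.2)) * (v (g' • z.1) - v (g' • z.2)))) (S.ν.prod S.ν)
  symm : ∀ g u v, S.el g u v = S.el g v u
  add : ∀ g u u' v, MB u → MB u' → MB v →
    S.el g (fun x => u x + u' x) v = S.el g u v + S.el g u' v
  sub : ∀ g u u' v, MB u → MB u' → MB v →
    S.el g (fun x => u x - u' x) v = S.el g u v - S.el g u' v
  smul : ∀ g (t : ℝ) u v, S.el g (fun x => t * u x) v = t * S.el g u v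
  nonneg : ∀ g u, 0 ≤ S.el g u u
  osc : ∀ g u v (o o' : ℝ), 0 ≤ o → 0 ≤ o' → Osc D S.d g u o → Osc D S.d g v o' →
    |S.el g u v| ≤ S.K0 * (o * o')
  cs : ∀ u v n, MB u → MB v → |S.E1 u v n| ≤ √(S.E1 u u n) * √(S.E1 v v n)

structure S_eb (N : NC D) : Prop where
  ext : ∀ φ, ContDiff ℝ 1 φ → Sup N.c N.ρ φ → EB D (N.ext φ)
  comp : ∀ (h : G) u, EB D u → EB D fun x => u (h • x)

def S_inv (S : Su D) : Prop := ∀ (h : G) u v, EB D u → EB D v →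
  S.B1 (fun x => u (h • x)) (fun x => v (h • x)) = S.B1 u v

def S_upper (S : Su D) : Prop := ∃ K : ℝ, 0 ≤ K ∧ ∀ᶠ n in atTop, ∀ b, ContDiff ℝ 1 b →
  Sup S.c S.ρ b → S.E1 (S.ext b) (S.ext b) n ≤ K * Dir b

def S_chain (S : Su D) : Prop := ∀ b ψ, ContDiff ℝ 1 b → Sup S.c S.ρ b → ContDiff ℝ 1 ψ →
  Sup S.c S.ρ ψ → ∀ ε > 0, ∀ᶠ n in atTop,
    |S.E1 (S.ext b) (S.ext ψ) n - (S.En (S.ext fun p => dx b p * dx ψ p) S.X S.X n +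
      S.En (S.ext fun p => dx b p * dy ψ p + dy b p * dx ψ p) S.X S.Y n +
      S.En (S.ext fun p => dy b p * dy ψ p) S.Y S.Y n)| ≤ ε

def S_low (S : Su D) : Prop := ∃ κ > 0, ∀ᶠ n in atTop, ∀ g ∈ S.Rel n, ∀ s t : ℝ,
  κ * (s ^ 2 + t ^ 2) * S.sg g ^ 2 ≤
    s ^ 2 * S.el g S.X S.X + 2 * s * t * S.el g S.X S.Y + t ^ 2 * S.el g S.Y S.Y

structure S_lam (S : Su D) : Prop where
  bdd : ∀ a, Continuous a → Sup S.c S.ρ a → Bdd (S.En (S.ext a) S.X S.X) ∧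
    Bdd (S.En (S.ext a) S.X S.Y) ∧ Bdd (S.En (S.ext a) S.Y S.Y)
  lin : ∃ K, Lin S.c S.ρ K S.L11 ∧ Lin S.c S.ρ K S.L12 ∧ Lin S.c S.ρ K S.L22
  low : ∃ κ > 0, ∀ a, Continuous a → Sup S.c S.ρ a → (∀ p, 0 ≤ a p) → ∀ s t : ℝ,
    κ * (s ^ 2 + t ^ 2) * ∫ p, a p ≤ s ^ 2 * S.L11 a + 2 * s * t * S.L12 a + t ^ 2 * S.L22 a

/-- The estimate for smooth functions. -/
def S_est1 (S : Su D) : Prop := ∀ P : S.Pt, ∀ ε > 0, ∃ r0 > 0, ‖P.p0 - S.c‖ + r0 ≤ S.ρ ∧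
  ∀ r, 0 < r → r ≤ r0 → ∀ (b ψ : ℂ → ℝ) (M : ℝ), ContDiff ℝ 1 b → Sup P.p0 r b →
    ContDiff ℝ 2 ψ → Sup P.p0 r ψ → (∀ p, |dx ψ p| ≤ M ∧ |dy ψ p| ≤ M) →
    Bdd (S.E1 (S.ext b) (S.ext ψ)) ∧
    |S.B1 (S.ext b) (S.ext ψ) + ∫ p, b p * LL P.a11 P.a12 P.a22 ψ p| ≤ ε * r * M * √(Dir b)

/-- The estimate for limits of functions of bounded energy. -/
def S_est (S : Su D) : Prop := ∀ P : S.Pt, ∀ ε > 0, ∃ r0 > 0, ‖P.p0 - S.c‖ + r0 ≤ S.ρ ∧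
  ∀ r, 0 < r → r ≤ r0 → ∀ (U ψ : ℂ → ℝ) (E M : ℝ), Continuous U → Apx P.p0 r U E →
    ContDiff ℝ 2 ψ → Sup P.p0 r ψ → (∀ p, |dx ψ p| ≤ M ∧ |dy ψ p| ≤ M) →
    |S.B1 (S.ext U) (S.ext ψ) + ∫ p, U p * LL P.a11 P.a12 P.a22 ψ p| ≤ ε * r * M * √E

def S_key (S : Su D) : Prop := ∀ (P : S.Pt) (W : Blow S.toNC P.p0) (γ : G) (φ ψ : ℂ → ℝ),
  ContDiff ℝ 2 φ → HasCompactSupport φ → ContDiff ℝ 2 ψ → HasCompactSupport ψ →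
  (∀ w ∈ tsupport ψ, γ • W.ch.k w ≠ W.ch.b) → (∀ w ∈ tsupport φ, γ⁻¹ • W.ch.k w ≠ W.ch.b) →
  Tendsto (fun k => S.B1 (fun x => S.ext (sc P.p0 (W.s k) φ) (W.cj γ k • x))
      (S.ext (sc P.p0 (W.s k) ψ))) UF
    (𝓝 (-∫ w, φ (W.ch.h (γ • W.ch.k w)) * LL P.a11 P.a12 P.a22 ψ w))

/-- The symmetric identity in the limit. -/
def S_sym (S : Su D) : Prop := ∀ (P : S.Pt) (W : Blow S.toNC P.p0) (γ : G) (φ ψ : ℂ → ℝ),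
  ContDiff ℝ 2 φ → HasCompactSupport φ → ContDiff ℝ 2 ψ → HasCompactSupport ψ →
  (∀ w ∈ tsupport ψ, γ • W.ch.k w ≠ W.ch.b) → (∀ w ∈ tsupport φ, γ⁻¹ • W.ch.k w ≠ W.ch.b) →
  ∫ w, φ (W.ch.h (γ • W.ch.k w)) * LL P.a11 P.a12 P.a22 ψ w =
    ∫ w, ψ (W.ch.h (γ⁻¹ • W.ch.k w)) * LL P.a11 P.a12 P.a22 φ w

/-- The symmetric identity gives the weak equation. -/
def S_weak (G Z : Type*) [Group G] [MetricSpace Z] [MulAction G Z] : Prop :=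
  ∀ (c : GCh Z) (a11 a12 a22 : ℝ),
  (∀ (γ : G) (φ ψ : ℂ → ℝ), ContDiff ℝ 2 φ → HasCompactSupport φ → ContDiff ℝ 2 ψ →
    HasCompactSupport ψ → (∀ w ∈ tsupport ψ, γ • c.k w ≠ c.b) →
    (∀ w ∈ tsupport φ, γ⁻¹ • c.k w ≠ c.b) →
    ∫ w, φ (c.h (γ • c.k w)) * LL a11 a12 a22 ψ w =
      ∫ w, ψ (c.h (γ⁻¹ • c.k w)) * LL a11 a12 a22 φ w) → c.Weak G a11 a12 a22

end Vale.Agent.P198.PB
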