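import Vale.Agent.P198.B.Stm

open Set Metric Topology Filter MeasureTheory

namespace Vale.Agent.P198.PB

variable {G Z : Type*} [Group G] [MetricSpace Z] [MulAction G Z]

namespace IbpAux

theorem d_smooth {ψ : ℂ → ℝ} (h : ContDiff ℝ 2 ψ) (v : ℂ) :
    ContDiff ℝ 1 fun p => fderiv ℝ ψ p v :=
  (h.fderiv_right (m := 1) (by norm_num)).clm_apply contDiff_const

theorem d_cont {ψ : ℂ → ℝ} (h : ContDiff ℝ 1 ψ) (v : ℂ) : Continuous fun p => fderiv ℝ ψ p v :=
  (h.continuous_fderiv (by norm_num)).clm_apply continuous_const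

theorem intg {b g : ℂ → ℝ} (hb : Continuous b) (hg : Continuous g) (hc : HasCompactSupport g) :
    Integrable fun p => b p * g p :=
  (hb.mul hg).integrable_of_hasCompactSupport hc.mul_left

theorem ibp {b g : ℂ → ℝ} (hb : ContDiff ℝ 1 b) (hg : ContDiff ℝ 1 g) (hc : HasCompactSupport g)
    (v : ℂ) : ∫ p, b p * fderiv ℝ g p v = -∫ p, fderiv ℝ b p v * g p :=
  integral_mul_fderiv_eq_neg_fderiv_mul_of_integrable (intg (d_cont hb v) hg.continuous hc)
    (intg hb.continuous (d_cont hg v) (hc.fderiv_apply ℝ v)) (intg hb.continuous hg.continuous hc)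
    (fun x _ => hb.differentiable (by norm_num) x) fun x _ => hg.differentiable (by norm_num) x

theorem symm {ψ : ℂ → ℝ} (h : ContDiff ℝ 2 ψ) (p : ℂ) : dy (dx ψ) p = dx (dy ψ) p := by
  have hd : DifferentiableAt ℝ (fderiv ℝ ψ) p :=
    (h.fderiv_right (m := 1) (by norm_num)).differentiable (by norm_num) p
  have key : ∀ v w : ℂ, fderiv ℝ (fun q => fderiv ℝ ψ q v) p w = fderiv ℝ (fderiv ℝ ψ) p w v := by
    intro v w
    rw [fderiv_clm_apply hd (differentiableAt_const v)]
    simp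
  have hs : IsSymmSndFDerivAt ℝ ψ p := h.contDiffAt.isSymmSndFDerivAt (by simp)
  show fderiv ℝ (fun q => fderiv ℝ ψ q 1) p Complex.I =
    fderiv ℝ (fun q => fderiv ℝ ψ q Complex.I) p 1
  rw [key, key]
  exact hs _ _

end IbpAux

open IbpAux in
theorem ibp_pf : S_ibp := by
  intro a11 a12 a22 b ψ hb hψ hc
  have sx : ContDiff ℝ 1 (dx ψ) := d_smooth hψ 1
  have sy : ContDiff ℝ 1 (dy ψ) := d_smooth hψ Complex.I
  have cx : HasCompactSupport (dx ψ) := hc.fderiv_apply ℝ 1
  have cy : HasCompactSupport (dy ψ) := hc.fderiv_apply ℝ Complex.I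
  have e1 : ∫ p, b p * dx (dx ψ) p = -∫ p, dx b p * dx ψ p := ibp hb sx cx 1
  have e2 : ∫ p, b p * dx (dy ψ) p = -∫ p, dx b p * dy ψ p := ibp hb sy cy 1
  have e3 : ∫ p, b p * dy (dx ψ) p = -∫ p, dy b p * dx ψ p := ibp hb sx cx Complex.I
  have e4 : ∫ p, b p * dy (dy ψ) p = -∫ p, dy b p * dy ψ p := ibp hb sy cy Complex.I
  simp only [symm hψ] at e3
  have i1 : Integrable fun p => b p * dx (dx ψ) p :=
    intg hb.continuous (d_cont sx 1) (cx.fderiv_apply ℝ 1)
  have i2 : Integrable fun p => b p * dx (dy ψ) p :=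
    intg hb.continuous (d_cont sy 1) (cy.fderiv_apply ℝ 1)
  have i4 : Integrable fun p => b p * dy (dy ψ) p :=
    intg hb.continuous (d_cont sy Complex.I) (cy.fderiv_apply ℝ Complex.I)
  have j2 : Integrable fun p => dx b p * dy ψ p := intg (d_cont hb 1) sy.continuous cy
  have j3 : Integrable fun p => dy b p * dx ψ p := intg (d_cont hb Complex.I) sx.continuous cx
  have e : (fun p => b p * LL a11 a12 a22 ψ p) = fun p =>
      a11 * (b p * dx (dx ψ) p) + 2 * a12 * (b p * dx (dy ψ) p) + a22 * (b p * dy (dy ψ) p) := by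
    funext p
    unfold LL
    ring
  have k1 : Integrable fun p => a11 * (b p * dx (dx ψ) p) + 2 * a12 * (b p * dx (dy ψ) p) :=
    (i1.const_mul _).add (i2.const_mul _)
  rw [e, integral_add k1 (i4.const_mul _), integral_add (i1.const_mul _) (i2.const_mul _),
    integral_const_mul, integral_const_mul, integral_const_mul, integral_add j2 j3, e1, e4]
  linear_combination a12 * e2 + a12 * e3

end Vale.Agent.P198.PB
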