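import Vale.Agent.P198.B.Stm

open Set Metric Topology Filter MeasureTheory

namespace Vale.Agent.P198.PB

namespace NcAux

variable {Z : Type*} [MetricSpace Z]

theorem exists_e (E : Geo Z) (hmid : S_mid Z) :
    ∃ e : Z → ℝ → Z, ∀ x t, 0 ≤ t → t ≤ E.d0 → dist (e x t) x = t := by
  have h : ∀ (x : Z) (t : ℝ), ∃ z, 0 ≤ t → t ≤ E.d0 → dist z x = t := by
    intro x t
    by_cases h : 0 ≤ t ∧ t ≤ E.d0
    · obtain ⟨y, hy⟩ := E.two x
      obtain ⟨z, hz⟩ := hmid x y t h.1 (h.2.trans hy)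
      exact ⟨z, fun _ _ => hz⟩
    · exact ⟨x, fun h1 h2 => absurd ⟨h1, h2⟩ h⟩
  choose e he using h
  exact ⟨e, he⟩

theorem dn (N : NC0 Z) : ∃ L > 0, ∀ x ∈ N.B, ∀ y ∈ N.B, ∀ z ∈ N.B,
    ‖N.f y - N.f x‖ ≤ ‖N.f z - N.f x‖ → dist y x ≤ L * dist z x := by
  obtain ⟨θ, hθ, h⟩ := N.dec (1 / 2) (by norm_num)
  refine ⟨θ⁻¹, inv_pos.2 hθ, fun x hx y hy z hz h1 => ?_⟩
  by_contra h2
  push Not at h2
  have h3 : dist z x ≤ θ * dist y x := by
    rw [inv_mul_lt_iff₀ hθ] at h2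
    exact h2.le
  have h4 := h x hx z hz y hy h3
  have h5 : ‖N.f y - N.f x‖ = 0 :=
    le_antisymm (by linarith [norm_nonneg (N.f z - N.f x)]) (norm_nonneg _)
  have h6 : y = x := N.inj hy hx (sub_eq_zero.1 (norm_eq_zero.1 h5))
  rw [h6, dist_self] at h2
  exact absurd h2 (not_lt.2 (mul_nonneg (inv_pos.2 hθ).le dist_nonneg))

theorem sz_pos (N : NC0 Z) {x u : Z} {t : ℝ} (hx : x ∈ N.B) (hu : u ∈ N.B) (ht : 0 < t)
    (h : dist u x = t) : 0 < ‖N.f u - N.f x‖ := by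
  refine norm_pos_iff.2 (sub_ne_zero.2 fun h1 => ?_)
  rw [N.inj hu hx h1, dist_self] at h
  exact ht.ne h

/-- Comparison of the sizes at two close points. -/
theorem cmp (N : NC0 Z) {L K t : ℝ} (hK : QUp N.f N.B (L + 1) K) {x y u v : Z} (hx : x ∈ N.B)
    (hy : y ∈ N.B) (hu : u ∈ N.B) (hv : v ∈ N.B) (ht : 0 < t) (h1 : dist u x = t)
    (h2 : dist v y = t) (h3 : dist y x ≤ L * t) :
    ‖N.f v - N.f y‖ ≤ 2 * K * ‖N.f u - N.f x‖ ∧ ‖N.f u - N.f x‖ ≤ 2 * K * ‖N.f v - N.f y‖ := by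
  constructor
  · have a1 := hK x hx v hv u hu (by
      rw [h1]
      linarith [dist_triangle v y x])
    have a2 := hK x hx y hy u hu (by
      rw [h1]
      linarith)
    have a3 := norm_sub_le_norm_sub_add_norm_sub (N.f v) (N.f x) (N.f y)
    rw [norm_sub_rev (N.f x)] at a3
    linarith
  · have a1 := hK y hy u hu v hv (by
      rw [h2]
      linarith [dist_triangle u x y, dist_comm x y])
    have a2 := hK y hy x hx v hv (by
      rw [h2]
      linarith [dist_comm x y])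
    have a3 := norm_sub_le_norm_sub_add_norm_sub (N.f u) (N.f y) (N.f x)
    rw [norm_sub_rev (N.f y)] at a3
    linarith

theorem sep_num {K0 K1 s a b : ℝ} (h0 : 1 ≤ K0) (h1 : 1 ≤ K1) (hs : 0 < s) (j : ℕ)
    (h2 : s ≤ 2 * K1 * a) (h3 : a ≤ K0 ^ (j + 1) * b) (h4 : b ≤ s / (4 * K1 * K0) ^ (j + 1)) :
    False := by
  have p0 : 0 < K0 ^ (j + 1) := by positivity
  have p1 : 4 * K1 ≤ (4 * K1) ^ (j + 1) := le_self_pow₀ (by linarith) (Nat.succ_ne_zero j)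
  have p2 : K0 ^ (j + 1) * b ≤ s / (4 * K1) := by
    calc K0 ^ (j + 1) * b ≤ K0 ^ (j + 1) * (s / (4 * K1 * K0) ^ (j + 1)) :=
          mul_le_mul_of_nonneg_left h4 p0.le
      _ = s / (4 * K1) ^ (j + 1) := by
          rw [mul_pow (4 * K1)]
          field_simp
      _ ≤ s / (4 * K1) := div_le_div_of_nonneg_left hs.le (by linarith) p1
  have p3 : 2 * K1 * a ≤ 2 * K1 * (s / (4 * K1)) :=
    mul_le_mul_of_nonneg_left (h3.trans p2) (by linarith)
  have p4 : 2 * K1 * (s / (4 * K1)) = s / 2 := by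
    field_simp
    ring
  linarith

end NcAux

variable {G Z : Type*} [Group G] [MetricSpace Z] [MulAction G Z]

theorem nc_pf (D : Dyn G Z) (E : Geo Z) (hmid : S_mid Z) : S_nc D := by
  rintro ⟨N⟩
  obtain ⟨e, he⟩ := NcAux.exists_e E hmid
  obtain ⟨r, hr, hins⟩ := N.ins
  have hq := D.qpow_pos
  have ev : ∀ L : ℝ, ∀ᶠ n in atTop, (∀ x, dist (e x (D.q ^ n)) x = D.q ^ n) ∧
      ∀ x ∈ N.B, ‖N.f x - N.c‖ ≤ 3 * N.ρ → ∀ y, dist y x ≤ L * D.q ^ n →
        y ∈ N.B ∧ e y (D.q ^ n) ∈ N.B := by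
    intro L
    filter_upwards [D.ev_small 1 _ E.d0_pos, D.ev_small (L + 1) _ hr] with n h1 h2
    have h3 : ∀ x, dist (e x (D.q ^ n)) x = D.q ^ n := fun x => he x _ (hq n).le (by linarith)
    refine ⟨h3, fun x hx hc y hy => ⟨hins x hx hc ?_, hins x hx hc ?_⟩⟩
    · rw [mem_ball]
      linarith [hq n]
    · rw [mem_ball]
      linarith [dist_triangle (e y (D.q ^ n)) y x, h3 y]
  have ev0 : ∀ᶠ n in atTop, ∀ x ∈ N.B, ‖N.f x - N.c‖ ≤ 3 * N.ρ →
      dist (e x (D.q ^ n)) x = D.q ^ n ∧ e x (D.q ^ n) ∈ N.B ∧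
        0 < ‖N.f (e x (D.q ^ n)) - N.f x‖ := by
    filter_upwards [ev 0] with n h x hx hc
    have h1 := (h.2 x hx hc x (by simp)).2
    exact ⟨h.1 x, h1, NcAux.sz_pos N hx h1 (hq n) (h.1 x)⟩
  refine ⟨{ N with
    sz := fun x n => ‖N.f (e x (D.q ^ n)) - N.f x‖
    dn := NcAux.dn N
    pos := ev0.mono fun n h x hx hc => (h x hx hc).2.2
    tiny := ?_, out := ?_, inn := ?_, small := ?_, sep := ?_ }⟩
  · intro ε hε
    obtain ⟨M, hM⟩ := N.bdd
    have hM1 : 0 < 2 * |M| + 1 := by positivity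
    obtain ⟨θ, hθ, h⟩ := N.dec (ε / (2 * |M| + 1)) (div_pos hε hM1)
    have hs : 0 < min (r / 2) E.d0 := lt_min (half_pos hr) E.d0_pos
    filter_upwards [ev0, D.ev_small 1 _ (mul_pos hθ hs)] with n h1 h2 x hx hc
    obtain ⟨a1, a2, -⟩ := h1 x hx hc
    have a3 := he x _ hs.le (min_le_right _ _)
    have a4 : e x (min (r / 2) E.d0) ∈ N.B := hins x hx hc (by
      rw [mem_ball, a3]
      linarith [min_le_left (r / 2) E.d0])
    have a5 := h x hx _ a2 _ a4 (by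
      rw [a1, a3]
      linarith)
    have a6 : ‖N.f (e x (min (r / 2) E.d0)) - N.f x‖ ≤ 2 * |M| + 1 := by
      linarith [norm_sub_le (N.f (e x (min (r / 2) E.d0))) (N.f x), hM _ a4, hM _ hx,
        le_abs_self M]
    refine a5.trans ((mul_le_mul_of_nonneg_left a6 (div_pos hε hM1).le).trans ?_)
    rw [div_mul_cancel₀ _ hM1.ne']
  · intro L
    obtain ⟨K, hK, h⟩ := N.up L
    refine ⟨K, hK, ?_⟩
    filter_upwards [ev0, ev L] with n h1 h2 x hx hc y hy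
    obtain ⟨a1, a2, -⟩ := h1 x hx hc
    have a3 := (h2.2 x hx hc y hy).1
    exact ⟨a3, h x hx y a3 _ a2 (by rwa [a1])⟩
  · intro L
    have hL : 0 < max L 1 := lt_max_of_lt_right one_pos
    obtain ⟨θ, hθ, h⟩ := N.dec (1 / (2 * max L 1)) (by positivity)
    refine ⟨max 1 θ⁻¹, le_max_left _ _, ?_⟩
    filter_upwards [ev0] with n h1 x hx hc y hy h2
    obtain ⟨a1, a2, a3⟩ := h1 x hx hc
    by_contra h3
    push Not at h3
    have h4 : θ⁻¹ * D.q ^ n < dist y x :=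
      (mul_le_mul_of_nonneg_right (le_max_right _ _) (hq n).le).trans_lt h3
    rw [inv_mul_lt_iff₀ hθ] at h4
    have h5 := h x hx _ a2 y hy (by
      rw [a1]
      exact h4.le)
    have h6 : ‖N.f y - N.f x‖ ≤ max L 1 * ‖N.f (e x (D.q ^ n)) - N.f x‖ :=
      h2.trans (mul_le_mul_of_nonneg_right (le_max_left _ _) a3.le)
    have h7 := h5.trans (mul_le_mul_of_nonneg_left h6 (by positivity))
    have h8 : 1 / (2 * max L 1) * (max L 1 * ‖N.f (e x (D.q ^ n)) - N.f x‖) =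
        ‖N.f (e x (D.q ^ n)) - N.f x‖ / 2 := by
      field_simp
    linarith
  · intro L ε hε
    obtain ⟨K, hK, h⟩ := N.up (L + 1)
    have hK0 : 0 < 2 * K := by linarith
    obtain ⟨θ, hθ, h'⟩ := N.dec (ε / (2 * K)) (div_pos hε hK0)
    refine ⟨θ, hθ, ?_⟩
    filter_upwards [ev0, ev L] with n h1 h2 x hx hc y y' hy hy' hd
    obtain ⟨a1, a2, -⟩ := h1 x hx hc
    obtain ⟨b1, b2⟩ := h2.2 x hx hc y hy
    have b3 := (h2.2 x hx hc y' hy').1
    have c1 := (NcAux.cmp N h hx b1 a2 b2 (hq n) a1 (h2.1 y) hy).1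
    have c2 := h' y b1 y' b3 _ b2 (by
      rw [h2.1 y, dist_comm]
      exact hd)
    rw [norm_sub_rev]
    refine c2.trans ((mul_le_mul_of_nonneg_left c1 (div_pos hε hK0).le).trans (le_of_eq ?_))
    rw [← mul_assoc, div_mul_cancel₀ _ hK0.ne']
  · intro L
    obtain ⟨K, hK, h⟩ := N.up (L + 1)
    obtain ⟨K0, hK0, h'⟩ := N.pw
    refine ⟨4 * K * K0, by nlinarith, ?_⟩
    filter_upwards [ev0, ev L] with n h1 h2 x hx hc y y' j hy hy' hd
    obtain ⟨a1, a2, a3⟩ := h1 x hx hc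
    obtain ⟨b1, b2⟩ := h2.2 x hx hc y hy
    have b3 := (h2.2 x hx hc y' hy').1
    have c1 := (NcAux.cmp N h hx b1 a2 b2 (hq n) a1 (h2.1 y) hy).2
    by_contra h3
    push Not at h3
    rw [div_lt_iff₀ (by positivity)] at h3
    have c2 := h' j y b1 _ b2 y' b3 (by
      rw [h2.1 y, dist_comm, mul_comm]
      exact h3.le)
    rw [norm_sub_rev] at hd
    exact NcAux.sep_num hK0 hK a3 j c1 c2 hd

end Vale.Agent.P198.PB
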