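import Vale.Agent.P198.B.Stm

open Set Metric Topology Filter MeasureTheory

namespace Vale.Agent.P198.PB

variable {G Z : Type*} [Group G] [MetricSpace Z] [MulAction G Z]

namespace TraceAux

/-- The energy density. -/
noncomputable def en (b : ℂ → ℝ) (w : ℂ) : ℝ := dx b w ^ 2 + dy b w ^ 2

theorem en_nonneg (b : ℂ → ℝ) (w : ℂ) : 0 ≤ en b w := by unfold en; positivity

theorem en_cont {b : ℂ → ℝ} (hb : ContDiff ℝ 1 b) : Continuous (en b) :=
  ((cont_dx hb).pow 2).add ((cont_dy hb).pow 2)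

theorem en_int {b : ℂ → ℝ} (hb : ContDiff ℝ 1 b) (p : ℂ) (r : ℝ) :
    IntegrableOn (en b) (ball p r) :=
  ((en_cont hb).continuousOn.integrableOn_compact (isCompact_closedBall p r)).mono_set
    ball_subset_closedBall

theorem en_lint {b : ℂ → ℝ} (hb : ContDiff ℝ 1 b) (p : ℂ) (r : ℝ) :
    ENNReal.ofReal (∫ w in ball p r, en b w) = ∫⁻ w in ball p r, ENNReal.ofReal (en b w) :=
  ofReal_integral_eq_lintegral_ofReal (en_int hb p r) (ae_of_all _ (en_nonneg b))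

/-- The energy measure. -/
noncomputable def nu (b : ℂ → ℝ) (c : ℂ) (r : ℝ) : Measure ℂ :=
  (volume.restrict (ball c r)).withDensity fun w => ENNReal.ofReal (en b w)

theorem nu_univ {b : ℂ → ℝ} (hb : ContDiff ℝ 1 b) (c : ℂ) (r : ℝ) :
    nu b c r univ = ENNReal.ofReal (∫ w in ball c r, en b w) := by
  rw [en_lint hb, nu, withDensity_apply _ MeasurableSet.univ, Measure.restrict_univ]

theorem nu_ge {b : ℂ → ℝ} (hb : ContDiff ℝ 1 b) {c p : ℂ} {r s : ℝ} (h : ‖p - c‖ + s ≤ r) :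
    ENNReal.ofReal (∫ w in ball p s, en b w) ≤ nu b c r {w | ‖p - w‖ ≤ s} := by
  have h1 : ball p s ⊆ {w | ‖p - w‖ ≤ s} := fun w hw => (mem_ball_iff_norm'.1 hw).le
  have h2 : ball p s ⊆ ball c r := ball_subset_ball' (by rw [dist_eq_norm]; linarith)
  refine le_trans (le_of_eq ?_) (measure_mono h1)
  rw [en_lint hb, nu, withDensity_apply _ measurableSet_ball,
    Measure.restrict_restrict measurableSet_ball, inter_eq_left.2 h2]

theorem cs (d : ℕ → ℝ) (J : ℕ) :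
    (∑ j ∈ Finset.range J, d j) ^ 2 ≤ 4 * ∑ j ∈ Finset.range J, (4 / 3 : ℝ) ^ j * d j ^ 2 := by
  have h1 := Finset.sum_sq_le_sum_mul_sum_of_sq_le_mul (Finset.range J) (r := d)
    (f := fun j => (3 / 4 : ℝ) ^ j) (g := fun j => (4 / 3 : ℝ) ^ j * d j ^ 2)
    (fun j _ => by positivity) (fun j _ => by positivity) fun j _ => by
      rw [← mul_assoc, ← mul_pow]
      norm_num
  have h2 : ∑ j ∈ Finset.range J, (3 / 4 : ℝ) ^ j ≤ 4 := by
    have h3 := (summable_geometric_of_lt_one (r := (3 / 4 : ℝ)) (by norm_num)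
      (by norm_num)).sum_le_tsum (Finset.range J) fun j _ => by positivity
    rw [tsum_geometric_of_lt_one (by norm_num) (by norm_num)] at h3
    exact h3.trans (by norm_num)
  exact h1.trans (mul_le_mul_of_nonneg_right h2 (Finset.sum_nonneg fun j _ => by positivity))

theorem step (hnm : S_nm) {b : ℂ → ℝ} (hb : ContDiff ℝ 1 b) {K δ : ℝ} (hK : 2 ≤ K) (hδ : 0 < δ)
    (p : ℂ) (j : ℕ) : (Nm b p (δ / K ^ j) - Nm b p (δ / K ^ (j + 1))) ^ 2 ≤
      K ^ 2 * ∫ w in ball p (δ / K ^ j), en b w := by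
  have hK0 : 0 < K := by linarith
  have h0 : 0 < δ / K ^ (j + 1) := by positivity
  have e : δ / K ^ j = K * (δ / K ^ (j + 1)) := by
    rw [pow_succ]
    field_simp
  have h1 : δ / K ^ (j + 1) ≤ δ / K ^ j := by rw [e]; nlinarith
  have h2 := hnm.cmp b p p p (δ / K ^ j) (δ / K ^ (j + 1)) (δ / K ^ (j + 1)) (δ / K ^ j) hb h0 h1
    le_rfl (by simp) (by simpa using h1)
  refine h2.trans (mul_le_mul_of_nonneg_right ?_ (integral_nonneg (en_nonneg b)))
  rw [sub_self, norm_zero, zero_add, abs_of_nonneg (sub_nonneg.2 h1)]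
  refine pow_le_pow_left₀ (div_nonneg (sub_nonneg.2 h1) h0.le) ?_ 2
  rw [div_le_iff₀ h0, ← e]
  linarith

/-- The majorant. -/
noncomputable def gg (ν : Measure ℂ) (K δ : ℝ) (p : ℂ) : ENNReal :=
  ∑' j : ℕ, ENNReal.ofReal (4 * K ^ 2 * (4 / 3) ^ j) * ν {w | ‖p - w‖ ≤ δ / K ^ j}

theorem tail (hnm : S_nm) {b : ℂ → ℝ} (hb : ContDiff ℝ 1 b) {K δ : ℝ} (hK : 2 ≤ K) (hδ : 0 < δ)
    {c p : ℂ} (hp : ‖p - c‖ ≤ δ) :
    ENNReal.ofReal ((Nm b p δ - b p) ^ 2) ≤ gg (nu b c (2 * δ)) K δ p := by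
  have hK1 : 1 < K := by linarith
  have h1 : Tendsto (fun J : ℕ => δ / K ^ J) atTop (𝓝 0) :=
    tendsto_const_nhds.div_atTop (tendsto_pow_atTop_atTop_of_one_lt hK1)
  have h2 : Tendsto (fun J : ℕ => ENNReal.ofReal ((Nm b p δ - Nm b p (δ / K ^ J)) ^ 2)) atTop
      (𝓝 (ENNReal.ofReal ((Nm b p δ - b p) ^ 2))) :=
    ENNReal.tendsto_ofReal
      ((tendsto_const_nhds.sub ((hnm.lim b p hb.continuous).comp h1)).pow 2)
  refine le_of_tendsto' h2 fun J => ?_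
  have h3 := cs (fun j => Nm b p (δ / K ^ j) - Nm b p (δ / K ^ (j + 1))) J
  rw [Finset.sum_range_sub' fun j => Nm b p (δ / K ^ j), pow_zero, div_one, Finset.mul_sum] at h3
  refine (ENNReal.ofReal_le_ofReal h3).trans ?_
  rw [ENNReal.ofReal_sum_of_nonneg fun j _ => by positivity]
  refine le_trans (Finset.sum_le_sum fun j _ => ?_) (ENNReal.sum_le_tsum (Finset.range J))
  have h4 : δ / K ^ j ≤ δ := div_le_self hδ.le (one_le_pow₀ hK1.le)
  refine le_trans ?_ (mul_le_mul_right (nu_ge hb (c := c) (p := p) (r := 2 * δ)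
    (s := δ / K ^ j) (by linarith)) _)
  rw [← ENNReal.ofReal_mul (by positivity)]
  refine ENNReal.ofReal_le_ofReal ?_
  have h5 := mul_le_mul_of_nonneg_left (step hnm hb hK hδ p j)
    (by positivity : (0 : ℝ) ≤ 4 * (4 / 3) ^ j)
  linarith

theorem mid (hnm : S_nm) {b : ℂ → ℝ} (hb : ContDiff ℝ 1 b) {δ : ℝ} (hδ : 0 < δ)
    {c p p' : ℂ} (hp : ‖p - c‖ ≤ δ) (hp' : ‖p' - c‖ ≤ δ) :
    (Nm b p δ - Nm b p' δ) ^ 2 ≤ 4 * ∫ w in ball c (2 * δ), en b w := by
  have h2 := hnm.cmp b p p' c δ δ δ (2 * δ) hb hδ le_rfl le_rfl (by linarith) (by linarith)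
  refine h2.trans (mul_le_mul_of_nonneg_right ?_ (integral_nonneg (en_nonneg b)))
  rw [sub_self, abs_zero, add_zero]
  have h3 : ‖p - p'‖ / δ ≤ 2 := by
    rw [div_le_iff₀ hδ]
    have h4 := norm_sub_le_norm_sub_add_norm_sub p c p'
    rw [norm_sub_rev c p'] at h4
    linarith
  have h5 := pow_le_pow_left₀ (div_nonneg (norm_nonneg _) hδ.le) h3 2
  linarith

theorem point (hnm : S_nm) {b : ℂ → ℝ} (hb : ContDiff ℝ 1 b) {K δ : ℝ} (hK : 2 ≤ K) (hδ : 0 < δ)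
    {c p p' : ℂ} (hp : ‖p - c‖ ≤ δ) (hp' : ‖p' - c‖ ≤ δ) :
    ENNReal.ofReal ((b p - b p') ^ 2) ≤ 3 * gg (nu b c (2 * δ)) K δ p
      + ENNReal.ofReal (12 * ∫ w in ball c (2 * δ), en b w) + 3 * gg (nu b c (2 * δ)) K δ p' := by
  have h1 := mid hnm hb hδ hp hp'
  have h2 : (b p - b p') ^ 2 ≤ 3 * (Nm b p δ - b p) ^ 2 + 12 * (∫ w in ball c (2 * δ), en b w)
      + 3 * (Nm b p' δ - b p') ^ 2 := by
    nlinarith [sq_nonneg (Nm b p δ - b p + (Nm b p δ - Nm b p' δ)),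
      sq_nonneg (Nm b p δ - b p + (Nm b p' δ - b p')),
      sq_nonneg (Nm b p δ - Nm b p' δ - (Nm b p' δ - b p'))]
  refine (ENNReal.ofReal_le_ofReal h2).trans (ENNReal.ofReal_add_le.trans ?_)
  refine add_le_add (ENNReal.ofReal_add_le.trans (add_le_add ?_ le_rfl)) ?_
  · rw [ENNReal.ofReal_mul (by norm_num), ENNReal.ofReal_ofNat]
    exact mul_le_mul_right (tail hnm hb hK hδ hp) _
  · rw [ENNReal.ofReal_mul (by norm_num), ENNReal.ofReal_ofNat]
    exact mul_le_mul_right (tail hnm hb hK hδ hp') _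

variable {α : Type*} [MeasurableSpace α]

theorem mset {Φ : α → ℂ} (hΦ : Measurable Φ) (s : ℝ) :
    MeasurableSet {z : α × ℂ | ‖Φ z.1 - z.2‖ ≤ s} :=
  measurableSet_le ((hΦ.comp measurable_fst).sub measurable_snd).norm measurable_const

theorem mnu {Φ : α → ℂ} (hΦ : Measurable Φ) (ν : Measure ℂ) [SFinite ν] (s : ℝ) :
    Measurable fun x => ν {w | ‖Φ x - w‖ ≤ s} :=
  measurable_measure_prodMk_left (mset hΦ s)

theorem mgg {Φ : α → ℂ} (hΦ : Measurable Φ) (ν : Measure ℂ) [SFinite ν] (K δ : ℝ) :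
    Measurable fun x => gg ν K δ (Φ x) :=
  Measurable.ennreal_tsum fun _ => (mnu hΦ ν _).const_mul _

theorem fub {Φ : α → ℂ} (hΦ : Measurable Φ) (μ : Measure α) [IsFiniteMeasure μ]
    (ν : Measure ℂ) [SFinite ν] {s t : ℝ} (h : ∀ w, μ.real {x | ‖Φ x - w‖ ≤ s} ≤ t) :
    ∫⁻ x, ν {w | ‖Φ x - w‖ ≤ s} ∂μ ≤ ENNReal.ofReal t * ν univ := by
  have h1 := Measure.prod_apply (μ := μ) (ν := ν) (mset hΦ s)
  have h2 := Measure.prod_apply_symm (μ := μ) (ν := ν) (mset hΦ s)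
  refine (h1.symm.trans h2).le.trans ?_
  rw [← lintegral_const]
  refine lintegral_mono fun w => ?_
  rw [← ofReal_measureReal (measure_ne_top μ _)]
  exact ENNReal.ofReal_le_ofReal (h w)

theorem int_gg {Φ : α → ℂ} (hΦ : Measurable Φ) (μ : Measure α) [IsFiniteMeasure μ]
    (ν : Measure ℂ) [SFinite ν] {K C δ : ℝ} (hC : 0 ≤ C)
    (h : ∀ (j : ℕ) (w : ℂ), μ.real {x | ‖Φ x - w‖ ≤ δ / K ^ j} ≤ C / 2 ^ j) :
    ∫⁻ x, gg ν K δ (Φ x) ∂μ ≤ ENNReal.ofReal (12 * K ^ 2 * C) * ν univ := by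
  unfold gg
  rw [lintegral_tsum fun j => ((mnu hΦ ν _).const_mul _).aemeasurable]
  have h1 : ∀ j : ℕ, ∫⁻ x, ENNReal.ofReal (4 * K ^ 2 * (4 / 3) ^ j) *
      ν {w | ‖Φ x - w‖ ≤ δ / K ^ j} ∂μ ≤ ENNReal.ofReal (4 * K ^ 2 * C * (2 / 3) ^ j) * ν univ := by
    intro j
    rw [lintegral_const_mul _ (mnu hΦ ν _)]
    refine (mul_le_mul_right (fub hΦ μ ν (h j)) _).trans (le_of_eq ?_)
    rw [← mul_assoc, ← ENNReal.ofReal_mul (by positivity)]
    congr 2
    rw [show (4 / 3 : ℝ) = 2 / 3 * 2 by norm_num, mul_pow]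
    field_simp
  refine (ENNReal.tsum_le_tsum h1).trans (le_of_eq ?_)
  have h2 : Summable fun j : ℕ => (2 / 3 : ℝ) ^ j :=
    summable_geometric_of_lt_one (by norm_num) (by norm_num)
  rw [ENNReal.tsum_mul_right, ← ENNReal.ofReal_tsum_of_nonneg (fun j => by positivity)
    (h2.mul_left _), tsum_mul_left, tsum_geometric_of_lt_one (by norm_num) (by norm_num)]
  congr 2
  ring

end TraceAux

open TraceAux in
theorem trace_pf (α : Type*) [MeasurableSpace α] (hnm : S_nm) : S_trace α := by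
  intro K C hK
  refine ⟨72 * K ^ 2 * C ^ 2 + 12 * C ^ 2, by positivity, ?_⟩
  intro μ Φ c δ b hμ hΦ hδ hae hC hF hb
  have hC0 : 0 ≤ C := measureReal_nonneg.trans hC
  obtain ⟨E, hE⟩ : ∃ E, E = ∫ w in ball c (2 * δ), en b w := ⟨_, rfl⟩
  have hE0 : 0 ≤ E := hE ▸ integral_nonneg (en_nonneg b)
  change _ ≤ _ * ∫ w in ball c (2 * δ), en b w
  have hν : nu b c (2 * δ) univ = ENNReal.ofReal E := hE ▸ nu_univ hb c _
  haveI : IsFiniteMeasure (nu b c (2 * δ)) := ⟨hν ▸ ENNReal.ofReal_lt_top⟩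
  have hu : μ univ ≤ ENNReal.ofReal C := by
    rw [← ofReal_measureReal (measure_ne_top μ _)]
    exact ENNReal.ofReal_le_ofReal hC
  have hm := mgg hΦ (nu b c (2 * δ)) K δ
  have hg := int_gg hΦ μ (nu b c (2 * δ)) hC0 hF
  rw [hν, ← ENNReal.ofReal_mul (by positivity)] at hg
  have hmb : Measurable fun z : α × α => (b (Φ z.1) - b (Φ z.2)) ^ 2 :=
    ((hb.continuous.measurable.comp (hΦ.comp measurable_fst)).sub
      (hb.continuous.measurable.comp (hΦ.comp measurable_snd))).pow_const 2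
  rw [integral_eq_lintegral_of_nonneg_ae (ae_of_all _ fun z => sq_nonneg _)
    hmb.aestronglyMeasurable, ← hE]
  refine ENNReal.toReal_le_of_le_ofReal (by positivity) ?_
  have a1 : ∀ᵐ z ∂μ.prod μ, ‖Φ z.1 - c‖ ≤ δ := Measure.quasiMeasurePreserving_fst.ae hae
  have a2 : ∀ᵐ z ∂μ.prod μ, ‖Φ z.2 - c‖ ≤ δ := Measure.quasiMeasurePreserving_snd.ae hae
  have a3 : ∫⁻ z : α × α, ENNReal.ofReal ((b (Φ z.1) - b (Φ z.2)) ^ 2) ∂μ.prod μ ≤
      ∫⁻ z : α × α, (3 * gg (nu b c (2 * δ)) K δ (Φ z.1) + ENNReal.ofReal (12 * E)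
        + 3 * gg (nu b c (2 * δ)) K δ (Φ z.2)) ∂μ.prod μ := by
    refine lintegral_mono_ae ?_
    filter_upwards [a1, a2] with z h1 h2
    rw [hE]
    exact point hnm hb hK hδ h1 h2
  refine a3.trans ?_
  have m1 : Measurable fun z : α × α => gg (nu b c (2 * δ)) K δ (Φ z.1) := hm.comp measurable_fst
  have m2 : Measurable fun z : α × α => gg (nu b c (2 * δ)) K δ (Φ z.2) := hm.comp measurable_snd
  have b1 : ∫⁻ z : α × α, gg (nu b c (2 * δ)) K δ (Φ z.1) ∂μ.prod μ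
      ≤ ENNReal.ofReal (12 * K ^ 2 * C * E) * ENNReal.ofReal C := by
    rw [lintegral_prod _ m1.aemeasurable]
    simp only [lintegral_const]
    rw [lintegral_mul_const _ hm]
    exact mul_le_mul' hg hu
  have b2 : ∫⁻ z : α × α, gg (nu b c (2 * δ)) K δ (Φ z.2) ∂μ.prod μ
      ≤ ENNReal.ofReal (12 * K ^ 2 * C * E) * ENNReal.ofReal C := by
    rw [lintegral_prod _ m2.aemeasurable]
    simp only [lintegral_const]
    exact mul_le_mul' hg hu
  have b3 : μ.prod μ univ ≤ ENNReal.ofReal C * ENNReal.ofReal C := by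
    rw [← univ_prod_univ, Measure.prod_prod]
    exact mul_le_mul' hu hu
  rw [lintegral_add_right _ (m2.const_mul 3), lintegral_add_right _ measurable_const,
    lintegral_const_mul _ m1, lintegral_const_mul _ m2, lintegral_const]
  refine (add_le_add (add_le_add (mul_le_mul_right b1 3) (mul_le_mul_right b3 _))
    (mul_le_mul_right b2 3)).trans (le_of_eq ?_)
  rw [← ENNReal.ofReal_ofNat 3, ← ENNReal.ofReal_mul (by positivity),
    ← ENNReal.ofReal_mul (by positivity), ← ENNReal.ofReal_mul hC0,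
    ← ENNReal.ofReal_mul (by positivity), ← ENNReal.ofReal_add (by positivity) (by positivity),
    ← ENNReal.ofReal_add (by positivity) (by positivity)]
  congr 1
  ring

end Vale.Agent.P198.PB
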